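import Vale.Agent.P109N.Def2

namespace Vale.Agent.P109N

open MeasureTheory Matrix Manifold

variable {d : ℕ}

lemma asy_ev {α : ℝ} (hα : 0 < α) (b : ℝ) :
    ∀ᶠ n : ℕ in Filter.atTop, b * (n : ℝ) ^ 4 ≤ Real.exp (α * n) := by
  have h1 : Filter.Tendsto (fun n : ℕ => α * (n : ℝ)) Filter.atTop Filter.atTop :=
    tendsto_natCast_atTop_atTop.const_mul_atTop hα
  have h2 := (Real.tendsto_exp_div_pow_atTop 4).comp h1
  filter_upwards [h2.eventually_ge_atTop (b / α ^ 4), Filter.eventually_gt_atTop 0] with n h hn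
  have hn' : (0 : ℝ) < n := by exact_mod_cast hn
  simp only [Function.comp] at h
  rw [div_le_div_iff₀ (by positivity) (by positivity), mul_pow] at h
  have h3 : 0 < α ^ 4 := by positivity
  refine le_of_mul_le_mul_right ?_ h3
  linarith

lemma asy_fin {K d : ℕ} {x : ℝ} (hx : 4 ≤ x) (hK : (K : ℝ) ≤ x ^ 26) (hd : (27 * (d + 1) : ℝ) ≤ x)
    (K0 : 0 < K) : (((2 * K ^ d) ^ (K ^ d) : ℕ) : ℝ) ≤ Real.exp (x ^ (50 * (d + 1))) := by
  have x1 : 1 ≤ x := by linarith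
  have h1 : (K : ℝ) ^ d ≤ x ^ (26 * (d + 1)) := by
    refine (pow_le_pow_left₀ (Nat.cast_nonneg K) hK d).trans ?_
    rw [← pow_mul]
    exact pow_le_pow_right₀ x1 (by omega)
  have hp : (0 : ℝ) < 2 * (K : ℝ) ^ d := by positivity
  have h2 : Real.log (2 * (K : ℝ) ^ d) ≤ x ^ 2 := by
    have a1 : 2 * (K : ℝ) ^ d ≤ x ^ (27 * (d + 1)) := by
      have : 27 * (d + 1) = (d + 1) + 26 * (d + 1) := by ring
      rw [this, pow_add]
      refine mul_le_mul ?_ h1 (by positivity) (by positivity)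
      exact le_trans (by linarith) (le_self_pow₀ x1 (by omega))
    refine (Real.log_le_log hp a1).trans ?_
    rw [Real.log_pow, sq]
    push_cast
    exact mul_le_mul hd ((Real.log_le_sub_one_of_pos (by linarith)).trans (by linarith))
      (Real.log_nonneg x1) (by linarith)
  push_cast
  have e : (2 * (K : ℝ) ^ d) ^ (K ^ d) = Real.exp ((K : ℝ) ^ d * Real.log (2 * (K : ℝ) ^ d)) := by
    rw [← Nat.cast_pow, Real.exp_nat_mul, Real.exp_log (by push_cast; exact hp)]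
  rw [e, Real.exp_le_exp]
  have h3 : 0 ≤ Real.log (2 * (K : ℝ) ^ d) := by
    have : (1 : ℝ) ≤ (K : ℝ) ^ d := one_le_pow₀ (by exact_mod_cast K0)
    exact Real.log_nonneg (by linarith)
  refine (mul_le_mul h1 h2 h3 (by positivity)).trans ?_
  rw [← pow_add]
  exact pow_le_pow_right₀ x1 (by omega)

theorem asy (d R l : ℕ) (hl : 0 < l) (hR : 1 ≤ R) {c : ℝ} (hc : 0 < c) (C : ℝ) (hC : 0 ≤ C) :
    ∀ᶠ k : ℕ in Filter.atTop, ∃ G η s : ℝ, 0 < k ∧
      ((k * l : ℕ) : ℝ) * (d + 1) * 2 ^ d *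
        Real.exp (2 * (c * (k * l : ℕ) / (100 * (d + 1)) + C)) = G ∧ 0 < G ∧ 0 < η ∧ 0 < s ∧
      8 * d * R * G * (2 * G * η) ≤ 1 / (k * l : ℕ) ∧ s ≤ 2 * G * η ∧ 2 * G * η ≤ 1 ∧
      (d * R + 1) * s ≤ 1 / (k * l : ℕ) * η / 4 ∧
      (k * l : ℕ) * (R * (2 * (2 * G * η))) ≤ 1 / ((k * l : ℕ) : ℝ) ^ 2 ∧
      (((2 * (2 * ⌈(R + 1) / s⌉₊ + 3) ^ d) ^ ((2 * ⌈(R + 1) / s⌉₊ + 3) ^ d) : ℕ) : ℝ) ≤
        Real.exp (Real.exp (c * (k * l : ℕ) / 2)) := by
  obtain ⟨a, ha⟩ : ∃ a : ℝ, a = (d + 1) * 2 ^ d * Real.exp (2 * C) := ⟨_, rfl⟩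
  have d0 : (0 : ℝ) ≤ d := Nat.cast_nonneg d
  have R1 : (1 : ℝ) ≤ R := by exact_mod_cast hR
  have a1 : 1 ≤ a := by
    rw [ha]
    exact one_le_mul_of_one_le_of_one_le (one_le_mul_of_one_le_of_one_le (by linarith)
      (one_le_pow₀ (by norm_num))) (Real.one_le_exp (by linarith))
  obtain ⟨q, hq⟩ : ∃ q : ℝ, q = d * R + 1 := ⟨_, rfl⟩
  have q1 : 1 ≤ q := by rw [hq]; nlinarith
  obtain ⟨b, hb⟩ : ∃ b : ℝ, b = a + 27 * (d + 1) + 16 * q * (R + 1) := ⟨_, rfl⟩
  have qR : 2 * q ≤ q * (R + 1) := by nlinarith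
  have qR' : R + 1 ≤ q * (R + 1) := by nlinarith
  have hα : 0 < c / (100 * (d + 1)) := by positivity
  have ht : Filter.Tendsto (fun k : ℕ => k * l) Filter.atTop Filter.atTop :=
    Filter.tendsto_id.atTop_mul_const' hl
  filter_upwards [ht.eventually (asy_ev hα b), Filter.eventually_gt_atTop 0] with k hx hk
  have hn : (1 : ℝ) ≤ (k * l : ℕ) := by exact_mod_cast Nat.mul_pos hk hl
  generalize ((k * l : ℕ) : ℝ) = n at hx hn ⊢
  obtain ⟨x, hxe⟩ : ∃ x, x = Real.exp (c / (100 * (d + 1)) * n) := ⟨_, rfl⟩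
  rw [← hxe] at hx
  have n4 : n ≤ n ^ 4 := le_self_pow₀ hn (by norm_num)
  have n3 : n ^ 3 ≤ n ^ 4 := pow_le_pow_right₀ hn (by norm_num)
  have key : ∀ y z : ℝ, 0 ≤ z → y ≤ b → z ≤ n ^ 4 → y * z ≤ x := fun y z hz hy h =>
    (mul_le_mul hy h hz (by rw [hb]; linarith)).trans hx
  have x4 : 4 ≤ x := by
    have := key 4 1 zero_le_one (by rw [hb]; linarith) (by linarith)
    linarith
  have x0 : 0 < x := by linarith
  have x1 : 1 ≤ x := by linarith
  have n0 : 0 < n := by linarith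
  have eG : n * (d + 1) * 2 ^ d * Real.exp (2 * (c * n / (100 * (d + 1)) + C)) = a * n * x ^ 2 := by
    rw [ha, hxe, mul_add 2, Real.exp_add, ← Real.exp_nat_mul]
    have : (2 : ℝ) * (c * n / (100 * (d + 1))) = (2 : ℕ) * (c / (100 * (d + 1)) * n) := by
      push_cast
      ring
    rw [this]
    ring
  have e50 : Real.exp (c * n / 2) = x ^ (50 * (d + 1)) := by
    rw [hxe, ← Real.exp_nat_mul]
    congr 1
    push_cast
    field_simp
    ring
  obtain ⟨G, hG⟩ : ∃ G, G = a * n * x ^ 2 := ⟨_, rfl⟩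
  have G1 : 1 ≤ G := hG ▸ one_le_mul_of_one_le_of_one_le
    (one_le_mul_of_one_le_of_one_le a1 hn) (one_le_pow₀ x1)
  have G3 : G ≤ x ^ 3 := by
    have := mul_le_mul_of_nonneg_right (key a n n0.le (by rw [hb]; linarith) n4) (sq_nonneg x)
    rw [hG]
    linarith
  have hX : ∀ j : ℕ, j ≤ 25 → x ^ j ≤ x ^ 25 := fun j hj => pow_le_pow_right₀ x1 hj
  have X0 : 0 < x ^ 25 := by positivity
  have G0 : 0 < G := by linarith
  refine ⟨G, 1 / x ^ 25, 1 / (4 * q * n * x ^ 25), hk, eG.trans hG.symm, G0, by positivity,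
    by positivity, ?_, ?_, ?_, ?_, ?_, ?_⟩
  · have b1 := key (16 * d * R) n n0.le (by rw [hb]; linarith) n4
    have b2 : G * G ≤ x ^ 3 * x ^ 3 := mul_le_mul G3 G3 G0.le (by positivity)
    have b3 := mul_le_mul b1 b2 (by positivity) x0.le
    have b4 := hX 7 (by norm_num)
    rw [le_div_iff₀ n0]
    have : 8 * d * R * G * (2 * G * (1 / x ^ 25)) * n = 16 * d * R * n * (G * G) / x ^ 25 := by
      ring
    rw [this, div_le_one X0]
    linarith
  · have b1 : 1 / (4 * q * n * x ^ 25) ≤ 1 / x ^ 25 := by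
      refine one_div_le_one_div_of_le X0 (le_mul_of_one_le_left X0.le ?_)
      exact one_le_mul_of_one_le_of_one_le (by linarith) hn
    exact b1.trans (le_mul_of_one_le_left (by positivity) (by linarith))
  · have b1 := mul_le_mul (show 2 ≤ x by linarith) G3 G0.le x0.le
    have b4 := hX 4 (by norm_num)
    rw [mul_one_div, div_le_one X0]
    linarith
  · rw [← hq]
    refine le_of_eq ?_
    field_simp
  · have b1 := key (4 * R) (n ^ 3) (by positivity) (by rw [hb]; linarith) n3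
    have b3 := mul_le_mul b1 G3 G0.le x0.le
    have b4 := hX 4 (by norm_num)
    rw [le_div_iff₀ (by positivity)]
    have : n * (R * (2 * (2 * G * (1 / x ^ 25)))) * n ^ 2 = 4 * R * n ^ 3 * G / x ^ 25 := by
      ring
    rw [this, div_le_one X0]
    linarith
  · rw [e50]
    have b0 := key (27 * (d + 1)) 1 zero_le_one (by rw [hb]; linarith) (by linarith)
    refine asy_fin x4 ?_ (by linarith) (by omega)
    have b1 := key (16 * q * (R + 1)) n n0.le (by rw [hb]; linarith) n4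
    have b2 := Nat.ceil_lt_add_one
      (show 0 ≤ ((R : ℝ) + 1) / (1 / (4 * q * n * x ^ 25)) by positivity)
    have b3 : ((R : ℝ) + 1) / (1 / (4 * q * n * x ^ 25)) = 16 * q * (R + 1) * n * x ^ 25 / 4 := by
      field_simp
      ring
    have b4 := mul_le_mul_of_nonneg_right b1 X0.le
    have b5 := mul_le_mul_of_nonneg_right x4 X0.le
    have b6 : x ^ 2 ≤ x ^ 25 := hX 2 (by norm_num)
    push_cast
    rw [b3] at b2 ⊢
    nlinarith

end Vale.Agent.P109N
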