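import Vale.Agent.P109N.Def2

namespace Vale.Agent.P109N

open MeasureTheory Matrix Manifold

variable {d : ℕ}

theorem code_exp_le {t : ℝ} (h0 : 0 ≤ t) (h1 : t ≤ 1) : Real.exp t ≤ 1 + 2 * t := by
  have hc := convexOn_exp.2 (Set.mem_univ (0:ℝ)) (Set.mem_univ (1:ℝ))
    (sub_nonneg.mpr h1) h0 (by ring)
  simp only [smul_eq_mul, mul_zero, mul_one, zero_add, Real.exp_zero] at hc
  have he : Real.exp 1 ≤ 3 := by
    have := Real.exp_one_lt_d9
    linarith
  nlinarith

theorem code_sum {O : Type} [Fintype O] [DecidableEq O] {M : ℕ} (hM : 0 < M) {τ : ℝ}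
    (hτ : 0 < τ) (f : O → ℝ) (hf : ∀ x, 0 ≤ f x ∧ f x ≤ τ) (hs : ∑ x, f x ≤ 1) (i : Fin M) :
    ∑ χ : O → Fin M, Real.exp ((∑ x ∈ Finset.univ.filter (fun x => χ x = i), f x) / τ)
      ≤ (M:ℝ) ^ Fintype.card O * Real.exp (2 / (M * τ)) := by
  have hM' : (0:ℝ) < M := by exact_mod_cast hM
  have e1 : ∀ χ : O → Fin M, Real.exp ((∑ x ∈ Finset.univ.filter (fun x => χ x = i), f x) / τ)
      = ∏ x, (if χ x = i then Real.exp (f x / τ) else 1) := by
    intro χ
    rw [Finset.sum_div, Real.exp_sum, Finset.prod_filter]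
  simp_rw [e1]
  have e2 : ∑ χ : O → Fin M, ∏ x, (if χ x = i then Real.exp (f x / τ) else 1)
      = ∏ x, ∑ j : Fin M, (if j = i then Real.exp (f x / τ) else 1) := by
    rw [Finset.prod_univ_sum]
    simp
  rw [e2]
  have e3 : ∀ x, ∑ j : Fin M, (if j = i then Real.exp (f x / τ) else 1)
      ≤ M * Real.exp (2 * f x / (M * τ)) := by
    intro x
    have : ∀ j : Fin M, (if j = i then Real.exp (f x / τ) else 1)
        = 1 + (if j = i then Real.exp (f x / τ) - 1 else 0) := by
      intro j; split_ifs <;> ring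
    simp_rw [this]
    rw [Finset.sum_add_distrib]
    simp only [Finset.sum_const, Finset.card_univ, Fintype.card_fin, nsmul_eq_mul, mul_one,
      Finset.sum_ite_eq', Finset.mem_univ, if_true]
    have h0 : 0 ≤ f x / τ := div_nonneg (hf x).1 hτ.le
    have h1 : f x / τ ≤ 1 := (div_le_one hτ).mpr (hf x).2
    have h2 := code_exp_le h0 h1
    have h3 := Real.add_one_le_exp (2 * f x / (M * τ))
    have h4 : (M:ℝ) * (2 * f x / (M * τ) + 1) = M + 2 * (f x / τ) := by
      field_simp; ring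
    have h5 := mul_le_mul_of_nonneg_left h3 hM'.le
    linarith
  calc ∏ x, ∑ j : Fin M, (if j = i then Real.exp (f x / τ) else 1)
      ≤ ∏ x, (M * Real.exp (2 * f x / (M * τ))) := by
        apply Finset.prod_le_prod
        · intro x _
          apply Finset.sum_nonneg
          intro j _
          split_ifs
          · exact (Real.exp_pos _).le
          · exact zero_le_one
        · intro x _; exact e3 x
    _ = (M:ℝ) ^ Fintype.card O * Real.exp (∑ x, 2 * f x / (M * τ)) := by
        rw [Finset.prod_mul_distrib, Real.exp_sum]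
        simp
    _ ≤ (M:ℝ) ^ Fintype.card O * Real.exp (2 / (M * τ)) := by
        apply mul_le_mul_of_nonneg_left _ (by positivity)
        apply Real.exp_le_exp.mpr
        rw [← Finset.sum_div, ← Finset.mul_sum]
        apply div_le_div_of_nonneg_right _ (by positivity)
        linarith

theorem exists_code {O : Type} [Fintype O] [DecidableEq O] (𝓕 : Finset (O → ℝ)) {τ β : ℝ}
    (hτ : 0 < τ) {M : ℕ} (hM : 0 < M) (h : ∀ f ∈ 𝓕, (∀ x, 0 ≤ f x ∧ f x ≤ τ) ∧ ∑ x, f x ≤ 1)
    (hs : M * 𝓕.card * Real.exp (-β / τ + 2 / (M * τ)) < 1) :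
    ∃ W : Finset O, Fintype.card O ≤ W.card * M ∧ ∀ f ∈ 𝓕, ∑ x ∈ W, f x ≤ β := by
  classical
  have hM' : (0:ℝ) < M := by exact_mod_cast hM
  have : Nonempty (Fin M) := ⟨⟨0, hM⟩⟩
  set T : (O → Fin M) → ℝ := fun χ => ∑ i : Fin M, ∑ f ∈ 𝓕,
    Real.exp (-β / τ) * Real.exp ((∑ x ∈ Finset.univ.filter (fun x => χ x = i), f x) / τ)
    with hT
  have hsum : ∑ χ : O → Fin M, T χ < ∑ _χ : O → Fin M, (1:ℝ) := by
    have a1 : ∑ χ : O → Fin M, T χ = ∑ i : Fin M, ∑ f ∈ 𝓕, Real.exp (-β / τ) *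
        ∑ χ : O → Fin M,
          Real.exp ((∑ x ∈ Finset.univ.filter (fun x => χ x = i), f x) / τ) := by
      simp only [hT]
      rw [Finset.sum_comm]
      refine Finset.sum_congr rfl fun i _ => ?_
      rw [Finset.sum_comm]
      refine Finset.sum_congr rfl fun f _ => ?_
      rw [Finset.mul_sum]
    have a2 : ∑ χ : O → Fin M, T χ ≤ ∑ _i : Fin M, ∑ _f ∈ 𝓕, Real.exp (-β / τ) *
        ((M:ℝ) ^ Fintype.card O * Real.exp (2 / (M * τ))) := by
      rw [a1]
      refine Finset.sum_le_sum fun i _ => Finset.sum_le_sum fun f hf => ?_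
      exact mul_le_mul_of_nonneg_left (code_sum hM hτ f (h f hf).1 (h f hf).2 i)
        (Real.exp_pos _).le
    refine a2.trans_lt ?_
    simp only [Finset.sum_const, Finset.card_univ, Fintype.card_fin, nsmul_eq_mul, mul_one,
      Fintype.card_fun, Nat.cast_pow]
    rw [Real.exp_add] at hs
    have hp : (0:ℝ) < (M:ℝ) ^ Fintype.card O := by positivity
    have := mul_lt_mul_of_pos_left hs hp
    calc (M:ℝ) * (𝓕.card * (Real.exp (-β / τ) * ((M:ℝ) ^ Fintype.card O *
          Real.exp (2 / (M * τ)))))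
        = (M:ℝ) ^ Fintype.card O * (M * 𝓕.card * (Real.exp (-β / τ) *
          Real.exp (2 / (M * τ)))) := by ring
      _ < (M:ℝ) ^ Fintype.card O * 1 := this
      _ = _ := mul_one _
  obtain ⟨χ, -, hχ⟩ := Finset.exists_lt_of_sum_lt hsum
  have hall : ∀ i : Fin M, ∀ f ∈ 𝓕,
      ∑ x ∈ Finset.univ.filter (fun x => χ x = i), f x ≤ β := by
    intro i f hf
    have b1 : Real.exp (-β / τ) *
        Real.exp ((∑ x ∈ Finset.univ.filter (fun x => χ x = i), f x) / τ) ≤ T χ := by
      simp only [hT]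
      refine le_trans ?_ (Finset.single_le_sum (f := fun i : Fin M => ∑ f ∈ 𝓕,
        Real.exp (-β / τ) * Real.exp ((∑ x ∈ Finset.univ.filter (fun x => χ x = i), f x) / τ))
        (fun j _ => Finset.sum_nonneg fun g _ => by positivity) (Finset.mem_univ i))
      exact Finset.single_le_sum (f := fun f : O → ℝ =>
        Real.exp (-β / τ) * Real.exp ((∑ x ∈ Finset.univ.filter (fun x => χ x = i), f x) / τ))
        (fun g _ => by positivity) hf
    have b2 := b1.trans_lt hχ
    rw [← Real.exp_add, Real.exp_lt_one_iff, ← add_div, div_lt_iff₀ hτ] at b2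
    linarith
  have hcard : Fintype.card O = ∑ i : Fin M, (Finset.univ.filter (fun x => χ x = i)).card := by
    rw [← Finset.card_univ]
    exact Finset.card_eq_sum_card_fiberwise (fun x _ => Finset.mem_univ (χ x))
  obtain ⟨i, -, hi⟩ := Finset.exists_max_image (Finset.univ : Finset (Fin M))
    (fun i => (Finset.univ.filter (fun x => χ x = i)).card) Finset.univ_nonempty
  refine ⟨Finset.univ.filter (fun x => χ x = i), ?_, hall i⟩
  rw [hcard]
  calc ∑ j : Fin M, (Finset.univ.filter (fun x => χ x = j)).card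
      ≤ ∑ _j : Fin M, (Finset.univ.filter (fun x => χ x = i)).card :=
        Finset.sum_le_sum fun j hj => hi j hj
    _ = _ := by simp [mul_comm]

end Vale.Agent.P109N
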