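import Vale.Agent.P109N.Defs

/-! More definitions. -/

namespace Vale.Agent.P109N

open MeasureTheory Matrix

noncomputable section

variable {d : ℕ}

/-- the law of the names of the noisy discretised map -/
def wt (R : ℕ) (g : (E d → E d) × (E d → Bool)) (n : ℕ) (η : ℝ) (ω : Fin n → Bool) : ℝ :=
  (volume {δ : Fin (n + 1) → E d | ‖δ 0‖ ≤ R + 1 ∧ ∀ t : Fin n,
    ‖δ t.succ - g.1 (δ t.castSucc)‖ ≤ η ∧ g.2 (δ t.castSucc) = ω t}).toReal /
    ((2 * R + 2) ^ d * (2 * η) ^ (d * n))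

/-- `g` approximates `(φ, Q)` at the nice points -/
def Apx (R : ℕ) (φ : E d → E d) (A : E d → Mx d) (Q : E d → Bool)
    (g : (E d → E d) × (E d → Bool)) (s : ℝ) : Prop :=
  ∀ (y : E d) (ρ : ℝ), ‖y‖ ≤ R → s ≤ ρ → ρ ≤ 1 → Nice R φ A Q (2 * ρ) y →
    ∀ v, ‖v - y‖ ≤ ρ → ‖g.1 v - φ v‖ ≤ (d * R + 1) * s ∧ g.2 v = Q y

/-- product predictor -/
def pp {a : Lev} (p : (ℕ → Bool) → a.I → ℝ) (k : ℕ) (ω : ℕ → Bool) (x : ℕ → a.I) : ℝ :=
  ∏ i ∈ Finset.range k, p (fun s => ω (i * a.L + s)) (x i)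

def Lev.rate (a : Lev) : ℝ := Real.log (2 * a.N) / a.L

/-- concatenations of words of the level -/
def Om (a : Lev) : Set (ℤ → Bool) :=
  {ω | ∃ s < a.L, ∀ i : ℤ, ∃ u : a.I, ∀ t < a.L, ω ((s : ℤ) + i * a.L + t) = a.w u t}

def Lev.flip (a : Lev) (β : Bool) (u : a.I) : a.I := (u.1, xor u.2 β)

/-- local regularity of an abstract atlas -/
def Reg {Z : Type} {n : ℕ} (R : ℕ) (S : Z → Z) (c : Fin n → Z → E d) (s : Fin n → E d → Z)
    (a : Z → Fin n) (q : Z → Bool) (ρ : ℝ) (z : Z) : Prop :=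
  ∀ v, ‖v - c (a z) z‖ ≤ ρ → a (s (a z) v) = a z ∧ c (a z) (s (a z) v) = v ∧
    a (S (s (a z) v)) = a (S z) ∧ q (s (a z) v) = q z ∧
    DifferentiableAt ℝ (fun w => c (a (S z)) (S (s (a z) w))) v ∧
    ‖fderiv ℝ (fun w => c (a (S z)) (S (s (a z) w))) v‖ ≤ R ∧
    (fderiv ℝ (fun w => c (a (S z)) (S (s (a z) w))) v).det ≠ 0 ∧
    ∀ v', ‖v' - c (a z) z‖ ≤ ρ → ‖fderiv ℝ (fun w => c (a (S z)) (S (s (a z) w))) v -
      fderiv ℝ (fun w => c (a (S z)) (S (s (a z) w))) v'‖ ≤ R * ‖v - v'‖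

/-- an abstract finite atlas -/
structure Atl (d n R : ℕ) {Z : Type} [MeasurableSpace Z] (ν : Measure Z) (S : Z → Z)
    (P : Z → Bool) (c : Fin n → Z → E d) (s : Fin n → E d → Z) (a : Z → Fin n) (q : Z → Bool) :
    Prop where
  prob : IsProbabilityMeasure ν
  mp : MeasurePreserving S ν ν
  one : 1 ≤ R
  mP : Measurable P
  mc : ∀ i, Measurable (c i)
  ma : Measurable a
  mq : Measurable q
  inv : ∀ z, s (a z) (c (a z) z) = z
  bd : ∀ z, ‖c (a z) z‖ ≤ R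
  dens : ∀ i t, MeasurableSet t → ν ({z | a z = i} ∩ c i ⁻¹' t) ≤ R * volume t
  err : ν {z | P z ≠ q z} ≤ ENNReal.ofReal (1 / 1000)
  loc : ∀ ρ : ℝ, 0 < ρ → ν {z | ¬Reg R S c s a q ρ z} ≤ ENNReal.ofReal (R * ρ)

section
open Manifold
variable {H M : Type} [TopologicalSpace H] {I : ModelWithCorners ℝ (E d) H} [TopologicalSpace M]
  [ChartedSpace H M]

/-- the chart cut off by a bump function -/
def cf {x : M} (f : SmoothBumpFunction I x) (z : M) : E d := f z • extChartAt I x z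

/-- a global function equal to the chart distance from the centre near the centre -/
def uf {x : M} (f : SmoothBumpFunction I x) (z : M) : ℝ :=
  ‖f z • (extChartAt I x z - extChartAt I x x)‖ + f.rIn * (1 - f z)

/-- the compact coordinate domain -/
def dm {x : M} (f : SmoothBumpFunction I x) : Set (E d) :=
  Metric.closedBall (extChartAt I x x) f.rIn ∩ Set.range I

def HS (I : ModelWithCorners ℝ (E d) H) : Prop :=
  Set.range I = Set.univ ∨ ∃ i : Fin d, Set.range I = {v | 0 ≤ v i}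
end

end

end Vale.Agent.P109N
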