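import Vale.Agent.P109N.St

/-! Internal definitions. -/

namespace Vale.Agent.P109N

open MeasureTheory Matrix

noncomputable section

abbrev E (d : ℕ) := Fin d → ℝ

abbrev Mx (d : ℕ) := Matrix (Fin d) (Fin d) ℝ

variable {d : ℕ}

def Psi (A : Mx d) : ℝ := Real.log (1 + Aᵀ * A).det / 2

/-- `A (t + n - 1) * ... * A t` -/
def pr (A : ℕ → Mx d) (t : ℕ) : ℕ → Mx d
  | 0 => 1
  | n + 1 => A (t + n) * pr A t n

/-- the drop between the time scales `l` and `k * l` -/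
def Del (A : ℕ → Mx d) (l k : ℕ) : ℝ :=
  ∑ i ∈ Finset.range k, Psi (pr A (i * l) l) - Psi (pr A 0 (k * l))

/-- bound for the one step value of `Psi` -/
def CP (d R : ℕ) : ℝ := d * Real.log (1 + d * R) + d

/-- solvability of the linear orbit equation with bound `G` -/
def RIn (A : ℕ → Mx d) (n : ℕ) (G : ℝ) : Prop :=
  ∀ (e : ℕ → E d) (η : ℝ), 0 ≤ η → (∀ t < n, ‖e t‖ ≤ η) →
    ∃ δ : ℕ → E d, (∀ t < n, δ (t + 1) = A t *ᵥ δ t + e t) ∧ ∀ t ≤ n, ‖δ t‖ ≤ G * η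

/-- the same with a linear solution operator -/
def RIl (A : ℕ → Mx d) (n : ℕ) (G : ℝ) : Prop :=
  ∃ K : ℕ → ℕ → Mx d, ∀ e : ℕ → E d,
    (∀ t < n, ∑ s ∈ Finset.range n, K (t + 1) s *ᵥ e s =
      A t *ᵥ (∑ s ∈ Finset.range n, K t s *ᵥ e s) + e t) ∧
    ∀ η : ℝ, 0 ≤ η → (∀ t < n, ‖e t‖ ≤ η) → ∀ t ≤ n, ‖∑ s ∈ Finset.range n, K t s *ᵥ e s‖ ≤ G * η

def body (A : ℕ → Mx d) (n : ℕ) (ρ : ℝ) : Set (E d) := {v | ∀ t ≤ n, ‖pr A 0 t *ᵥ v‖ ≤ ρ}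

/-- pseudo-orbits near the sequence `y` -/
def tube (f : ℕ → E d → E d) (y : ℕ → E d) (n : ℕ) (ρ η : ℝ) : Set (Fin (n + 1) → E d) :=
  {δ | (∀ t, ‖δ t - y t‖ ≤ ρ) ∧ ∀ t : Fin n, ‖δ t.succ - f t (δ t.castSucc)‖ ≤ η}

def Nice (R : ℕ) (φ : E d → E d) (A : E d → Mx d) (Q : E d → Bool) (ρ : ℝ) (y : E d) : Prop :=
  ∀ v, ‖v - y‖ ≤ ρ → Q v = Q y ∧ ‖φ v‖ ≤ R ∧
    HasFDerivAt φ (LinearMap.toContinuousLinearMap (Matrix.toLin' (A v))) v ∧
    ∀ v', ‖v' - y‖ ≤ ρ → ∀ i j, |A v i j - A v' i j| ≤ R * ‖v - v'‖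

/-- a piecewise smooth coordinate model -/
structure Flat (d R : ℕ) {Z : Type} [MeasurableSpace Z] (ν : Measure Z) (S : Z → Z) (P : Z → Bool)
    (χ : Z → E d) (φ : E d → E d) (A : E d → Mx d) (Q : E d → Bool) : Prop where
  prob : IsProbabilityMeasure ν
  mp : MeasurePreserving S ν ν
  one : 1 ≤ R
  mP : Measurable P
  mχ : Measurable χ
  mA : ∀ i j, Measurable fun z => A (χ z) i j
  mQ : Measurable fun z => Q (χ z)
  bd : ∀ z, ‖χ z‖ ≤ R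
  semi : ∀ z, χ (S z) = φ (χ z)
  dens : ∀ s, MeasurableSet s → ν (χ ⁻¹' s) ≤ R * volume s
  Abd : ∀ v i j, |A v i j| ≤ R
  Adet : ∀ z, (A (χ z)).det ≠ 0
  err : ν {z | P z ≠ Q (χ z)} ≤ ENNReal.ofReal (1 / 1000)
  loc : ∀ ρ : ℝ, 0 < ρ → ν {z | ¬Nice R φ A Q ρ (χ z)} ≤ ENNReal.ofReal (R * ρ)

/-- the derivative cocycle along the orbit -/
def co {Z : Type} (S : Z → Z) (χ : Z → E d) (A : E d → Mx d) (z : Z) (t : ℕ) : Mx d :=
  A (χ (S^[t] z))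

/-- the name of the orbit -/
def nm {Z : Type} (S : Z → Z) (q : Z → Bool) (z : Z) (t : ℕ) : Bool := q (S^[t] z)

def ext {L : ℕ} (ω : Fin L → Bool) (t : ℕ) : Bool := if h : t < L then ω ⟨t, h⟩ else false

/-- a level: words of length `L` indexed by `Fin N × Bool`, closed under the flip -/
structure Lev where
  N : ℕ
  L : ℕ
  W : Fin N → ℕ → Bool

abbrev Lev.I (a : Lev) := Fin a.N × Bool

def Lev.w (a : Lev) (u : a.I) (s : ℕ) : Bool := xor (a.W u.1 s) u.2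

def Lev.Ok (a : Lev) : Prop := 0 < a.N ∧ 0 < a.L

/-- the words of `b` are balanced concatenations of `k` words of `a` -/
structure Step (a b : Lev) (k : ℕ) (ψ : b.I → ℕ → a.I) : Prop where
  ok : a.Ok
  ok' : b.Ok
  two : 2 ≤ k
  len : b.L = k * a.L
  cat : ∀ u, ∀ i < k, ∀ s < a.L, b.w u (i * a.L + s) = a.w (ψ u i) s
  bal : ∀ u v, ((Finset.range k).filter fun i => ψ u i = v).card * (2 * a.N) = k

def St (a b : Lev) : Prop := ∃ k ψ, Step a b k ψ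

/-- many pairwise distant words -/
def Good (a : Lev) : Prop := a.Ok ∧ 2 ^ 200 ≤ a.N ∧
  ∀ u v : a.I, u ≠ v → a.L ≤ 2 * ((Finset.range a.L).filter fun s => a.w u s ≠ a.w v s).card

/-- joint law of the state at the start of a block and the index of the block -/
structure Joint {Z : Type} [MeasurableSpace Z] (ν : Measure Z) (S : Z → Z) (P : Z → Bool)
    (a : Lev) (m : Measure (Z × a.I)) : Prop where
  prob : IsProbabilityMeasure m
  avg : ∑ s ∈ Finset.range a.L, m.map (fun p => S^[s] p.1) = (a.L : ENNReal) • ν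
  unif : ∀ u, m {p | p.2 = u} = (2 * a.N : ENNReal)⁻¹
  name : ∀ᵐ p ∂m, ∀ s < a.L, P (S^[s] p.1) = a.w p.2 s

/-- the induced law one level down -/
def down {Z : Type} [MeasurableSpace Z] (S : Z → Z) {a b : Lev} (k : ℕ) (ψ : b.I → ℕ → a.I)
    (m : Measure (Z × b.I)) : Measure (Z × a.I) :=
  (k : ENNReal)⁻¹ • ∑ i ∈ Finset.range k, m.map fun p => (S^[i * a.L] p.1, ψ p.2 i)

def Kill (d R : ℕ) (b : Lev) : Prop :=
  ∀ (Z : Type) [MeasurableSpace Z] (ν : Measure Z) (S : Z → Z) (P : Z → Bool) (χ : Z → E d)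
    (φ : E d → E d) (A : E d → Mx d) (Q : E d → Bool), Flat d R ν S P χ φ A Q →
    ∀ m, ¬Joint ν S P b m

/-- a predictor of the index from the observed name -/
structure Pred (a : Lev) (p : (ℕ → Bool) → a.I → ℝ) : Prop where
  pos : ∀ ω u, 0 < p ω u
  sum : ∀ ω, ∑ u, p ω u ≤ 1
  loc : ∀ ω ω', (∀ s < a.L, ω s = ω' s) → p ω = p ω'

def cost {Z : Type} [MeasurableSpace Z] (S : Z → Z) (q : Z → Bool) {a : Lev}
    (p : (ℕ → Bool) → a.I → ℝ) (m : Measure (Z × a.I)) : ℝ :=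
  ∫ x, -Real.log (p (nm S q x.1) x.2) ∂m

/-- the finite time exponent -/
def Lam {Z : Type} [MeasurableSpace Z] (S : Z → Z) (χ : Z → E d) (A : E d → Mx d) {a : Lev}
    (m : Measure (Z × a.I)) : ℝ := (∫ x, Psi (pr (co S χ A x.1) 0 a.L) ∂m) / a.L

/-- every model has a predictor in `F` with cost at most `x + y * exponent` per symbol -/
def Inv (d R : ℕ) (a : Lev) (F : Finset ((ℕ → Bool) → a.I → ℝ)) (x y : ℝ) : Prop :=
  (∀ p ∈ F, Pred a p) ∧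
  ∀ (Z : Type) [MeasurableSpace Z] (ν : Measure Z) (S : Z → Z) (P : Z → Bool) (χ : Z → E d)
    (φ : E d → E d) (A : E d → Mx d) (Q : E d → Bool), Flat d R ν S P χ φ A Q →
    ∀ m, Joint ν S P a m → ∃ p ∈ F,
      cost S (fun z => Q (χ z)) p m ≤ (x - y * Lam S χ A m) * a.L

/-- a finite family of laws dominating the names of the orbits without a large drop -/
def DomBy (d R l k : ℕ) (D γ : ℝ) (𝓝 : Finset ((Fin (k * l) → Bool) → ℝ)) : Prop :=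
  (∀ w ∈ 𝓝, (∀ ω, 0 ≤ w ω) ∧ ∑ ω, w ω ≤ 1) ∧
  ∀ (Z : Type) [MeasurableSpace Z] (ν : Measure Z) (S : Z → Z) (P : Z → Bool) (χ : Z → E d)
    (φ : E d → E d) (A : E d → Mx d) (Q : E d → Bool), Flat d R ν S P χ φ A Q →
    ∃ w ∈ 𝓝, ∃ G : Set Z, MeasurableSet G ∧
      ν (Gᶜ ∩ {z | Del (co S χ A z) l k ≤ D}) ≤ ENNReal.ofReal (1 / ((k * l : ℕ) : ℝ) ^ 2) ∧
      ∀ ω, ν (G ∩ {z | ∀ t : Fin (k * l), Q (χ (S^[t] z)) = ω t}) ≤
        ENNReal.ofReal (Real.exp γ * w ω)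

/-- a sequence of levels -/
structure Chain (a : ℕ → Lev) (k : ℕ → ℕ) (ψ : ∀ j, (a (j + 1)).I → ℕ → (a j).I) : Prop where
  step : ∀ j, Step (a j) (a (j + 1)) (k j) (ψ j)

end

end Vale.Agent.P109N
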