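import Vale.Agent.P109N.Def2

namespace Vale.Agent.P109N

open MeasureTheory Matrix Manifold

variable {d : ℕ}

theorem Tri_tail (n : ℕ) : MeasurePreserving (fun δ : Fin (n + 1) → E d =>
    (δ 0, fun t : Fin n => δ t.succ)) volume (volume : Measure (E d × (Fin n → E d))) :=
  volume_preserving_piFinSuccAbove (fun _ => E d) 0

theorem Tri_cons (n : ℕ) : MeasurePreserving (fun p : E d × (Fin n → E d) =>
    (Fin.cons p.1 p.2 : Fin (n + 1) → E d)) volume volume := by
  have e : (fun p : E d × (Fin n → E d) => (Fin.cons p.1 p.2 : Fin (n + 1) → E d)) =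
      (MeasurableEquiv.piFinSuccAbove (fun _ : Fin (n + 1) => E d) 0).symm :=
    funext fun p => (Fin.insertNth_zero' p.1 p.2).symm
  rw [e]
  exact (volume_preserving_piFinSuccAbove (fun _ => E d) 0).symm _

theorem tri_mp {n : ℕ} (f : ℕ → E d → E d) (hf : ∀ t, Measurable (f t)) :
    MeasurePreserving (fun δ : Fin (n + 1) → E d =>
      (δ 0, fun t : Fin n => δ t.succ - f t (δ t.castSucc))) volume
      (volume : Measure (E d × (Fin n → E d))) := by
  induction n generalizing f with
  | zero =>
    have e : (fun δ : Fin (0 + 1) → E d => (δ 0, fun t : Fin 0 => δ t.succ - f t (δ t.castSucc))) =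
        fun δ => (δ 0, fun t : Fin 0 => δ t.succ) :=
      funext fun δ => Prod.ext rfl (funext fun t => t.elim0)
    rw [e]
    exact Tri_tail 0
  | succ n ih =>
    have h1 := ih (fun t => f (t + 1)) fun t => hf _
    let g : E d → (Fin (n + 1) → E d) → Fin (n + 1) → E d := fun x u =>
      Fin.cons (u 0 - f 0 x) fun t : Fin n => u t.succ - f (t + 1) (u t.castSucc)
    have h2 : ∀ x, MeasurePreserving (g x) volume volume := fun x =>
      (Tri_cons n).comp (((measurePreserving_sub_right volume (f 0 x)).prod
        (MeasurePreserving.id volume)).comp h1)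
    have h3 : Measurable (Function.uncurry g) :=
      (Tri_cons n).measurable.comp (f := fun p : E d × (Fin (n + 1) → E d) =>
        (p.2 0 - f 0 p.1, fun t : Fin n => p.2 t.succ - f (t + 1) (p.2 t.castSucc)))
        ((((measurable_pi_apply 0).comp measurable_snd).sub ((hf 0).comp measurable_fst)).prodMk
          (h1.measurable.snd.comp measurable_snd))
    have h4 := ((MeasurePreserving.id volume).skew_product h3
      (Filter.Eventually.of_forall fun x => (h2 x).map_eq)).comp (Tri_tail (d := d) (n + 1))
    have e : (fun δ : Fin (n + 1 + 1) → E d =>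
        (δ 0, fun t : Fin (n + 1) => δ t.succ - f t (δ t.castSucc))) =
        (fun p : E d × (Fin (n + 1) → E d) => (id p.1, g p.1 p.2)) ∘
          fun δ : Fin (n + 1 + 1) → E d => (δ 0, fun t : Fin (n + 1) => δ t.succ) := by
      funext δ
      refine Prod.ext rfl (funext fun t => ?_)
      induction t using Fin.cases with
      | zero => rfl
      | succ t => rfl
    rw [e]
    exact h4

theorem vol_box (n : ℕ) {η : ℝ} (hη : 0 ≤ η) :
    volume {e : Fin n → E d | ∀ t, ‖e t‖ ≤ η} = ENNReal.ofReal ((2 * η) ^ (d * n)) := by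
  have e : {e : Fin n → E d | ∀ t, ‖e t‖ ≤ η} =
      Set.pi Set.univ fun _ => Metric.closedBall (0 : E d) η := by
    ext e
    simp
  rw [e, volume_pi_pi, Finset.prod_const, Real.volume_pi_closedBall _ hη,
    ← ENNReal.ofReal_pow (by positivity), ← pow_mul]
  simp

theorem tri_inj {n : ℕ} (f : ℕ → E d → E d) : Function.Bijective (fun δ : Fin (n + 1) → E d =>
      ((δ 0, fun t : Fin n => δ t.succ - f t (δ t.castSucc)) : E d × (Fin n → E d))) := by
  constructor
  · intro δ δ' h
    funext t
    induction t using Fin.induction with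
    | zero => exact congrArg Prod.fst h
    | succ t ih =>
      have h1 : δ t.succ - f t (δ t.castSucc) = δ' t.succ - f t (δ' t.castSucc) :=
        congrFun (congrArg Prod.snd h) t
      rwa [ih, sub_left_inj] at h1
  · rintro ⟨x, e⟩
    let y : ℕ → E d := fun t =>
      Nat.rec x (fun t y => (if h : t < n then e ⟨t, h⟩ else 0) + f t y) t
    refine ⟨fun t => y t, Prod.ext rfl (funext fun t => ?_)⟩
    change (if h : t.1 < n then e ⟨t, h⟩ else 0) + f t (y t) - f t (y t) = e t
    rw [dif_pos t.2, add_sub_cancel_right]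

end Vale.Agent.P109N
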