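import Vale.Agent.P109N.Def2
import Vale.Agent.P109N.Tri

namespace Vale.Agent.P109N

open MeasureTheory Matrix Manifold

variable {d : ℕ}

theorem wt_nonneg (R : ℕ) (g : (E d → E d) × (E d → Bool)) (n : ℕ) {η : ℝ} (hη : 0 < η)
    (ω : Fin n → Bool) : 0 ≤ wt R g n η ω := by
  unfold wt
  positivity

theorem DomW_big (R : ℕ) {g : E d → E d} (h1 : Measurable g) (n : ℕ) {η : ℝ} (hη : 0 < η) :
    volume {δ : Fin (n + 1) → E d | ‖δ 0‖ ≤ R + 1 ∧ ∀ t : Fin n,
      ‖δ t.succ - g (δ t.castSucc)‖ ≤ η} =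
      ENNReal.ofReal ((2 * R + 2) ^ d * (2 * η) ^ (d * n)) := by
  have hm : MeasurableSet {e : Fin n → E d | ∀ t, ‖e t‖ ≤ η} := by
    rw [Set.setOf_forall]
    exact MeasurableSet.iInter fun t => measurableSet_le (by fun_prop) measurable_const
  have h := (tri_mp (n := n) (fun _ => g) fun _ => h1).measure_preimage
    (s := Metric.closedBall (0 : E d) (R + 1) ×ˢ {e : Fin n → E d | ∀ t, ‖e t‖ ≤ η})
    (Metric.isClosed_closedBall.measurableSet.prod hm).nullMeasurableSet
  rw [Measure.volume_eq_prod, Measure.prod_prod, vol_box n hη.le,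
    Real.volume_pi_closedBall _ (by positivity), ← ENNReal.ofReal_mul (by positivity),
    Fintype.card_fin, mul_add, mul_one] at h
  rw [← h]
  congr 1
  ext δ
  simp

theorem DomW_fin (R : ℕ) {g : (E d → E d) × (E d → Bool)} (h1 : Measurable g.1) (n : ℕ) {η : ℝ}
    (hη : 0 < η) (ω : Fin n → Bool) :
    volume {δ : Fin (n + 1) → E d | ‖δ 0‖ ≤ R + 1 ∧ ∀ t : Fin n,
      ‖δ t.succ - g.1 (δ t.castSucc)‖ ≤ η ∧ g.2 (δ t.castSucc) = ω t} ≠ ⊤ := by
  refine ne_top_of_le_ne_top (ENNReal.ofReal_ne_top) ((measure_mono ?_).trans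
    (DomW_big R h1 n hη).le)
  exact fun δ h => ⟨h.1, fun t => (h.2 t).1⟩

theorem wt_sum (R : ℕ) {g : (E d → E d) × (E d → Bool)} (h1 : Measurable g.1) (h2 : Measurable g.2)
    (n : ℕ) {η : ℝ} (hη : 0 < η) : ∑ ω, wt R g n η ω ≤ 1 := by
  have hc : (0 : ℝ) < (2 * R + 2) ^ d * (2 * η) ^ (d * n) := by positivity
  unfold wt
  rw [← Finset.sum_div, div_le_one hc, ← ENNReal.toReal_sum fun ω _ => DomW_fin R h1 n hη ω]
  refine ENNReal.toReal_le_of_le_ofReal hc.le ?_
  rw [← DomW_big R h1 n hη, ← measure_biUnion_finset]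
  · refine measure_mono (Set.iUnion₂_subset fun ω _ => ?_)
    exact fun δ h => ⟨h.1, fun t => (h.2 t).1⟩
  · intro ω _ ω' _ hne
    refine Set.disjoint_left.2 fun δ h h' => hne (funext fun t => ?_)
    exact (h.2 t).2.symm.trans (h'.2 t).2
  · intro ω _
    rw [Set.setOf_and, Set.setOf_forall]
    refine (measurableSet_le (by fun_prop) measurable_const).inter
      (MeasurableSet.iInter fun t => ?_)
    rw [Set.setOf_and]
    refine (measurableSet_le ?_ measurable_const).inter ?_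
    · fun_prop
    · have : Measurable fun a : Fin (n + 1) → E d => g.2 (a t.castSucc) := by fun_prop
      exact this (measurableSet_singleton (ω t))

theorem wt_vol (R : ℕ) {g : (E d → E d) × (E d → Bool)} (h1 : Measurable g.1) (n : ℕ) {η : ℝ}
    (hη : 0 < η) (ω : Fin n → Bool) :
    volume {δ : Fin (n + 1) → E d | ‖δ 0‖ ≤ R + 1 ∧ ∀ t : Fin n,
      ‖δ t.succ - g.1 (δ t.castSucc)‖ ≤ η ∧ g.2 (δ t.castSucc) = ω t} =
      ENNReal.ofReal ((2 * R + 2) ^ d * (2 * η) ^ (d * n) * wt R g n η ω) := by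
  have hc : (0 : ℝ) < (2 * R + 2) ^ d * (2 * η) ^ (d * n) := by positivity
  rw [wt, mul_div_cancel₀ _ hc.ne', ENNReal.ofReal_toReal (DomW_fin R h1 n hη ω)]

theorem exists_sep {X : Type} [NormedAddCommGroup X] [ProperSpace X] (Y : Set X) {R r : ℝ}
    (hY : ∀ y ∈ Y, ‖y‖ ≤ R) (hr : 0 < r) : ∃ T : Finset X, ↑T ⊆ Y ∧
      (∀ x ∈ T, ∀ x' ∈ T, x ≠ x' → r < ‖x - x'‖) ∧ ∀ y ∈ Y, ∃ x ∈ T, ‖y - x‖ ≤ r := by
  classical
  by_contra hne
  push Not at hne
  have key : ∀ k : ℕ, ∃ T : Finset X, ↑T ⊆ Y ∧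
      (∀ x ∈ T, ∀ x' ∈ T, x ≠ x' → r < ‖x - x'‖) ∧ T.card = k := by
    intro k
    induction k with
    | zero => exact ⟨∅, by simp, by simp, rfl⟩
    | succ k ih =>
      obtain ⟨T, t1, t2, t3⟩ := ih
      obtain ⟨y, hy, hy'⟩ := hne T t1 t2
      have hyT : y ∉ T := fun h => by
        have := hy' y h
        rw [sub_self, norm_zero] at this
        linarith
      refine ⟨insert y T, ?_, ?_, by rw [Finset.card_insert_of_notMem hyT, t3]⟩
      · rw [Finset.coe_insert]
        exact Set.insert_subset hy t1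
      · intro x hx x' hx' hxx
        rcases Finset.mem_insert.1 hx with e | hx
        · rcases Finset.mem_insert.1 hx' with e' | hx'
          · exact absurd (e.trans e'.symm) hxx
          · rw [e]; exact hy' x' hx'
        · rcases Finset.mem_insert.1 hx' with e' | hx'
          · rw [e', norm_sub_rev]; exact hy' x hx
          · exact t2 x hx x' hx' hxx
  obtain ⟨C, -, hC, hcov⟩ := finite_cover_balls_of_compact (isCompact_closedBall (0 : X) R)
    (half_pos hr)
  have hch : ∀ y ∈ Y, ∃ c ∈ C, y ∈ Metric.ball c (r / 2) := fun y hy => by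
    simpa using hcov (mem_closedBall_zero_iff.2 (hY y hy))
  choose! c c1 c2 using hch
  obtain ⟨T, t1, t2, t3⟩ := key (hC.toFinset.card + 1)
  have : T.card ≤ hC.toFinset.card := by
    refine Finset.card_le_card_of_injOn c (fun x hx => by simpa using c1 x (t1 hx)) ?_
    intro x hx x' hx' h
    by_contra hxx
    have a1 := t2 x hx x' hx' hxx
    have a2 := Metric.mem_ball.1 (c2 x (t1 hx))
    have a3 := Metric.mem_ball.1 (c2 x' (t1 hx'))
    have a4 := dist_triangle_right x x' (c x)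
    rw [← h] at a3
    rw [dist_eq_norm] at a4
    linarith
  omega

end Vale.Agent.P109N
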