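import Vale.Agent.P109N.Def2

namespace Vale.Agent.P109N

open MeasureTheory Matrix Manifold

variable {d : ℕ}

theorem ri2_mul {M : Mx d} {c : ℝ} (hc : 0 ≤ c) (h : ∀ i j, |M i j| ≤ c) (v : E d) :
    ‖M *ᵥ v‖ ≤ d * c * ‖v‖ := by
  refine (pi_norm_le_iff_of_nonneg (by positivity)).2 fun i => ?_
  have h1 : ∀ j, ‖M i j * v j‖ ≤ c * ‖v‖ := fun j => by
    rw [norm_mul]
    exact mul_le_mul (h i j) (norm_le_pi_norm v j) (norm_nonneg _) hc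
  refine (norm_sum_le_of_le Finset.univ fun j _ => h1 j).trans (le_of_eq ?_)
  simp [mul_assoc]

theorem RIl.rin {A : ℕ → Mx d} {n : ℕ} {G : ℝ} (h : RIl A n G) : RIn A n G := by
  obtain ⟨K, hK⟩ := h
  intro e η hη he
  exact ⟨fun t => ∑ s ∈ Finset.range n, K t s *ᵥ e s, (hK e).1, (hK e).2 η hη he⟩

theorem RIn.mono {A : ℕ → Mx d} {n : ℕ} {G G' : ℝ} (h : RIn A n G) (hG : G ≤ G') : RIn A n G' := by
  intro e η hη he
  obtain ⟨δ, h1, h2⟩ := h e η hη he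
  exact ⟨δ, h1, fun t ht => (h2 t ht).trans (mul_le_mul_of_nonneg_right hG hη)⟩

def ri2x {n : ℕ} (δ : Fin (n + 1) → E d) (s : ℕ) : E d := if h : s < n + 1 then δ ⟨s, h⟩ else 0

theorem ri2x_le {n : ℕ} (δ : Fin (n + 1) → E d) (s : ℕ) : ‖ri2x δ s‖ ≤ ‖δ‖ := by
  unfold ri2x
  split_ifs
  · exact norm_le_pi_norm δ _
  · simp

theorem ri2x_sub {n : ℕ} (δ δ' : Fin (n + 1) → E d) (s : ℕ) :
    ri2x (δ - δ') s = ri2x δ s - ri2x δ' s := by
  unfold ri2x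
  split_ifs <;> simp

theorem RIl.pert {A A' : ℕ → Mx d} {n : ℕ} {G ζ : ℝ} (h : RIl A n G) (hG : 0 ≤ G) (hζ : 0 ≤ ζ)
    (hA : ∀ t < n, ∀ i j, |A' t i j - A t i j| ≤ ζ) (hs : d * G * ζ ≤ 1 / 2) : RIn A' n (2 * G) := by
  obtain ⟨K, hK⟩ := h
  intro e η hη he
  have hb : ∀ (δ : Fin (n + 1) → E d), ∀ t < n, ‖(A' t - A t) *ᵥ ri2x δ t‖ ≤ d * ζ * ‖δ‖ :=
    fun δ t ht => (ri2_mul (M := A' t - A t) hζ (hA t ht) _).trans
      (mul_le_mul_of_nonneg_left (ri2x_le δ t) (by positivity))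
  let Φ : (Fin (n + 1) → E d) → Fin (n + 1) → E d := fun δ t =>
    ∑ s ∈ Finset.range n, K t s *ᵥ (e s + (A' s - A s) *ᵥ ri2x δ s)
  have hc : ContractingWith (1 / 2) Φ := by
    refine ⟨by norm_num, LipschitzWith.of_dist_le_mul fun δ δ' => ?_⟩
    rw [dist_eq_norm, dist_eq_norm]
    refine (pi_norm_le_iff_of_nonneg (by positivity)).2 fun t => ?_
    have e1 : (Φ δ - Φ δ') t =
        ∑ s ∈ Finset.range n, K t s *ᵥ ((A' s - A s) *ᵥ ri2x (δ - δ') s) := by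
      simp only [Φ, Pi.sub_apply, ← Finset.sum_sub_distrib]
      refine Finset.sum_congr rfl fun s _ => ?_
      rw [← Matrix.mulVec_sub, ri2x_sub, Matrix.mulVec_sub (A' s - A s), add_sub_add_left_eq_sub]
    rw [e1]
    refine ((hK _).2 _ (by positivity) (hb (δ - δ')) t (Nat.lt_succ_iff.1 t.2)).trans ?_
    have := mul_le_mul_of_nonneg_right hs (norm_nonneg (δ - δ'))
    push_cast
    linarith
  obtain ⟨δ, hδ⟩ : ∃ δ, Φ δ = δ := ⟨_, hc.fixedPoint_isFixedPt⟩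
  obtain ⟨k1, k2⟩ := hK fun s => e s + (A' s - A s) *ᵥ ri2x δ s
  have k3 : ∀ t ≤ n, ri2x δ t =
      ∑ s ∈ Finset.range n, K t s *ᵥ (e s + (A' s - A s) *ᵥ ri2x δ s) := fun t ht => by
    have := congrFun hδ ⟨t, Nat.lt_succ_of_le ht⟩
    rw [ri2x, dif_pos (Nat.lt_succ_of_le ht), ← this]
  have k4 : ‖δ‖ ≤ G * (η + d * ζ * ‖δ‖) := by
    refine (pi_norm_le_iff_of_nonneg (by positivity)).2 fun t => ?_
    rw [← congrFun hδ t]
    exact k2 _ (by positivity) (fun s hs' => (norm_add_le _ _).trans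
      (add_le_add (he s hs') (hb δ s hs'))) t (Nat.lt_succ_iff.1 t.2)
  refine ⟨ri2x δ, fun t ht => ?_, fun t _ => (ri2x_le δ t).trans ?_⟩
  · rw [k3 (t + 1) ht, k1 t ht, ← k3 t ht.le, Matrix.sub_mulVec]
    abel
  · have := mul_le_mul_of_nonneg_right hs (norm_nonneg δ)
    linarith

end Vale.Agent.P109N
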