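import Vale.Agent.P109N.Def2

namespace Vale.Agent.P109N

open MeasureTheory Matrix Manifold

variable {d : ℕ}

theorem Nice.mono {R : ℕ} {φ : E d → E d} {A : E d → Mx d} {Q : E d → Bool} {ρ r : ℝ} {y : E d}
    (h : Nice R φ A Q ρ y) (hr : r ≤ ρ) : Nice R φ A Q r y := fun v hv =>
  ⟨(h v (hv.trans hr)).1, (h v (hv.trans hr)).2.1, (h v (hv.trans hr)).2.2.1,
    fun v' hv' => (h v (hv.trans hr)).2.2.2 v' (hv'.trans hr)⟩

theorem mulVec_le {M : Mx d} {c : ℝ} (hc : 0 ≤ c) (h : ∀ i j, |M i j| ≤ c) (v : E d) :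
    ‖M *ᵥ v‖ ≤ d * c * ‖v‖ := by
  refine (pi_norm_le_iff_of_nonneg (by positivity)).2 fun i => ?_
  have : ∀ j ∈ (Finset.univ : Finset (Fin d)), ‖M i j * v j‖ ≤ c * ‖v‖ := fun j _ => by
    rw [norm_mul]
    exact mul_le_mul (h i j) (norm_le_pi_norm v j) (norm_nonneg _) hc
  refine (norm_sum_le_of_le _ this).trans (le_of_eq ?_)
  rw [Finset.sum_const, Finset.card_univ, Fintype.card_fin, nsmul_eq_mul, mul_assoc]

theorem Lin_op {M : Mx d} {c : ℝ} (hc : 0 ≤ c) (h : ∀ i j, |M i j| ≤ c) :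
    ‖LinearMap.toContinuousLinearMap (Matrix.toLin' M)‖ ≤ d * c :=
  ContinuousLinearMap.opNorm_le_bound _ (by positivity) fun v => mulVec_le hc h v

theorem Nice.lin {R : ℕ} {φ : E d → E d} {A : E d → Mx d} {Q : E d → Bool} {ρ : ℝ} {y : E d}
    (h : Nice R φ A Q ρ y) {v v' : E d} (hv : ‖v - y‖ ≤ ρ) (hv' : ‖v' - y‖ ≤ ρ) :
    ‖φ v - φ v' - A y *ᵥ (v - v')‖ ≤ d * R * ρ * ‖v - v'‖ := by
  have hρ : 0 ≤ ρ := (norm_nonneg _).trans hv
  have key := (convex_closedBall y ρ).norm_image_sub_le_of_norm_hasFDerivWithin_le'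
    (f := φ) (f' := fun w => LinearMap.toContinuousLinearMap (Matrix.toLin' (A w)))
    (φ := LinearMap.toContinuousLinearMap (Matrix.toLin' (A y))) (C := d * (R * ρ))
    (fun w hw => (h w (mem_closedBall_iff_norm.1 hw)).2.2.1.hasFDerivWithinAt)
    (fun w hw => by
      have hw' := mem_closedBall_iff_norm.1 hw
      rw [← map_sub, ← map_sub]
      refine Lin_op (by positivity) fun i j => ?_
      exact ((h w hw').2.2.2 y (by simpa using hρ) i j).trans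
        (mul_le_mul_of_nonneg_left hw' (Nat.cast_nonneg R)))
    (mem_closedBall_iff_norm.2 hv') (mem_closedBall_iff_norm.2 hv)
  rw [← mul_assoc] at key
  exact key

theorem Nice.lip {R : ℕ} {φ : E d → E d} {A : E d → Mx d} {Q : E d → Bool} {ρ : ℝ} {y : E d}
    (h : Nice R φ A Q ρ y) (hA : ∀ v i j, |A v i j| ≤ R) {v v' : E d} (hv : ‖v - y‖ ≤ ρ)
    (hv' : ‖v' - y‖ ≤ ρ) : ‖φ v - φ v'‖ ≤ d * R * ‖v - v'‖ :=
  (convex_closedBall y ρ).norm_image_sub_le_of_norm_hasFDerivWithin_le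
    (f := φ) (f' := fun w => LinearMap.toContinuousLinearMap (Matrix.toLin' (A w)))
    (fun w hw => (h w (mem_closedBall_iff_norm.1 hw)).2.2.1.hasFDerivWithinAt)
    (fun w _ => Lin_op (Nat.cast_nonneg R) (hA w))
    (mem_closedBall_iff_norm.2 hv') (mem_closedBall_iff_norm.2 hv)

end Vale.Agent.P109N
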