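import Vale.Agent.P109N.Def2
import Vale.Agent.P109N.Tri

namespace Vale.Agent.P109N

open MeasureTheory Matrix Manifold
open scoped Pointwise

variable {d : ℕ}

theorem v1_cont (B : Mx d) : Continuous fun v : E d => B *ᵥ v :=
  continuous_const.matrix_mulVec continuous_id

theorem body_meas (A : ℕ → Mx d) (n : ℕ) (ρ : ℝ) : MeasurableSet (body A n ρ) := by
  refine IsClosed.measurableSet ?_
  simp only [body, Set.setOf_forall]
  exact isClosed_iInter fun t => isClosed_iInter fun _ =>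
    isClosed_le (v1_cont _).norm continuous_const

theorem body_scale (A : ℕ → Mx d) (n : ℕ) (ρ : ℝ) {c : ℝ} (hc : 0 < c) :
    volume (body A n (c * ρ)) = ENNReal.ofReal (c ^ d) * volume (body A n ρ) := by
  have e : body A n (c * ρ) = c • body A n ρ := by
    ext v
    rw [Set.mem_smul_set_iff_inv_smul_mem₀ hc.ne']
    simp only [body, Set.mem_setOf_eq, mulVec_smul, norm_smul, norm_inv, Real.norm_eq_abs,
      abs_of_pos hc, inv_mul_le_iff₀ hc]
  rw [e, Measure.addHaar_smul, Module.finrank_fin_fun, abs_of_pos (pow_pos hc _)]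

theorem body_pos (A : ℕ → Mx d) (n : ℕ) {ρ : ℝ} (h : 0 < ρ) :
    volume (body A n ρ) ≠ 0 ∧ volume (body A n ρ) ≠ ⊤ := by
  constructor
  · have o : IsOpen (⋂ t ∈ Finset.range (n + 1), {v : E d | ‖pr A 0 t *ᵥ v‖ < ρ}) :=
      isOpen_biInter_finset fun t _ => isOpen_lt (v1_cont _).norm continuous_const
    refine (lt_of_lt_of_le (o.measure_pos volume ⟨0, by simp [h]⟩) (measure_mono ?_)).ne'
    intro v hv t ht
    simp only [Set.mem_iInter, Finset.mem_range, Set.mem_setOf_eq] at hv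
    exact (hv t (by omega)).le
  · refine ne_top_of_le_ne_top (measure_closedBall_lt_top (x := (0 : E d)) (r := ρ)).ne
      (measure_mono fun v hv => ?_)
    simpa [pr] using hv 0 (Nat.zero_le n)

/-- extension by zero -/
def v1e {n : ℕ} (e : Fin n → E d) (t : ℕ) : E d := if h : t < n then e ⟨t, h⟩ else 0

/-- the solution with given start and errors -/
def v1Z (A : ℕ → Mx d) {n : ℕ} (p : E d × (Fin n → E d)) : ℕ → E d
  | 0 => p.1
  | t + 1 => A t *ᵥ v1Z A p t + v1e p.2 t

theorem v1Z_cont (A : ℕ → Mx d) (n t : ℕ) :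
    Continuous fun p : E d × (Fin n → E d) => v1Z A p t := by
  induction t with
  | zero => exact continuous_fst
  | succ t ih =>
    refine ((v1_cont (A t)).comp ih).add ?_
    unfold v1e
    split_ifs
    · fun_prop
    · exact continuous_const

theorem v1_vol (A : ℕ → Mx d) (n : ℕ) (ρ η : ℝ) :
    volume (tube (fun t v => A t *ᵥ v) 0 n ρ η) = ∫⁻ e : Fin n → E d,
      volume {v : E d | (∀ t, ‖e t‖ ≤ η) ∧ ∀ t ≤ n, ‖v1Z A (v, e) t‖ ≤ ρ} := by
  have hT : MeasurableSet {p : E d × (Fin n → E d) |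
      (∀ t, ‖p.2 t‖ ≤ η) ∧ ∀ t ≤ n, ‖v1Z A p t‖ ≤ ρ} := by
    refine IsClosed.measurableSet ?_
    simp only [Set.setOf_and, Set.setOf_forall]
    exact (isClosed_iInter fun t => isClosed_le (by fun_prop) continuous_const).inter
      (isClosed_iInter fun t => isClosed_iInter fun _ =>
        isClosed_le (v1Z_cont A n t).norm continuous_const)
  have mp := tri_mp (n := n) (fun t (v : E d) => A t *ᵥ v) fun t => (v1_cont (A t)).measurable
  have e := mp.measure_preimage hT.nullMeasurableSet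
  rw [Measure.volume_eq_prod, Measure.prod_apply_symm hT] at e
  refine Eq.trans ?_ e
  congr 1
  ext δ
  have k : ∀ t (h : t < n + 1),
      v1Z A (δ 0, fun t : Fin n => δ t.succ - A t *ᵥ δ t.castSucc) t = δ ⟨t, h⟩ := by
    intro t
    induction t with
    | zero => intro h; rfl
    | succ t ih =>
      intro h
      have h' : t < n := by omega
      rw [v1Z, ih (by omega), v1e, dif_pos h']
      exact add_sub_cancel _ _
  simp only [tube, Set.mem_setOf_eq, Set.mem_preimage, Pi.zero_apply, sub_zero]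
  rw [and_comm]
  refine and_congr Iff.rfl ⟨fun h t ht => ?_, fun h t => ?_⟩
  · rw [k t (by omega)]
    exact h _
  · have := h t (by omega)
    rwa [k t t.2] at this

theorem v1_sol {A : ℕ → Mx d} {n : ℕ} {G η : ℝ} (h : RIn A n G) (hη : 0 ≤ η) {e : Fin n → E d}
    (he : ∀ t, ‖e t‖ ≤ η) : ∃ δ : ℕ → E d, (∀ t ≤ n, ‖δ t‖ ≤ G * η) ∧
      ∀ v, ∀ t ≤ n, v1Z A (v, e) t = pr A 0 t *ᵥ (v - δ 0) + δ t := by
  obtain ⟨δ, h1, h2⟩ := h (v1e e) η hη fun t ht => by rw [v1e, dif_pos ht]; exact he _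
  refine ⟨δ, h2, fun v t => ?_⟩
  induction t with
  | zero => intro _; simp [v1Z, pr]
  | succ t ih =>
    intro ht
    rw [v1Z, ih (by omega), h1 t (by omega), pr, zero_add, ← mulVec_mulVec, mulVec_add, add_assoc]

theorem v1_box (n : ℕ) (η : ℝ) : MeasurableSet {e : Fin n → E d | ∀ t, ‖e t‖ ≤ η} := by
  refine IsClosed.measurableSet ?_
  simp only [Set.setOf_forall]
  exact isClosed_iInter fun t => isClosed_le (by fun_prop) continuous_const

theorem tube_le {A : ℕ → Mx d} {n : ℕ} {G ρ η : ℝ} (h : RIn A n G) (hη : 0 ≤ η) :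
    volume (tube (fun t v => A t *ᵥ v) 0 n ρ η) ≤
      volume (body A n (ρ + G * η)) * ENNReal.ofReal ((2 * η) ^ (d * n)) := by
  rw [v1_vol, ← vol_box n hη, ← lintegral_indicator_const (v1_box n η)]
  refine lintegral_mono fun e => ?_
  by_cases he : ∀ t, ‖e t‖ ≤ η
  · rw [Set.indicator_of_mem (by exact he)]
    obtain ⟨δ, h1, h2⟩ := v1_sol h hη he
    rw [← measure_preimage_add_right volume (-δ 0) (body A n (ρ + G * η))]
    simp only [← sub_eq_add_neg]
    refine measure_mono fun v hv t ht => ?_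
    have a := hv.2 t ht
    rw [h2 v t ht] at a
    have b := norm_sub_le (pr A 0 t *ᵥ (v - δ 0) + δ t) (δ t)
    rw [add_sub_cancel_right] at b
    exact b.trans (add_le_add a (h1 t ht))
  · simp [he]

theorem le_tube {A : ℕ → Mx d} {n : ℕ} {G ρ η : ℝ} (h : RIn A n G) (hη : 0 ≤ η) :
    volume (body A n (ρ - G * η)) * ENNReal.ofReal ((2 * η) ^ (d * n)) ≤
      volume (tube (fun t v => A t *ᵥ v) 0 n ρ η) := by
  rw [v1_vol, ← vol_box n hη, ← lintegral_indicator_const (v1_box n η)]
  refine lintegral_mono fun e => ?_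
  by_cases he : ∀ t, ‖e t‖ ≤ η
  · rw [Set.indicator_of_mem (by exact he)]
    obtain ⟨δ, h1, h2⟩ := v1_sol h hη he
    rw [← measure_preimage_add_right volume (-δ 0) (body A n (ρ - G * η))]
    simp only [← sub_eq_add_neg]
    refine measure_mono fun v hv => ⟨he, fun t ht => ?_⟩
    have a : ‖pr A 0 t *ᵥ (v - δ 0)‖ ≤ ρ - G * η := hv t ht
    rw [h2 v t ht]
    linarith [norm_add_le (pr A 0 t *ᵥ (v - δ 0)) (δ t), h1 t ht]
  · rw [Set.indicator_of_notMem (by exact he)]
    exact zero_le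

end Vale.Agent.P109N
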