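import Vale.Agent.P109N.Def2
import Vale.Agent.P109N.V1

namespace Vale.Agent.P109N

open MeasureTheory Matrix Manifold

variable {d : ℕ}

theorem V3_mulVec {M : Mx d} {ζ r : ℝ} (hζ : 0 ≤ ζ) (hr : 0 ≤ r) (hM : ∀ i j, |M i j| ≤ ζ)
    {v : E d} (hv : ‖v‖ ≤ r) : ‖M *ᵥ v‖ ≤ d * ζ * r := by
  refine (pi_norm_le_iff_of_nonneg (by positivity)).2 fun i => ?_
  rw [Real.norm_eq_abs]
  calc |(M *ᵥ v) i| = |∑ j, M i j * v j| := rfl
    _ ≤ ∑ j, |M i j * v j| := Finset.abs_sum_le_sum_abs _ _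
    _ ≤ ∑ _j : Fin d, ζ * r := Finset.sum_le_sum fun j _ => by
      rw [abs_mul]
      exact mul_le_mul (hM i j) ((norm_le_pi_norm v j).trans hv) (abs_nonneg _) hζ
    _ = d * ζ * r := by simp [mul_assoc]

theorem body_pert {A A' : ℕ → Mx d} {n : ℕ} {G ζ θ ρ : ℝ} (h : RIn A n G) (h' : RIn A' n (2 * G))
    (hG : 0 < G) (hζ : 0 ≤ ζ) (hρ : 0 < ρ) (hA : ∀ t < n, ∀ i j, |A' t i j - A t i j| ≤ ζ)
    (hθ : 4 * d * G * ζ ≤ θ) (hθ1 : θ ≤ 1) :
    volume (body A' n ρ) ≤ ENNReal.ofReal (3 ^ d * (1 + θ) ^ (d * n)) * volume (body A n ρ) := by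
  have hθ0 : 0 ≤ θ := le_trans (by positivity) hθ
  obtain ⟨η, hη, hηG⟩ : ∃ η : ℝ, 0 < η ∧ 2 * G * η = ρ := ⟨ρ / (2 * G), by positivity, by field_simp⟩
  have hsub : tube (fun t v => A' t *ᵥ v) 0 n (2 * ρ) η ⊆
      tube (fun t v => A t *ᵥ v) 0 n (2 * ρ) (η * (1 + θ)) := by
    rintro δ ⟨h1, h2⟩
    refine ⟨h1, fun t => ?_⟩
    have a1 : ‖δ t.castSucc‖ ≤ 2 * ρ := by simpa using h1 t.castSucc
    have a2 : ‖(A' t - A t) *ᵥ δ t.castSucc‖ ≤ d * ζ * (2 * ρ) :=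
      V3_mulVec hζ (by positivity) (fun i j => by
        rw [Matrix.sub_apply]; exact hA t t.2 i j) a1
    have a3 := h2 t
    have e : δ t.succ - A t *ᵥ δ t.castSucc =
        (δ t.succ - A' t *ᵥ δ t.castSucc) + (A' t - A t) *ᵥ δ t.castSucc := by
      rw [Matrix.sub_mulVec]; abel
    have a4 : d * ζ * (2 * ρ) ≤ η * θ := by
      rw [← hηG]
      nlinarith [mul_le_mul_of_nonneg_left hθ hη.le]
    show ‖δ t.succ - A t *ᵥ δ t.castSucc‖ ≤ _
    rw [e]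
    refine (norm_add_le _ _).trans ?_
    have a5 : ‖δ t.succ - A' t *ᵥ δ t.castSucc‖ ≤ η := a3
    linarith
  have b1 := le_tube (ρ := 2 * ρ) h' hη.le
  have b2 := tube_le (ρ := 2 * ρ) h (show 0 ≤ η * (1 + θ) by positivity)
  rw [show 2 * ρ - 2 * G * η = ρ by linarith] at b1
  have b3 : body A n (2 * ρ + G * (η * (1 + θ))) ⊆ body A n (3 * ρ) := by
    intro v hv t ht
    refine (hv t ht).trans ?_
    have : G * η * θ ≤ G * η * 1 := mul_le_mul_of_nonneg_left hθ1 (by positivity)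
    nlinarith
  have b4 := body_scale A n ρ (show (0 : ℝ) < 3 by norm_num)
  have b5 : volume (body A' n ρ) * ENNReal.ofReal ((2 * η) ^ (d * n)) ≤
      ENNReal.ofReal (3 ^ d * (1 + θ) ^ (d * n)) * volume (body A n ρ) *
        ENNReal.ofReal ((2 * η) ^ (d * n)) := by
    refine b1.trans ((measure_mono hsub).trans (b2.trans ?_))
    refine (mul_le_mul_left (measure_mono b3) _).trans ?_
    rw [b4, show 2 * (η * (1 + θ)) = (1 + θ) * (2 * η) by ring, mul_pow (1 + θ),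
      ENNReal.ofReal_mul (by positivity), ENNReal.ofReal_mul (by positivity)]
    apply le_of_eq
    ring
  have b6 : ENNReal.ofReal ((2 * η) ^ (d * n)) ≠ 0 := by
    have : 0 < (2 * η) ^ (d * n) := by positivity
    simpa using this
  exact (ENNReal.mul_le_mul_iff_left b6 ENNReal.ofReal_ne_top).1 b5

end Vale.Agent.P109N
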