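import Vale.Agent.P109N.Def2
import Vale.Agent.P109N.V3
import Vale.Agent.P109N.RI2
import Vale.Agent.P109N.Lin

namespace Vale.Agent.P109N

open MeasureTheory Matrix Manifold

variable {d : ℕ}

theorem det_lower {A A' : ℕ → Mx d} {n : ℕ} {G ζ θ : ℝ} (h : RIl A n G) (hG : 0 < G) (hζ : 0 ≤ ζ)
    (hA : ∀ t < n, ∀ i j, |A' t i j - A t i j| ≤ ζ) (hθ : 4 * d * G * ζ ≤ θ) (hθ1 : θ ≤ 1)
    (M : Mx d) (hM : ∀ (v : E d) (r : ℝ), M *ᵥ v ∈ body A n r → v ∈ body A' n (2 * r)) :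
    1 ≤ 6 ^ d * (1 + θ) ^ (d * n) * |M.det| := by
  have hθ0 : 0 ≤ θ := le_trans (by positivity) hθ
  have hinj : Function.Injective (Matrix.toLin' M) := by
    refine (injective_iff_map_eq_zero _).2 fun v hv => ?_
    rw [Matrix.toLin'_apply] at hv
    have h1 := hM v 0 (fun t _ => by rw [hv, mulVec_zero, norm_zero]) 0 (Nat.zero_le _)
    have h2 : pr A' 0 0 = 1 := rfl
    rw [h2, one_mulVec, mul_zero] at h1
    exact norm_le_zero_iff.1 h1
  have hsurj := LinearMap.injective_iff_surjective.1 hinj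
  have hsub : body A n (1 / 2) ⊆ Matrix.toLin' M '' body A' n 1 := fun w hw => by
    obtain ⟨v, rfl⟩ := hsurj w
    refine ⟨v, ?_, rfl⟩
    have := hM v (1 / 2) (by rwa [Matrix.toLin'_apply] at hw)
    rwa [mul_one_div_cancel two_ne_zero] at this
  have h1 := measure_mono (μ := volume) hsub
  rw [Measure.addHaar_image_linearMap, LinearMap.det_toLin'] at h1
  have h2 := body_pert h.rin (h.pert hG.le hζ hA (by linarith)) hG hζ one_pos hA hθ hθ1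
  have h3 := body_scale A n (1 / 2) two_pos
  rw [mul_one_div_cancel two_ne_zero] at h3
  obtain ⟨p1, p2⟩ := body_pos A n (ρ := 1 / 2) (by norm_num)
  rw [h3] at h2
  have h4 := h1.trans (mul_le_mul_right h2 _)
  rw [← mul_assoc, ← mul_assoc, ← ENNReal.ofReal_mul (abs_nonneg _),
    ← ENNReal.ofReal_mul (by positivity)] at h4
  have h5 : (1 : ENNReal) ≤ ENNReal.ofReal (|M.det| * (3 ^ d * (1 + θ) ^ (d * n)) * 2 ^ d) := by
    rw [← ENNReal.mul_le_mul_iff_left p1 p2, one_mul]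
    exact h4
  have h6 := ENNReal.one_le_ofReal.1 h5
  have h7 : (6 : ℝ) ^ d = 3 ^ d * 2 ^ d := by rw [← mul_pow]; norm_num
  rw [h7]
  linarith

theorem kap_lin {A : ℕ → Mx d} {n : ℕ} {G ζ : ℝ} {K : ℕ → ℕ → Mx d} (hG : 0 ≤ G) (hζ : 0 ≤ ζ)
    (hK : ∀ e : ℕ → E d, (∀ t < n, ∑ s ∈ Finset.range n, K (t + 1) s *ᵥ e s =
      A t *ᵥ (∑ s ∈ Finset.range n, K t s *ᵥ e s) + e t) ∧ ∀ η : ℝ, 0 ≤ η → (∀ t < n, ‖e t‖ ≤ η) →
      ∀ t ≤ n, ‖∑ s ∈ Finset.range n, K t s *ᵥ e s‖ ≤ G * η)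
    (u e : ℕ → E d) (hu : ∀ t < n, u (t + 1) = A t *ᵥ u t + e t)
    (he : ∀ t < n, ‖e t‖ ≤ ζ * ‖u t‖) (hs : G * ζ ≤ 1 / 2) (r : ℝ)
    (hr : u 0 - ∑ s ∈ Finset.range n, K 0 s *ᵥ e s ∈ body A n r) : ∀ t ≤ n, ‖u t‖ ≤ 2 * r := by
  obtain ⟨k1, k2⟩ := hK e
  have hw : ∀ t ≤ n, u t - ∑ s ∈ Finset.range n, K t s *ᵥ e s =
      pr A 0 t *ᵥ (u 0 - ∑ s ∈ Finset.range n, K 0 s *ᵥ e s) := by
    intro t
    induction t with
    | zero => intro _; exact (one_mulVec _).symm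
    | succ t ih =>
      intro ht
      have e1 : pr A 0 (t + 1) = A t * pr A 0 t := by
        show A (0 + t) * pr A 0 t = _
        rw [zero_add]
      rw [e1, ← mulVec_mulVec, ← ih (by omega), hu t ht, k1 t ht, mulVec_sub]
      abel
  obtain ⟨t0, ht0, hm⟩ := (Finset.range (n + 1)).exists_max_image (fun t => ‖u t‖)
    ⟨0, Finset.mem_range.2 (Nat.succ_pos n)⟩
  have ht0' : t0 ≤ n := Nat.lt_succ_iff.1 (Finset.mem_range.1 ht0)
  have h1 := k2 (ζ * ‖u t0‖) (by positivity) (fun t ht => (he t ht).trans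
    (mul_le_mul_of_nonneg_left (hm t (Finset.mem_range.2 (by omega))) hζ)) t0 ht0'
  have h2 := hr t0 ht0'
  rw [← hw t0 ht0'] at h2
  have h3 := norm_le_norm_sub_add (u t0) (∑ s ∈ Finset.range n, K t0 s *ᵥ e s)
  have h4 := mul_le_mul_of_nonneg_right hs (norm_nonneg (u t0))
  intro t ht
  have h5 := hm t (Finset.mem_range.2 (by omega))
  nlinarith

end Vale.Agent.P109N
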