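import Vale.Agent.P109N.Def2
import Vale.Agent.P109N.V4a

namespace Vale.Agent.P109N

open MeasureTheory Matrix Manifold

variable {d : ℕ}

noncomputable def v4L (M : Mx d) : E d →L[ℝ] E d :=
  LinearMap.toContinuousLinearMap (Matrix.toLin' M)

theorem v4L_apply (M : Mx d) (v : E d) : v4L M v = M *ᵥ v := rfl

theorem v4_mul {f : E d → E d} {P : Mx d} {x : E d} (M : Mx d) (hf : HasFDerivAt f (v4L P) x) :
    HasFDerivAt (fun v => M *ᵥ f v) (v4L (M * P)) x :=
  ((v4L M).hasFDerivAt.comp x hf).congr_fderiv (ContinuousLinearMap.ext fun v => by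
    simp only [ContinuousLinearMap.comp_apply, v4L_apply, Matrix.mulVec_mulVec])

theorem v4_sub {f g : E d → E d} {P P' : Mx d} {x : E d} (hf : HasFDerivAt f (v4L P) x)
    (hg : HasFDerivAt g (v4L P') x) : HasFDerivAt (fun v => f v - g v) (v4L (P - P')) x :=
  (hf.sub hg).congr_fderiv (ContinuousLinearMap.ext fun v => by
    simp only [ContinuousLinearMap.sub_apply, v4L_apply, Matrix.sub_mulVec])

theorem v4_der {R : ℕ} {φ : E d → E d} {A : E d → Mx d} {Q : E d → Bool} {n : ℕ} {r : ℝ}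
    {y : ℕ → E d} (hN : ∀ t < n, Nice R φ A Q r (y t)) {v : E d} (t : ℕ) (ht : t ≤ n)
    (hv : ∀ s < t, ‖φ^[s] v - y s‖ ≤ r) :
    HasFDerivAt φ^[t] (v4L (pr (fun s => A (φ^[s] v)) 0 t)) v := by
  induction t with
  | zero =>
    exact (hasFDerivAt_id v).congr_fderiv (ContinuousLinearMap.ext fun w => by
      simp [v4L_apply, pr])
  | succ t ih =>
    have h1 := ih (by omega) fun s hs => hv s (by omega)
    have h2 : HasFDerivAt φ (v4L (A (φ^[t] v))) (φ^[t] v) :=
      (hN t (by omega) _ (hv t (by omega))).2.2.1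
    rw [Function.iterate_succ']
    exact (h2.comp v h1).congr_fderiv (ContinuousLinearMap.ext fun w => by
      simp only [ContinuousLinearMap.comp_apply, v4L_apply, Matrix.mulVec_mulVec, pr, zero_add])

theorem v4_closed {R : ℕ} {φ : E d → E d} {A : E d → Mx d} {Q : E d → Bool} {n : ℕ} {r : ℝ}
    {y : ℕ → E d} (hN : ∀ t < n, Nice R φ A Q r (y t)) (m : ℕ) (hm : m ≤ n) :
    IsClosed {v | ∀ t ≤ m, ‖φ^[t] v - y t‖ ≤ r} := by
  induction m with
  | zero =>
    have : {v : E d | ∀ t ≤ 0, ‖φ^[t] v - y t‖ ≤ r} = Metric.closedBall (y 0) r := by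
      ext v
      simp [dist_eq_norm]
    rw [this]
    exact Metric.isClosed_closedBall
  | succ m ih =>
    have : {v : E d | ∀ t ≤ m + 1, ‖φ^[t] v - y t‖ ≤ r} =
        {v | ∀ t ≤ m, ‖φ^[t] v - y t‖ ≤ r} ∩ φ^[m + 1] ⁻¹' Metric.closedBall (y (m + 1)) r := by
      ext v
      simp only [Set.mem_setOf_eq, Set.mem_inter_iff, Set.mem_preimage, mem_closedBall_iff_norm]
      refine ⟨fun h => ⟨fun t ht => h t (by omega), h _ le_rfl⟩, fun h t ht => ?_⟩
      rcases Nat.lt_or_ge m t with h1 | h1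
      · obtain rfl : t = m + 1 := by omega
        exact h.2
      · exact h.1 t h1
    rw [this]
    refine ContinuousOn.preimage_isClosed_of_isClosed (fun v hv => ?_) (ih (by omega))
      Metric.isClosed_closedBall
    exact (v4_der hN (m + 1) hm fun s hs => hv s (by omega)).continuousAt.continuousWithinAt

theorem bowen_le {R : ℕ} {φ : E d → E d} {A : E d → Mx d} {Q : E d → Bool} {n : ℕ} {G ρ θ : ℝ}
    {y : ℕ → E d} (hy : ∀ t < n, y (t + 1) = φ (y t)) (hN : ∀ t < n, Nice R φ A Q (2 * ρ) (y t))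
    (h : RIl (fun t => A (y t)) n G) (hG : 0 < G) (hρ : 0 < ρ) (hθ : 8 * d * R * G * ρ ≤ θ)
    (hθ1 : θ ≤ 1) : MeasurableSet {v | ∀ t ≤ n, ‖φ^[t] v - y t‖ ≤ 2 * ρ} ∧
    volume {v | ∀ t ≤ n, ‖φ^[t] v - y t‖ ≤ 2 * ρ} ≤
      ENNReal.ofReal (18 ^ d * (1 + θ) ^ (d * n)) * volume (body (fun t => A (y t)) n ρ) := by
  have hB := (v4_closed hN n le_rfl).measurableSet
  refine ⟨hB, ?_⟩
  obtain ⟨K, hK⟩ := id h
  set B := {v | ∀ t ≤ n, ‖φ^[t] v - y t‖ ≤ 2 * ρ} with hBdef
  have hyy : ∀ t, ‖y t - y t‖ ≤ 2 * ρ := fun t => by rw [sub_self, norm_zero]; positivity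
  have hθ0 : 0 ≤ θ := le_trans (by positivity) hθ
  have hs : G * (d * R * (2 * ρ)) ≤ 1 / 2 := by linarith
  let P : E d → ℕ → Mx d := fun v => pr (fun s => A (φ^[s] v)) 0
  let r : E d → ℕ → E d := fun v s => φ^[s + 1] v - φ (y s) - A (y s) *ᵥ (φ^[s] v - y s)
  let κ : E d → E d := fun v => v - y 0 - ∑ s ∈ Finset.range n, K 0 s *ᵥ r v s
  let M : E d → Mx d := fun v => 1 - ∑ s ∈ Finset.range n, K 0 s * (P v (s + 1) - A (y s) * P v s)
  have hder : ∀ v ∈ B, HasFDerivWithinAt κ (v4L (M v)) B v := by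
    intro v hv
    have d1 : ∀ t ≤ n, HasFDerivAt φ^[t] (v4L (P v t)) v := fun t ht =>
      v4_der hN t ht fun s hs => hv s (by omega)
    have d2 : ∀ s ∈ Finset.range n, HasFDerivAt (fun w => K 0 s *ᵥ r w s)
        (v4L (K 0 s * (P v (s + 1) - A (y s) * P v s))) v := fun s hs => by
      have hs' := Finset.mem_range.1 hs
      exact v4_mul _ (v4_sub ((d1 (s + 1) hs').sub_const _)
        (v4_mul _ ((d1 s hs'.le).sub_const _)))
    refine ((((hasFDerivAt_id v).sub_const (y 0)).sub (HasFDerivAt.fun_sum d2)).congr_fderiv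
      (ContinuousLinearMap.ext fun w => ?_)).hasFDerivWithinAt
    simp only [M, ContinuousLinearMap.sub_apply, ContinuousLinearMap.sum_apply, v4L_apply,
      Matrix.sub_mulVec, Matrix.sum_mulVec, Matrix.one_mulVec, ContinuousLinearMap.id_apply]
  have hdet : ∀ v ∈ B, 1 ≤ 6 ^ d * (1 + θ) ^ (d * n) * |(M v).det| := by
    intro v hv
    have hA : ∀ t < n, ∀ i j, |A (φ^[t] v) i j - A (y t) i j| ≤ R * (2 * ρ) := fun t ht i j =>
      ((hN t ht _ (hv t ht.le)).2.2.2 _ (hyy t) i j).trans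
        (mul_le_mul_of_nonneg_left (hv t ht.le) (Nat.cast_nonneg _))
    refine det_lower (A' := fun t => A (φ^[t] v)) h hG (by positivity) hA (by linarith) hθ1 _
      fun w a hw => ?_
    refine kap_lin (ζ := d * R * (2 * ρ)) hG.le (by positivity) hK (fun t => P v t *ᵥ w)
      (fun t => (P v (t + 1) - A (y t) * P v t) *ᵥ w) (fun t _ => ?_) (fun t ht => ?_) hs a ?_
    · simp only [Matrix.sub_mulVec, Matrix.mulVec_mulVec]
      abel
    · have e : P v (t + 1) - A (y t) * P v t = (A (φ^[t] v) - A (y t)) * P v t := by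
        simp only [P, pr, zero_add, Matrix.sub_mul]
      rw [e, ← Matrix.mulVec_mulVec, mul_assoc (d : ℝ)]
      exact mulVec_le (by positivity) (hA t ht) _
    · have e : P v 0 *ᵥ w - ∑ s ∈ Finset.range n, K 0 s *ᵥ (P v (s + 1) - A (y s) * P v s) *ᵥ w =
          M v *ᵥ w := by
        simp only [M, Matrix.sub_mulVec (1 : Mx d), Matrix.sum_mulVec, Matrix.mulVec_mulVec]
        rfl
      rw [e]
      exact hw
  have hinj : Set.InjOn κ B := by
    intro v hv v' hv' e
    have h1 := kap_lin (ζ := d * R * (2 * ρ)) hG.le (by positivity) hK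
      (fun t => φ^[t] v - φ^[t] v') (fun t => r v t - r v' t) (fun t _ => ?_) (fun t ht => ?_)
      hs 0 ?_ 0 (Nat.zero_le _)
    · rw [mul_zero] at h1
      exact sub_eq_zero.1 (norm_le_zero_iff.1 h1)
    · simp only [r, Matrix.mulVec_sub]
      abel
    · have e2 : r v t - r v' t =
          φ (φ^[t] v) - φ (φ^[t] v') - A (y t) *ᵥ (φ^[t] v - φ^[t] v') := by
        simp only [r, Matrix.mulVec_sub, Function.iterate_succ_apply']
        abel
      rw [e2]
      exact (hN t ht).lin (hv t ht.le) (hv' t ht.le)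
    · have e2 : φ^[0] v - φ^[0] v' - ∑ s ∈ Finset.range n, K 0 s *ᵥ (r v s - r v' s) =
          κ v - κ v' := by
        simp only [κ, Matrix.mulVec_sub (K 0 _), Finset.sum_sub_distrib, Function.iterate_zero,
          id]
        abel
      rw [e2, e, sub_self]
      intro t _
      rw [Matrix.mulVec_zero, norm_zero]
  have him : κ '' B ⊆ body (fun t => A (y t)) n (3 * ρ) := by
    rintro _ ⟨v, hv, rfl⟩
    obtain ⟨k1, k2⟩ := hK (r v)
    have k3 := k2 (d * R * (2 * ρ) * (2 * ρ)) (by positivity) fun t ht => by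
      simp only [r, Function.iterate_succ_apply']
      exact ((hN t ht).lin (hv t ht.le) (hyy t)).trans
        (mul_le_mul_of_nonneg_left (hv t ht.le) (by positivity))
    have k4 : ∀ t ≤ n, pr (fun t => A (y t)) 0 t *ᵥ κ v =
        φ^[t] v - y t - ∑ s ∈ Finset.range n, K t s *ᵥ r v s := by
      intro t
      induction t with
      | zero => intro _; simp [pr, κ]
      | succ t ih =>
        intro ht
        rw [k1 t ht, hy t ht, pr, ← Matrix.mulVec_mulVec, ih (by omega), zero_add]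
        simp only [Matrix.mulVec_sub (A (y t))]
        simp only [r, Matrix.mulVec_sub (A (y t))]
        abel
    intro t ht
    rw [k4 t ht]
    refine (norm_sub_le _ _).trans ?_
    have k5 := hv t ht
    have k6 := k3 t ht
    have k7 := mul_le_mul_of_nonneg_right hs (show 0 ≤ 2 * ρ by positivity)
    nlinarith
  have hj := lintegral_abs_det_fderiv_eq_addHaar_image volume hB hder hinj
  have hc : (0 : ℝ) ≤ 6 ^ d * (1 + θ) ^ (d * n) := by positivity
  calc volume B = ∫⁻ _ in B, 1 := by simp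
    _ ≤ ∫⁻ v in B, ENNReal.ofReal (6 ^ d * (1 + θ) ^ (d * n)) *
        ENNReal.ofReal |(v4L (M v)).det| := by
      refine setLIntegral_mono' hB fun v hv => ?_
      have e : (v4L (M v)).det = (M v).det := by
        simp [v4L, ContinuousLinearMap.det]
      rw [← ENNReal.ofReal_mul hc, e, ← ENNReal.ofReal_one]
      exact ENNReal.ofReal_le_ofReal (hdet v hv)
    _ = ENNReal.ofReal (6 ^ d * (1 + θ) ^ (d * n)) * volume (κ '' B) := by
      rw [lintegral_const_mul' _ _ ENNReal.ofReal_ne_top, hj]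
    _ ≤ ENNReal.ofReal (6 ^ d * (1 + θ) ^ (d * n)) *
        volume (body (fun t => A (y t)) n (3 * ρ)) := mul_le_mul_right (measure_mono him) _
    _ = _ := by
      rw [body_scale _ _ _ (by norm_num), ← mul_assoc, ← ENNReal.ofReal_mul hc]
      congr 2
      rw [show (18 : ℝ) = 6 * 3 by norm_num, mul_pow]
      ring

end Vale.Agent.P109N
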