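import Vale.Agent.P109N.Def2
import Vale.Agent.P109N.V1
import Vale.Agent.P109N.Lin

namespace Vale.Agent.P109N

open MeasureTheory Matrix Manifold

variable {d : ℕ}

theorem body_le_tube {R : ℕ} {φ : E d → E d} {A : E d → Mx d} {Q : E d → Bool} {n : ℕ}
    {G η θ : ℝ} {y : ℕ → E d} {g : E d → E d} (hy : ∀ t < n, y (t + 1) = φ (y t))
    (hN : ∀ t < n, Nice R φ A Q (2 * G * η) (y t)) (h : RIn (fun t => A (y t)) n G) (hG : 0 < G)
    (hη : 0 < η) (hθ : 8 * d * R * G * (2 * G * η) ≤ θ) (hθ1 : θ ≤ 1)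
    (hg : ∀ t < n, ∀ v, ‖v - y t‖ ≤ 2 * G * η → ‖g v - φ v‖ ≤ θ * η / 4) :
    volume (body (fun t => A (y t)) n (2 * G * η)) * ENNReal.ofReal ((2 * η) ^ (d * n)) ≤
      ENNReal.ofReal (2 ^ d * (1 + θ) ^ (d * n)) * volume (tube (fun _ => g) y n (2 * G * η) η) := by
  have hθ0 : 0 ≤ θ := le_trans (by positivity) hθ
  have hη' : 0 ≤ η * (1 - θ / 2) := mul_nonneg hη.le (by linarith)
  have h1 := le_tube (ρ := 2 * G * η) h hη'
  have h2 : volume (tube (fun t v => A (y t) *ᵥ v) 0 n (2 * G * η) (η * (1 - θ / 2))) ≤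
      volume (tube (fun _ => g) y n (2 * G * η) η) := by
    rw [← measure_preimage_add volume (fun t : Fin (n + 1) => y t)
      (tube (fun _ => g) y n (2 * G * η) η)]
    refine measure_mono fun δ hδ => ⟨fun t => ?_, fun t => ?_⟩
    · simpa using hδ.1 t
    · have a1 : ‖y t + δ t.castSucc - y t‖ ≤ 2 * G * η := by simpa using hδ.1 t.castSucc
      have a2 := hδ.2 t
      have a3 := (hN t t.2).lin a1 (v' := y t) (by rw [sub_self, norm_zero]; positivity)
      have a4 := hg t t.2 _ a1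
      have a5 : (d : ℝ) * R * (2 * G * η) * ‖y t + δ t.castSucc - y t‖ ≤ θ * η / 4 := by
        refine (mul_le_mul_of_nonneg_left a1 (by positivity)).trans ?_
        nlinarith [mul_le_mul_of_nonneg_left hθ hη.le]
      have e : y (t + 1) + δ t.succ - g (y t + δ t.castSucc) =
          (δ t.succ - A (y t) *ᵥ δ t.castSucc) - (φ (y t + δ t.castSucc) - φ (y t) -
            A (y t) *ᵥ (y t + δ t.castSucc - y t)) -
            (g (y t + δ t.castSucc) - φ (y t + δ t.castSucc)) := by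
        rw [hy t t.2, add_sub_cancel_left]
        abel
      change ‖y (t + 1) + δ t.succ - g (y t + δ t.castSucc)‖ ≤ η
      rw [e]
      refine (norm_sub_le _ _).trans ((add_le_add ((norm_sub_le _ _).trans
        (add_le_add a2 (a3.trans a5))) a4).trans (le_of_eq (by ring)))
  have h3 : volume (body (fun t => A (y t)) n (2 * G * η)) ≤ ENNReal.ofReal (2 ^ d) *
      volume (body (fun t => A (y t)) n (2 * G * η - G * (η * (1 - θ / 2)))) := by
    rw [mul_assoc 2 G η, body_scale _ _ _ two_pos]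
    refine mul_le_mul_right (measure_mono fun v hv t ht => (hv t ht).trans ?_) _
    nlinarith [mul_nonneg (mul_pos hG hη).le hθ0]
  have h4 : ENNReal.ofReal ((2 * η) ^ (d * n)) ≤ ENNReal.ofReal ((1 + θ) ^ (d * n)) *
      ENNReal.ofReal ((2 * (η * (1 - θ / 2))) ^ (d * n)) := by
    rw [← ENNReal.ofReal_mul (by positivity), ← mul_pow]
    refine ENNReal.ofReal_le_ofReal (pow_le_pow_left₀ (by positivity) ?_ _)
    nlinarith [mul_nonneg hη.le (mul_nonneg hθ0 (sub_nonneg.2 hθ1))]
  refine (mul_le_mul' h3 h4).trans ?_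
  rw [mul_mul_mul_comm, ENNReal.ofReal_mul (by positivity)]
  exact mul_le_mul_right (h1.trans h2) _

end Vale.Agent.P109N
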