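import Vale.Agent.P109N.Def2
import Vale.Agent.P109N.V4
import Vale.Agent.P109N.V5
import Vale.Agent.P109N.DomW
import Vale.Agent.P109N.RI2

namespace Vale.Agent.P109N

open MeasureTheory Matrix Manifold

variable {d : ℕ}

theorem dom_cover {R : ℕ} {Z : Type} [MeasurableSpace Z] {ν : Measure Z} {S : Z → Z} {P : Z → Bool}
    {χ : Z → E d} {φ : E d → E d} {A : E d → Mx d} {Q : E d → Bool} (F : Flat d R ν S P χ φ A Q)
    {n : ℕ} {G η θ s : ℝ} {g : (E d → E d) × (E d → Bool)} (h1 : Measurable g.1)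
    (h2 : Measurable g.2) (hg : Apx R φ A Q g s) (hG : 0 < G) (hη : 0 < η)
    (hθ : 8 * d * R * G * (2 * G * η) ≤ θ) (hθ1 : θ ≤ 1) (hs : s ≤ 2 * G * η)
    (hρ : 2 * G * η ≤ 1) (hs' : (d * R + 1) * s ≤ θ * η / 4) (G0 : Set Z)
    (h0 : ∀ z ∈ G0, RIl (co S χ A z) n G ∧ ∀ t < n, Nice R φ A Q (2 * (2 * G * η)) (χ (S^[t] z)))
    (ω : Fin n → Bool) : ν (G0 ∩ {z | ∀ t : Fin n, Q (χ (S^[t] z)) = ω t}) ≤
      ENNReal.ofReal (R * 36 ^ d * (1 + θ) ^ (2 * d * n) * (2 * R + 2) ^ d * wt R g n η ω) := by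
  classical
  obtain ⟨ρ, hρd⟩ : ∃ ρ : ℝ, ρ = 2 * G * η := ⟨_, rfl⟩
  have ρ0 : 0 < ρ := by rw [hρd]; positivity
  have θ0 : 0 ≤ θ := le_trans (by positivity) hθ
  obtain ⟨W, hW⟩ : ∃ W : Set Z, W = G0 ∩ {z | ∀ t : Fin n, Q (χ (S^[t] z)) = ω t} := ⟨_, rfl⟩
  let orb : Z → Fin (n + 1) → E d := fun z t => χ (S^[t] z)
  obtain ⟨T, hT, hsep, hcov⟩ := exists_sep (orb '' W) (R := R) (r := 2 * ρ) (by
    rintro _ ⟨z, -, rfl⟩
    exact (pi_norm_le_iff_of_nonneg (Nat.cast_nonneg R)).2 fun t => F.bd _) (by positivity)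
  rcases W.eq_empty_or_nonempty with hE | ⟨z0, -⟩
  · rw [← hW, hE, measure_empty]
    exact zero_le
  have hz : ∀ x : Fin (n + 1) → E d, ∃ z, x ∈ T → z ∈ W ∧ orb z = x := fun x => by
    by_cases hx : x ∈ T
    · obtain ⟨z, h1, h2⟩ := hT hx
      exact ⟨z, fun _ => ⟨h1, h2⟩⟩
    · exact ⟨z0, fun h => absurd h hx⟩
  choose z hz using hz
  let y : (Fin (n + 1) → E d) → ℕ → E d := fun x t => χ (S^[t] (z x))
  have hy : ∀ x, ∀ t < n, y x (t + 1) = φ (y x t) := fun x t _ => by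
    simp only [y]
    rw [Function.iterate_succ_apply', F.semi]
  have hyx : ∀ x ∈ T, ∀ t : Fin (n + 1), y x t = x t := fun x hx t => congrFun (hz x hx).2 t
  have hzW : ∀ x ∈ T, z x ∈ G0 ∧ ∀ t : Fin n, Q (y x t) = ω t := fun x hx => by
    have := (hz x hx).1
    rw [hW] at this
    exact this
  have hN : ∀ x ∈ T, ∀ t < n, Nice R φ A Q (2 * ρ) (y x t) := fun x hx => by
    rw [hρd]
    exact (h0 _ (hzW x hx).1).2
  have hI : ∀ x ∈ T, RIl (fun t => A (y x t)) n G := fun x hx => (h0 _ (hzW x hx).1).1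
  have hA : ∀ x ∈ T, ∀ t < n, ∀ v, ‖v - y x t‖ ≤ ρ →
      ‖g.1 v - φ v‖ ≤ (d * R + 1) * s ∧ g.2 v = Q (y x t) := fun x hx t ht =>
    hg _ ρ (F.bd _) (hρd ▸ hs) (hρd ▸ hρ) (hN x hx t ht)
  have hsemi : ∀ t w, φ^[t] (χ w) = χ (S^[t] w) := fun t w =>
    (Function.Semiconj.iterate_right (f := χ) (ga := S) (gb := φ) F.semi t w).symm
  have cover : W ⊆ ⋃ x ∈ T, χ ⁻¹' {v | ∀ t ≤ n, ‖φ^[t] v - y x t‖ ≤ 2 * ρ} := by
    intro w hw
    obtain ⟨x, hx, h⟩ := hcov _ ⟨w, hw, rfl⟩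
    refine Set.mem_biUnion hx fun t ht => ?_
    rw [hsemi, hyx x hx ⟨t, Nat.lt_succ_of_le ht⟩]
    exact (norm_le_pi_norm (orb w - x) ⟨t, Nat.lt_succ_of_le ht⟩).trans h
  have one : ∀ x ∈ T, ν (χ ⁻¹' {v | ∀ t ≤ n, ‖φ^[t] v - y x t‖ ≤ 2 * ρ}) *
      ENNReal.ofReal ((2 * η) ^ (d * n)) ≤ R * ENNReal.ofReal (18 ^ d * (1 + θ) ^ (d * n)) *
      ENNReal.ofReal (2 ^ d * (1 + θ) ^ (d * n)) * volume (tube (fun _ => g.1) (y x) n ρ η) := by
    intro x hx
    obtain ⟨b1, b2⟩ := bowen_le (hy x) (hN x hx) (hI x hx) hG ρ0 (hρd ▸ hθ) hθ1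
    have b3 := body_le_tube (g := g.1) (hy x)
      (fun t ht => (hN x hx t ht).mono (by rw [← hρd]; linarith)) (hI x hx).rin hG hη hθ hθ1
      (fun t ht v hv => (hA x hx t ht v (hρd ▸ hv)).1.trans hs')
    rw [← hρd] at b3
    calc _ ≤ R * (ENNReal.ofReal (18 ^ d * (1 + θ) ^ (d * n)) *
          volume (body (fun t => A (y x t)) n ρ)) * ENNReal.ofReal ((2 * η) ^ (d * n)) :=
          mul_le_mul_left ((F.dens _ b1).trans (mul_le_mul_right b2 _)) _
      _ = R * ENNReal.ofReal (18 ^ d * (1 + θ) ^ (d * n)) *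
          (volume (body (fun t => A (y x t)) n ρ) * ENNReal.ofReal ((2 * η) ^ (d * n))) := by ring
      _ ≤ _ := by rw [mul_assoc (_ * _)]; exact mul_le_mul_right b3 _
  have meas : ∀ x ∈ T, MeasurableSet (tube (fun _ => g.1) (y x) n ρ η) := by
    intro x _
    unfold tube
    rw [Set.setOf_and, Set.setOf_forall, Set.setOf_forall]
    refine (MeasurableSet.iInter fun t => measurableSet_le ?_ measurable_const).inter
      (MeasurableSet.iInter fun t => measurableSet_le ?_ measurable_const)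
    · exact ((measurable_pi_apply t).sub_const _).norm
    · exact ((measurable_pi_apply (X := fun _ : Fin (n + 1) => E d) t.succ).sub
        (h1.comp (measurable_pi_apply (X := fun _ : Fin (n + 1) => E d) t.castSucc))).norm
  have disj : (T : Set (Fin (n + 1) → E d)).PairwiseDisjoint
      fun x => tube (fun _ => g.1) (y x) n ρ η := by
    intro x hx x' hx' hne
    refine Set.disjoint_left.2 fun δ a b => (hsep x hx x' hx' hne).not_ge ?_
    refine (pi_norm_le_iff_of_nonneg (by positivity)).2 fun t => ?_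
    have a1 := a.1 t
    have b1 := b.1 t
    rw [hyx x hx] at a1
    rw [hyx x' hx'] at b1
    have := norm_sub_le_norm_sub_add_norm_sub (x t) (δ t) (x' t)
    rw [norm_sub_rev] at a1
    rw [Pi.sub_apply]
    linarith
  have sub : (⋃ x ∈ T, tube (fun _ => g.1) (y x) n ρ η) ⊆
      {δ : Fin (n + 1) → E d | ‖δ 0‖ ≤ R + 1 ∧ ∀ t : Fin n,
        ‖δ t.succ - g.1 (δ t.castSucc)‖ ≤ η ∧ g.2 (δ t.castSucc) = ω t} := by
    intro δ hδ
    obtain ⟨x, hx, a⟩ := Set.mem_iUnion₂.1 hδ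
    refine ⟨?_, fun t => ⟨a.2 t, ?_⟩⟩
    · have a1 := a.1 0
      have a2 : ‖y x ((0 : Fin (n + 1)) : ℕ)‖ ≤ R := F.bd _
      have a3 := norm_le_norm_add_norm_sub' (δ 0) (y x ((0 : Fin (n + 1)) : ℕ))
      linarith
    · exact ((hA x hx t t.2 _ (a.1 t.castSucc)).2).trans ((hzW x hx).2 t)
  have tot := measure_mono (μ := volume) sub
  rw [measure_biUnion_finset disj meas, wt_vol R h1 n hη ω] at tot
  have w0 := wt_nonneg R g n hη ω
  rw [← hW, ← ENNReal.mul_le_mul_iff_left (c := ENNReal.ofReal ((2 * η) ^ (d * n)))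
    (by simp only [ne_eq, ENNReal.ofReal_eq_zero, not_le]; positivity) ENNReal.ofReal_ne_top]
  calc _ ≤ (∑ x ∈ T, ν (χ ⁻¹' {v | ∀ t ≤ n, ‖φ^[t] v - y x t‖ ≤ 2 * ρ})) *
        ENNReal.ofReal ((2 * η) ^ (d * n)) :=
        mul_le_mul_left ((measure_mono cover).trans (measure_biUnion_finset_le _ _)) _
    _ ≤ R * ENNReal.ofReal (18 ^ d * (1 + θ) ^ (d * n)) *
        ENNReal.ofReal (2 ^ d * (1 + θ) ^ (d * n)) *
        ∑ x ∈ T, volume (tube (fun _ => g.1) (y x) n ρ η) := by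
        rw [Finset.sum_mul, Finset.mul_sum]
        exact Finset.sum_le_sum one
    _ ≤ R * ENNReal.ofReal (18 ^ d * (1 + θ) ^ (d * n)) *
        ENNReal.ofReal (2 ^ d * (1 + θ) ^ (d * n)) *
        ENNReal.ofReal ((2 * R + 2) ^ d * (2 * η) ^ (d * n) * wt R g n η ω) :=
        mul_le_mul_right tot _
    _ = _ := by
        rw [← ENNReal.ofReal_natCast, ← ENNReal.ofReal_mul (by positivity),
          ← ENNReal.ofReal_mul (by positivity), ← ENNReal.ofReal_mul (by positivity),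
          ← ENNReal.ofReal_mul (by positivity)]
        congr 1
        rw [show (36 : ℝ) = 18 * 2 by norm_num, mul_pow 18 2, show 2 * d * n = d * n + d * n by ring,
          pow_add]
        ring

end Vale.Agent.P109N
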