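import Vale.Agent.P109N.Def2

namespace Vale.Agent.P109N

open MeasureTheory Matrix Manifold

variable {d : ℕ}

theorem LA0_spec {H : Mx d} (hH : H.PosSemidef) : ∃ (U : Mx d) (l : Fin d → ℝ),
    Uᵀ * U = 1 ∧ U * Uᵀ = 1 ∧ (∀ i, 0 ≤ l i) ∧ H = U * diagonal l * Uᵀ := by
  refine ⟨(hH.1.eigenvectorUnitary : Mx d), hH.1.eigenvalues, ?_, ?_, hH.eigenvalues_nonneg, ?_⟩
  · simpa [star_eq_conjTranspose] using Unitary.coe_star_mul_self hH.1.eigenvectorUnitary
  · simpa [star_eq_conjTranspose] using Unitary.coe_mul_star_self hH.1.eigenvectorUnitary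
  · simpa [star_eq_conjTranspose] using hH.1.spectral_theorem

theorem LA0_det {U : Mx d} (h : U * Uᵀ = 1) (l : Fin d → ℝ) :
    (U * diagonal l * Uᵀ).det = ∏ i, l i := by
  rw [det_mul, det_mul, mul_right_comm, ← det_mul, h, det_one, one_mul, det_diagonal]

theorem LA0_one {U : Mx d} (h : U * Uᵀ = 1) (l : Fin d → ℝ) :
    1 + U * diagonal l * Uᵀ = U * diagonal (fun i => 1 + l i) * Uᵀ := by
  rw [← diagonal_add, diagonal_one, Matrix.mul_add, Matrix.add_mul, Matrix.mul_one, h]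

theorem LA0_quad (U : Mx d) (l : Fin d → ℝ) (e : E d) :
    e ⬝ᵥ (U * diagonal l * Uᵀ) *ᵥ e = ∑ i, l i * (Uᵀ *ᵥ e) i ^ 2 := by
  rw [← mulVec_mulVec, ← mulVec_mulVec, dotProduct_mulVec, ← mulVec_transpose]
  refine Finset.sum_congr rfl fun i _ => ?_
  rw [mulVec_diagonal]
  ring

theorem LA0_ge {U : Mx d} (h : U * Uᵀ = 1) (l : Fin d → ℝ) {a b : ℝ} (hl : ∀ i, a ≤ b * l i)
    (e : E d) : a * (e ⬝ᵥ e) ≤ b * (e ⬝ᵥ (U * diagonal l * Uᵀ) *ᵥ e) := by
  have h1 := LA0_quad U (fun _ => 1) e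
  rw [diagonal_one, Matrix.mul_one, h, one_mulVec] at h1
  rw [h1, LA0_quad, Finset.mul_sum, Finset.mul_sum]
  refine Finset.sum_le_sum fun i _ => ?_
  rw [one_mul, ← mul_assoc]
  exact mul_le_mul_of_nonneg_right (hl i) (sq_nonneg _)

theorem LA0_one_le {X : Mx d} (hX : X.PosSemidef) : 1 ≤ (1 + X).det := by
  obtain ⟨U, l, -, h2, h3, rfl⟩ := LA0_spec hX
  rw [LA0_one h2, LA0_det h2]
  refine le_trans (le_of_eq Finset.prod_const_one.symm)
    (Finset.prod_le_prod (fun _ _ => zero_le_one) fun i _ => by linarith [h3 i])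

theorem det_mono {P Q : Mx d} (hP : P.PosDef) (h : (Q - P).PosSemidef) : P.det ≤ Q.det := by
  obtain ⟨U, l, -, h2, h3, h4⟩ := LA0_spec hP.posSemidef
  obtain ⟨C, hC⟩ : ∃ C : Mx d, P = Cᵀ * C := by
    refine ⟨diagonal (fun i => √(l i)) * Uᵀ, ?_⟩
    rw [transpose_mul, transpose_transpose, diagonal_transpose, Matrix.mul_assoc,
      ← Matrix.mul_assoc (diagonal _), diagonal_mul_diagonal, h4, Matrix.mul_assoc]
    simp only [Real.mul_self_sqrt (h3 _)]
  have hd := hP.det_pos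
  have hCu : IsUnit C.det := by
    refine isUnit_iff_ne_zero.2 fun h0 => ?_
    rw [hC, det_mul, h0, mul_zero] at hd
    exact lt_irrefl _ hd
  have hX := h.conjTranspose_mul_mul_same C⁻¹
  rw [conjTranspose_eq_transpose_of_trivial] at hX
  have e1 : Q = Cᵀ * (1 + C⁻¹ᵀ * (Q - P) * C⁻¹) * C := by
    rw [Matrix.mul_add, Matrix.add_mul, Matrix.mul_one, ← hC, ← Matrix.mul_assoc,
      ← Matrix.mul_assoc, ← transpose_mul, nonsing_inv_mul _ hCu, transpose_one, Matrix.one_mul,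
      Matrix.mul_assoc, nonsing_inv_mul _ hCu, Matrix.mul_one, add_sub_cancel]
  have e2 : Q.det = P.det * (1 + C⁻¹ᵀ * (Q - P) * C⁻¹).det := by
    have := congrArg det e1
    rw [det_mul, det_mul, mul_right_comm, ← det_mul, ← hC] at this
    exact this
  rw [e2]
  exact le_mul_of_one_le_right hd.le (LA0_one_le hX)

theorem det_add_le {M N : Mx d} (hM : M.PosSemidef) (B : Mx d) (hN : N = Bᵀ * B) :
    (1 + M + N).det ≤ (1 + M).det * (1 + N).det := by
  have h1 : (1 + M).PosDef := PosDef.one.add_posSemidef hM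
  have hu : IsUnit (1 + M).det := isUnit_iff_ne_zero.2 h1.det_pos.ne'
  have hX : (1 + M)⁻¹.PosDef := h1.inv
  have hl := nonsing_inv_mul _ hu
  have hr := mul_nonsing_inv _ hu
  set X := (1 + M)⁻¹
  have h2 : (1 - X).PosSemidef := by
    have h3 := (hM.add (posSemidef_conjTranspose_mul_self M)).conjTranspose_mul_mul_same X
    rw [hX.1.eq, hM.1.eq] at h3
    have h4 : X * (M + M * M) * X = 1 - X := by
      have : M + M * M = M * (1 + M) := by rw [Matrix.mul_add, Matrix.mul_one]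
      rw [this, Matrix.mul_assoc, Matrix.mul_assoc, hr, Matrix.mul_one, ← hl, Matrix.mul_add,
        Matrix.mul_one, add_sub_cancel_left]
    rwa [h4] at h3
  have e1 : 1 + M + N = (1 + M) * (1 + X * Bᵀ * B) := by
    rw [Matrix.mul_add, Matrix.mul_one, Matrix.mul_assoc X, ← Matrix.mul_assoc, hr,
      Matrix.one_mul, hN]
  have p1 := hX.posSemidef.mul_mul_conjTranspose_same B
  have p2 := h2.mul_mul_conjTranspose_same B
  rw [conjTranspose_eq_transpose_of_trivial] at p1 p2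
  have e2 : (1 + B * X * Bᵀ).det ≤ (1 + B * Bᵀ).det := by
    refine det_mono (PosDef.one.add_posSemidef p1) ?_
    rwa [add_sub_add_left_eq_sub, show B * Bᵀ - B * X * Bᵀ = B * (1 - X) * Bᵀ by
      rw [Matrix.mul_sub, Matrix.sub_mul, Matrix.mul_one]]
  rw [e1, det_mul, det_one_add_mul_comm, ← Matrix.mul_assoc, hN, det_one_add_mul_comm Bᵀ]
  exact mul_le_mul_of_nonneg_left e2 h1.det_pos.le

theorem quad_ge {H : Mx d} (hH : H.PosDef) (c : ℝ) (hc : 0 < c) (h : (c • (1 : Mx d) - H).PosSemidef)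
    (e : E d) : H.det * (e ⬝ᵥ e) ≤ c ^ d / c * (e ⬝ᵥ H *ᵥ e) := by
  obtain ⟨U, l, h1, h2, h3, rfl⟩ := LA0_spec hH.posSemidef
  have hl : ∀ i, l i ≤ c := by
    intro i
    have h4 := h.conjTranspose_mul_mul_same U
    have h5 : Uᵀ * (c • (1 : Mx d) - U * diagonal l * Uᵀ) * U = c • (1 : Mx d) - diagonal l := by
      rw [Matrix.mul_sub, Matrix.sub_mul, Matrix.mul_smul, Matrix.mul_one, Matrix.smul_mul, h1,
        ← Matrix.mul_assoc, ← Matrix.mul_assoc, h1, Matrix.one_mul, Matrix.mul_assoc, h1,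
        Matrix.mul_one]
    rw [conjTranspose_eq_transpose_of_trivial, h5] at h4
    have h6 := h4.diag_nonneg (i := i)
    simpa using h6
  rw [LA0_det h2]
  refine LA0_ge h2 l (fun i => ?_) e
  rw [← Finset.mul_prod_erase _ _ (Finset.mem_univ i), mul_comm]
  refine mul_le_mul_of_nonneg_right ?_ (h3 i)
  refine (Finset.prod_le_prod (fun j _ => h3 j) fun j _ => hl j).trans (le_of_eq ?_)
  rw [Finset.prod_const, Finset.card_erase_of_mem (Finset.mem_univ i), Finset.card_univ,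
    Fintype.card_fin, eq_div_iff hc.ne', ← pow_succ, Nat.sub_add_cancel i.pos]

theorem quad_ge' {H : Mx d} (hH : H.PosSemidef) (e : E d) :
    H.det * (e ⬝ᵥ e) ≤ (1 + H).det * (e ⬝ᵥ H *ᵥ e) := by
  obtain ⟨U, l, -, h2, h3, rfl⟩ := LA0_spec hH
  rw [LA0_one h2, LA0_det h2, LA0_det h2]
  refine LA0_ge h2 l (fun i => ?_) e
  rw [← Finset.mul_prod_erase _ _ (Finset.mem_univ i), mul_comm,
    ← Finset.mul_prod_erase _ (fun i => 1 + l i) (Finset.mem_univ i)]
  refine mul_le_mul_of_nonneg_right ?_ (h3 i)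
  refine (Finset.prod_le_prod (g := fun j => 1 + l j) (fun j _ => h3 j)
    fun j _ => by linarith).trans (le_mul_of_one_le_left ?_ (by linarith [h3 i]))
  exact Finset.prod_nonneg fun j _ => by linarith [h3 j]

end Vale.Agent.P109N
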