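import Vale.Agent.P109N.Def2
import Vale.Agent.P109N.LA0

namespace Vale.Agent.P109N

open MeasureTheory Matrix Manifold

variable {d : ℕ}

theorem LA1_psd (A : Mx d) : (Aᵀ * A).PosSemidef := by
  have := posSemidef_conjTranspose_mul_self A
  rwa [conjTranspose_eq_transpose_of_trivial] at this

theorem LA1_one (A : Mx d) : 1 ≤ (1 + Aᵀ * A).det := LA0_one_le (LA1_psd A)

theorem LA1_le {H : Mx d} (hH : H.PosSemidef) : H.det ≤ (1 + H).det := by
  obtain ⟨U, l, -, h2, h3, rfl⟩ := LA0_spec hH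
  rw [LA0_one h2, LA0_det h2, LA0_det h2]
  exact Finset.prod_le_prod (fun j _ => h3 j) fun j _ => by linarith

theorem LA1_key {A : Mx d} (B : Mx d) (hA : A.det ≠ 0) : ∃ (H : Mx d) (a : ℝ), 0 ≤ a ∧
    H.PosSemidef ∧ (1 + (B * A)ᵀ * (B * A)).det = a * H.det ∧
    a * (1 + H).det ≤ (1 + Aᵀ * A).det * (1 + Bᵀ * B).det ∧
    Aᵀ * H * A = 1 + (B * A)ᵀ * (B * A) := by
  have hu : IsUnit A.det := isUnit_iff_ne_zero.2 hA
  have e0 : Aᵀ * (A⁻¹ᵀ * A⁻¹) * A = 1 := by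
    rw [← Matrix.mul_assoc, ← transpose_mul, nonsing_inv_mul _ hu, transpose_one, Matrix.one_mul,
      nonsing_inv_mul _ hu]
  have e1 : Aᵀ * (A⁻¹ᵀ * A⁻¹ + Bᵀ * B) * A = 1 + (B * A)ᵀ * (B * A) := by
    rw [Matrix.mul_add, Matrix.add_mul, e0, transpose_mul]
    simp only [Matrix.mul_assoc]
  have e2 : Aᵀ * (1 + A⁻¹ᵀ * A⁻¹) * A = 1 + Aᵀ * A := by
    rw [Matrix.mul_add, Matrix.add_mul, e0, Matrix.mul_one, add_comm]
  refine ⟨A⁻¹ᵀ * A⁻¹ + Bᵀ * B, A.det * A.det, mul_self_nonneg _, (LA1_psd _).add (LA1_psd _),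
    ?_, ?_, e1⟩
  · rw [← e1, det_mul, det_mul, det_transpose]
    ring
  · have := mul_le_mul_of_nonneg_left (det_add_le (LA1_psd A⁻¹) B rfl) (mul_self_nonneg A.det)
    rw [← e2, det_mul, det_mul, det_transpose, ← add_assoc]
    linarith

theorem Psi_nonneg (A : Mx d) : 0 ≤ Psi A :=
  div_nonneg (Real.log_nonneg (LA1_one A)) zero_le_two

theorem Psi_mul {A B : Mx d} (hA : A.det ≠ 0) : Psi (B * A) ≤ Psi A + Psi B := by
  obtain ⟨H, a, ha, hH, h1, h2, -⟩ := LA1_key B hA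
  have p1 := LA1_one A
  have p2 := LA1_one B
  have p3 := LA1_one (B * A)
  have := Real.log_le_log (by linarith)
    (h1.le.trans ((mul_le_mul_of_nonneg_left (LA1_le hH) ha).trans h2))
  rw [Real.log_mul (by linarith) (by linarith)] at this
  unfold Psi
  linarith

theorem Psi_le {A : Mx d} {R : ℕ} (h : ∀ i j, |A i j| ≤ R) : Psi A ≤ CP d R := by
  have p1 := LA1_one A
  have t1 : (Aᵀ * A).trace ≤ (d * R : ℝ) ^ 2 := by
    have : (Aᵀ * A).trace ≤ ∑ _i : Fin d, ∑ _j : Fin d, (R : ℝ) ^ 2 := by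
      refine Finset.sum_le_sum fun i _ => ?_
      rw [diag_apply, mul_apply]
      refine Finset.sum_le_sum fun j _ => ?_
      rw [transpose_apply, ← sq]
      exact sq_le_sq' (abs_le.1 (h j i)).1 (abs_le.1 (h j i)).2
    simp only [Finset.sum_const, Finset.card_univ, Fintype.card_fin, nsmul_eq_mul] at this
    linarith
  have t2 : (1 + Aᵀ * A).det ≤ ((1 + d * R : ℝ) ^ 2) ^ d := by
    obtain ⟨U, l, h1, h2, h3, h4⟩ := LA0_spec (LA1_psd A)
    rw [h4, trace_mul_cycle, h1, Matrix.one_mul, trace_diagonal] at t1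
    rw [h4, LA0_one h2, LA0_det h2]
    refine (Finset.prod_le_prod (g := fun _ => (1 + d * R : ℝ) ^ 2) (fun j _ => by linarith [h3 j])
      fun j _ => ?_).trans (by simp)
    have := Finset.single_le_sum (fun i _ => h3 i) (Finset.mem_univ j)
    have : (0 : ℝ) ≤ d * R := by positivity
    nlinarith
  have := Real.log_le_log (by linarith) t2
  rw [Real.log_pow, Real.log_pow] at this
  have d0 : (0 : ℝ) ≤ d := Nat.cast_nonneg d
  unfold Psi CP
  push_cast at this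
  linarith

theorem Psi_one_le (R : ℕ) : Psi (1 : Mx d) ≤ CP d R := by
  have e : (1 + (1 : Mx d)ᵀ * 1).det = 2 ^ d := by
    rw [transpose_one, Matrix.mul_one, ← two_smul ℝ, det_smul, det_one, Fintype.card_fin, mul_one]
  have h1 : 0 ≤ Real.log (1 + d * R) := Real.log_nonneg (le_add_of_nonneg_right (by positivity))
  have h2 := Real.log_le_sub_one_of_pos (x := 2) two_pos
  have d0 : (0 : ℝ) ≤ d := Nat.cast_nonneg d
  unfold Psi CP
  rw [e, Real.log_pow]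
  nlinarith

theorem LA2 {A B : Mx d} (hA : A.det ≠ 0) (u : E d) : (A *ᵥ u) ⬝ᵥ (A *ᵥ u) ≤
    Real.exp (2 * (Psi A + Psi B - Psi (B * A))) * (u ⬝ᵥ u + ((B * A) *ᵥ u) ⬝ᵥ ((B * A) *ᵥ u)) := by
  obtain ⟨H, a, ha, hH, h1, h2, h3⟩ := LA1_key B hA
  have p1 := LA1_one A
  have p2 := LA1_one B
  have p3 := LA1_one (B * A)
  have e1 : Real.exp (2 * (Psi A + Psi B - Psi (B * A))) =
      (1 + Aᵀ * A).det * (1 + Bᵀ * B).det / (1 + (B * A)ᵀ * (B * A)).det := by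
    rw [← Real.exp_log (x := (1 + Aᵀ * A).det) (by linarith),
      ← Real.exp_log (x := (1 + Bᵀ * B).det) (by linarith),
      ← Real.exp_log (x := (1 + (B * A)ᵀ * (B * A)).det) (by linarith), ← Real.exp_add,
      ← Real.exp_sub]
    congr 1
    unfold Psi
    ring
  have e2 : (A *ᵥ u) ⬝ᵥ H *ᵥ (A *ᵥ u) = u ⬝ᵥ u + ((B * A) *ᵥ u) ⬝ᵥ ((B * A) *ᵥ u) := by
    have c : ∀ (C : Mx d) (w : E d), (C *ᵥ u) ⬝ᵥ w = u ⬝ᵥ Cᵀ *ᵥ w := fun C w => by
      rw [dotProduct_mulVec u, vecMul_transpose]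
    rw [c, c, mulVec_mulVec, mulVec_mulVec, mulVec_mulVec, h3, add_mulVec, one_mulVec,
      dotProduct_add]
  have q := mul_le_mul_of_nonneg_left (quad_ge' hH (A *ᵥ u)) ha
  have n0 : 0 ≤ (A *ᵥ u) ⬝ᵥ H *ᵥ (A *ᵥ u) := by
    simpa using hH.dotProduct_mulVec_nonneg (A *ᵥ u)
  have q2 := mul_le_mul_of_nonneg_right h2 n0
  rw [e1, ← e2, div_mul_eq_mul_div, le_div_iff₀ (by linarith), h1]
  linarith

end Vale.Agent.P109N
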