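import Vale.Agent.P109N.Def2
import Vale.Agent.P109N.LA1

namespace Vale.Agent.P109N

open MeasureTheory Matrix Manifold

variable {d : ℕ}

theorem pr_add (A : ℕ → Mx d) (t m n : ℕ) : pr A t (m + n) = pr A (t + m) n * pr A t m := by
  induction n with
  | zero => simp [pr]
  | succ n ih => rw [← Nat.add_assoc, pr, pr, ih, mul_assoc, Nat.add_assoc]

theorem pr_det {A : ℕ → Mx d} (h : ∀ t, (A t).det ≠ 0) (t n : ℕ) : (pr A t n).det ≠ 0 := by
  induction n with
  | zero => simp [pr]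
  | succ n ih => rw [pr, det_mul]; exact mul_ne_zero (h _) ih

theorem Pr_C (R : ℕ) : 0 ≤ CP d R := (Psi_nonneg _).trans (Psi_one_le R)

theorem Pr_sub {A : ℕ → Mx d} (h : ∀ t, (A t).det ≠ 0) (t m n : ℕ) :
    Psi (pr A t (m + n)) ≤ Psi (pr A t m) + Psi (pr A (t + m) n) := by
  rw [pr_add]
  exact Psi_mul (pr_det h t m)

theorem Psi_pr_le {A : ℕ → Mx d} {R : ℕ} (h : ∀ t, (A t).det ≠ 0) (hb : ∀ t i j, |A t i j| ≤ R)
    (t n : ℕ) : Psi (pr A t n) ≤ (max n 1 : ℕ) * CP d R := by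
  have h1 : ∀ s, Psi (pr A s 1) ≤ CP d R := fun s => by
    have : pr A s 1 = A s := by simp [pr]
    rw [this]
    exact Psi_le (hb s)
  induction n with
  | zero => simpa [pr] using Psi_one_le R
  | succ n ih =>
    rcases Nat.eq_zero_or_pos n with rfl | hn
    · simpa using h1 t
    · rw [max_eq_left hn] at ih
      rw [max_eq_left (Nat.le_add_left 1 n)]
      have := Pr_sub h t n 1
      have := h1 (t + n)
      push_cast
      linarith

theorem Pr_short {A : ℕ → Mx d} {R : ℕ} (h : ∀ t, (A t).det ≠ 0) (hb : ∀ t i j, |A t i j| ≤ R)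
    {l : ℕ} (hl : 0 < l) (t : ℕ) {n : ℕ} (hn : n ≤ l) : Psi (pr A t n) ≤ l * CP d R :=
  (Psi_pr_le h hb t n).trans
    (mul_le_mul_of_nonneg_right (Nat.cast_le.2 (max_le hn hl)) (Pr_C R))

theorem Pr_al {A : ℕ → Mx d} {R : ℕ} (h : ∀ t, (A t).det ≠ 0) (hb : ∀ t i j, |A t i j| ≤ R)
    {l : ℕ} (hl : 0 < l) (s j : ℕ) (hs : s ≤ j * l) : Psi (pr A s (j * l - s)) ≤
      l * CP d R + ∑ i ∈ Finset.Ico (s / l) j, Psi (pr A (i * l) l) := by
  induction j with
  | zero => simpa using Pr_short h hb hl s (Nat.zero_le l)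
  | succ j ih =>
    rw [Nat.succ_mul] at hs ⊢
    by_cases hj : s ≤ j * l
    · have e : j * l + l - s = (j * l - s) + l := by omega
      have h1 := Pr_sub h s (j * l - s) l
      rw [Nat.add_sub_cancel' hj] at h1
      rw [e, Finset.sum_Ico_succ_top (Nat.div_le_of_le_mul (by rwa [mul_comm]))]
      linarith [ih hj]
    · exact (Pr_short h hb hl s (by omega)).trans
        (le_add_of_nonneg_right (Finset.sum_nonneg fun i _ => Psi_nonneg _))

theorem Pr_int {A : ℕ → Mx d} {R : ℕ} (h : ∀ t, (A t).det ≠ 0) (hb : ∀ t i j, |A t i j| ≤ R)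
    {l : ℕ} (hl : 0 < l) (s n : ℕ) : Psi (pr A s n) ≤
      2 * l * CP d R + ∑ i ∈ Finset.Ico (s / l) ((s + n) / l), Psi (pr A (i * l) l) := by
  have h0 : 0 ≤ (l : ℝ) * CP d R := mul_nonneg (Nat.cast_nonneg l) (Pr_C R)
  have h1 := Nat.div_add_mod' (s + n) l
  have h2 := Nat.mod_lt (s + n) hl
  generalize (s + n) / l = j at h1 ⊢
  by_cases hj : s ≤ j * l
  · have e : n = (j * l - s) + (s + n) % l := by omega
    have h3 := Pr_sub h s (j * l - s) ((s + n) % l)
    rw [← e] at h3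
    have h4 := Pr_al h hb hl s j hj
    have h5 := Pr_short h hb hl (s + (j * l - s)) h2.le
    linarith
  · have h4 := Pr_short h hb hl s (n := n) (by omega)
    have h5 : 0 ≤ ∑ i ∈ Finset.Ico (s / l) j, Psi (pr A (i * l) l) :=
      Finset.sum_nonneg fun i _ => Psi_nonneg _
    linarith

theorem defect_le {A : ℕ → Mx d} {R : ℕ} (h : ∀ t, (A t).det ≠ 0) (hb : ∀ t i j, |A t i j| ≤ R)
    {l k : ℕ} (hl : 0 < l) (t m n : ℕ) (ht : t + m + n ≤ k * l) :
    Psi (pr A t m) + Psi (pr A (t + m) n) - Psi (pr A t (m + n)) ≤ Del A l k + 8 * l * CP d R := by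
  obtain ⟨r, hr⟩ := Nat.exists_eq_add_of_le ht
  have a1 := Pr_int h hb hl 0 t
  have a2 := Pr_int h hb hl t m
  have a3 := Pr_int h hb hl (t + m) n
  have a4 := Pr_int h hb hl (t + m + n) r
  rw [← hr, Nat.mul_div_cancel _ hl] at a4
  rw [Nat.zero_add, Nat.zero_div] at a1
  have b1 := Pr_sub h 0 t (m + n)
  have b2 := Pr_sub h 0 (t + (m + n)) r
  rw [Nat.zero_add] at b1 b2
  rw [← Nat.add_assoc] at b1 b2
  rw [← hr] at b2
  have c1 := Finset.sum_Ico_consecutive (fun i => Psi (pr A (i * l) l)) (Nat.zero_le (t / l))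
    (Nat.div_le_div_right (c := l) (Nat.le_add_right t m))
  have c2 := Finset.sum_Ico_consecutive (fun i => Psi (pr A (i * l) l)) (Nat.zero_le ((t + m) / l))
    (Nat.div_le_div_right (c := l) (Nat.le_add_right (t + m) n))
  have c3 := Finset.sum_Ico_consecutive (fun i => Psi (pr A (i * l) l))
    (Nat.zero_le ((t + m + n) / l)) (Nat.div_le_of_le_mul (k := l) (n := k) (by rwa [mul_comm]))
  rw [Del, Finset.range_eq_Ico]
  linarith

end Vale.Agent.P109N
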