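import Vale.Agent.P109N.Def2
import Vale.Agent.P109N.Pr

namespace Vale.Agent.P109N

open MeasureTheory Matrix Manifold

variable {d : ℕ}

theorem Flat.meas_Psi {R : ℕ} {Z : Type} [MeasurableSpace Z] {ν : Measure Z} {S : Z → Z}
    {P : Z → Bool} {χ : Z → E d} {φ : E d → E d} {A : E d → Mx d} {Q : E d → Bool}
    (F : Flat d R ν S P χ φ A Q) (t n : ℕ) : Measurable fun z => Psi (pr (co S χ A z) t n) := by
  have h : ∀ n i j, Measurable fun z => pr (co S χ A z) t n i j := fun n => by
    induction n with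
    | zero => exact fun i j => measurable_const
    | succ n ih =>
      intro i j
      simp only [pr, Matrix.mul_apply]
      exact Finset.measurable_sum _ fun l _ =>
        ((F.mA i l).comp (F.mp.measurable.iterate _)).mul (ih l j)
  unfold Psi
  refine (Real.measurable_log.comp ?_).div_const _
  simp only [Matrix.det_apply', Matrix.add_apply, Matrix.mul_apply, Matrix.transpose_apply]
  exact Finset.measurable_sum _ fun σ _ => (Finset.measurable_prod _ fun i _ =>
    (Finset.measurable_sum _ fun l _ => (h n _ _).mul (h n _ _)).const_add _).const_mul _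

theorem pr_co {Z : Type} (S : Z → Z) (χ : Z → E d) (A : E d → Mx d) (z : Z) (t n : ℕ) :
    pr (co S χ A z) t n = pr (co S χ A (S^[t] z)) 0 n := by
  induction n with
  | zero => rfl
  | succ n ih =>
    simp only [pr, ih, co, zero_add]
    rw [add_comm t n, Function.iterate_add_apply]

theorem Flat.Lam_bd {R : ℕ} {Z : Type} [MeasurableSpace Z] {ν : Measure Z} {S : Z → Z}
    {P : Z → Bool} {χ : Z → E d} {φ : E d → E d} {A : E d → Mx d} {Q : E d → Bool}
    (F : Flat d R ν S P χ φ A Q) {a : Lev} (ha : a.Ok) (m : Measure (Z × a.I))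
    [IsProbabilityMeasure m] : 0 ≤ Lam S χ A m ∧ Lam S χ A m ≤ CP d R := by
  have l0 : (0 : ℝ) < a.L := by exact_mod_cast ha.2
  refine ⟨div_nonneg (integral_nonneg fun x => Psi_nonneg _) l0.le, ?_⟩
  rw [Lam, div_le_iff₀ l0]
  have h := integral_mono_of_nonneg (μ := m)
    (f := fun x : Z × a.I => Psi (pr (co S χ A x.1) 0 a.L))
    (Filter.Eventually.of_forall fun x => Psi_nonneg _) (integrable_const (CP d R * a.L))
    (Filter.Eventually.of_forall fun x => by
      have := Psi_pr_le (A := co S χ A x.1) (fun t => F.Adet _) (fun _ => F.Abd _) 0 a.L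
      rwa [max_eq_left (show 1 ≤ a.L from ha.2), mul_comm] at this)
  simpa using h

theorem meas_loc {Z J : Type} [MeasurableSpace Z] [MeasurableSpace J] [Fintype J]
    [MeasurableSingletonClass J] {S : Z → Z} {q : Z → Bool} (hS : Measurable S) (hq : Measurable q)
    {L : ℕ} (f : (ℕ → Bool) → J → ℝ) (hf : ∀ ω ω', (∀ s < L, ω s = ω' s) → f ω = f ω') :
    (Measurable fun x : Z × J => f (nm S q x.1) x.2) ∧ ∃ C, ∀ ω u, |f ω u| ≤ C := by
  have e : ∀ ω, f ω = f (ext fun t : Fin L => ω t) := fun ω => hf _ _ fun s hs => by simp [ext, hs]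
  constructor
  · have h1 : Measurable fun x : Z × J => ((fun t : Fin L => nm S q x.1 t), x.2) :=
      (measurable_pi_lambda _ fun t => (hq.comp (hS.iterate _)).comp measurable_fst).prodMk
        measurable_snd
    have h2 := (measurable_of_finite fun y : (Fin L → Bool) × J => f (ext y.1) y.2).comp h1
    have h3 : (fun x : Z × J => f (nm S q x.1) x.2) =
        fun x : Z × J => f (ext fun t : Fin L => nm S q x.1 t) x.2 := by
      funext x
      rw [← e]
    rw [h3]
    exact h2
  · obtain ⟨C, hC⟩ := (Set.finite_range fun y : (Fin L → Bool) × J => |f (ext y.1) y.2|).bddAbove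
    refine ⟨C, fun ω u => ?_⟩
    rw [e]
    exact hC ⟨(fun t : Fin L => ω t, u), rfl⟩

theorem Pred.cost_nonneg {Z : Type} [MeasurableSpace Z] (S : Z → Z) (q : Z → Bool) {a : Lev}
    {p : (ℕ → Bool) → a.I → ℝ} (hp : Pred a p) (m : Measure (Z × a.I)) : 0 ≤ cost S q p m :=
  integral_nonneg fun x => neg_nonneg.2 (Real.log_nonpos (hp.pos _ _).le ((Finset.single_le_sum
    (fun u _ => (hp.pos _ u).le) (Finset.mem_univ x.2)).trans (hp.sum _)))

theorem Joint.fst_le {Z : Type} [MeasurableSpace Z] {ν : Measure Z} {S : Z → Z} {P : Z → Bool}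
    {a : Lev} {m : Measure (Z × a.I)} (h : Joint ν S P a m) (ha : a.Ok) (s : Set Z) :
    m {x | x.1 ∈ s} ≤ a.L * ν s := by
  have h1 : m.map (fun p => S^[0] p.1) ≤ (a.L : ENNReal) • ν := by
    rw [← h.avg]
    exact Finset.single_le_sum (f := fun s => m.map fun p : Z × a.I => S^[s] p.1)
      (fun _ _ => Measure.zero_le _) (Finset.mem_range.2 ha.2)
  exact (Measure.le_map_apply measurable_fst.aemeasurable s).trans (Measure.le_iff'.1 h1 s)

end Vale.Agent.P109N
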