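import Vale.Agent.P109N.Def2
import Vale.Agent.P109N.Lin

namespace Vale.Agent.P109N

open MeasureTheory Matrix Manifold

variable {d : ℕ}

theorem net_one {s r : ℝ} (hs : 0 < s) {N : ℕ} (hN : r / s ≤ N) :
    ∃ (c : ℝ → Fin (2 * N + 3)) (p : Fin (2 * N + 3) → ℝ), Measurable c ∧
      ∀ x, |x| ≤ r → |p (c x) - x| ≤ s := by
  refine ⟨fun x => (fun m : ℕ => (⟨min m (2 * N + 2), by omega⟩ : Fin (2 * N + 3)))
    ⌊x / s + (N + 1)⌋₊, fun c => s * ((c.val : ℝ) - (N + 1)),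
    (measurable_of_countable (fun m : ℕ => (⟨min m (2 * N + 2), by omega⟩ : Fin (2 * N + 3)))).comp
      (Nat.measurable_floor.comp ((measurable_id.div_const s).add_const _)), fun x h1 => ?_⟩
  have h2 : |x / s| ≤ N := by
    rw [abs_div, abs_of_pos hs]
    exact (div_le_div_of_nonneg_right h1 hs.le).trans hN
  rw [abs_le] at h2
  have h0 : 0 ≤ x / s + (N + 1) := by linarith
  have h3 := Nat.floor_le h0
  have h4 := Nat.lt_floor_add_one (x / s + (N + 1))
  have h5 : ⌊x / s + (N + 1)⌋₊ ≤ 2 * N + 2 := by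
    have : (⌊x / s + (N + 1)⌋₊ : ℝ) ≤ (2 * N + 2 : ℕ) := by push_cast; linarith
    exact_mod_cast this
  simp only [min_eq_left h5]
  have e : s * ((⌊x / s + (N + 1)⌋₊ : ℝ) - (N + 1)) - x =
      s * ((⌊x / s + (N + 1)⌋₊ : ℝ) - (x / s + (N + 1))) := by
    generalize (⌊x / s + (N + 1)⌋₊ : ℝ) = m
    field_simp
    ring
  rw [e, abs_mul, abs_of_pos hs]
  exact mul_le_of_le_one_right hs.le (abs_le.2 ⟨by linarith, by linarith⟩)

theorem net_gen (R : ℕ) {s : ℝ} {C : Type} [Fintype C] [MeasurableSpace C]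
    [MeasurableSingletonClass C] (cell : E d → C) (pt : C → E d) (hm : Measurable cell)
    (hc : ∀ v : E d, ‖v‖ ≤ R + 1 → ‖pt (cell v) - v‖ ≤ s) :
    ∃ 𝓖 : Finset ((E d → E d) × (E d → Bool)), (∀ g ∈ 𝓖, Measurable g.1 ∧ Measurable g.2) ∧
      𝓖.card ≤ (2 * Fintype.card C) ^ Fintype.card C ∧
      ∀ (φ : E d → E d) (A : E d → Mx d) (Q : E d → Bool), (∀ v i j, |A v i j| ≤ R) →
        ∃ g ∈ 𝓖, Apx R φ A Q g s := by
  classical
  refine ⟨Finset.univ.image fun T : C → C × Bool =>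
    (fun v => pt (T (cell v)).1, fun v => (T (cell v)).2), fun g hg => ?_,
    Finset.card_image_le.trans (le_of_eq ?_),
    fun φ A Q hA => ⟨_, Finset.mem_image_of_mem _
      (Finset.mem_univ fun c => (cell (φ (pt c)), Q (pt c))), fun y ρ hy h1 h2 hn v hv => ?_⟩⟩
  · obtain ⟨T, -, rfl⟩ := Finset.mem_image.1 hg
    exact ⟨(measurable_of_finite fun c => pt (T c).1).comp hm,
      (measurable_of_finite fun c => (T c).2).comp hm⟩
  · simp [mul_comm]
  · have hv1 : ‖v‖ ≤ R + 1 := by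
      have := norm_le_norm_add_norm_sub' v y
      linarith
    have a1 := hc v hv1
    have a2 : ‖pt (cell v) - y‖ ≤ 2 * ρ := by
      have := norm_sub_le_norm_sub_add_norm_sub (pt (cell v)) v y
      linarith
    obtain ⟨b1, b2, -⟩ := hn _ a2
    have a3 := hc (φ (pt (cell v))) (by linarith)
    have a4 := hn.lip hA a2 (v' := v) (by linarith [norm_nonneg (v - y)])
    have a5 := mul_le_mul_of_nonneg_left a1 (by positivity : (0 : ℝ) ≤ d * R)
    refine ⟨?_, b1⟩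
    have := norm_sub_le_norm_sub_add_norm_sub (pt (cell (φ (pt (cell v))))) (φ (pt (cell v))) (φ v)
    simp only
    linarith

theorem exists_net (d R : ℕ) {s : ℝ} (hs : 0 < s) :
    ∃ 𝓖 : Finset ((E d → E d) × (E d → Bool)), (∀ g ∈ 𝓖, Measurable g.1 ∧ Measurable g.2) ∧
      𝓖.card ≤ (2 * (2 * ⌈(R + 1) / s⌉₊ + 3) ^ d) ^ ((2 * ⌈(R + 1) / s⌉₊ + 3) ^ d) ∧
      ∀ (φ : E d → E d) (A : E d → Mx d) (Q : E d → Bool), (∀ v i j, |A v i j| ≤ R) →
        ∃ g ∈ 𝓖, Apx R φ A Q g s := by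
  obtain ⟨c, p, hc, hp⟩ := net_one hs (Nat.le_ceil (((R : ℝ) + 1) / s))
  have := net_gen (d := d) R (s := s) (fun v i => c (v i)) (fun u i => p (u i))
    (measurable_pi_lambda _ fun i => hc.comp (measurable_pi_apply i)) fun v hv =>
      (pi_norm_le_iff_of_nonneg hs.le).2 fun i => hp _ ((norm_le_pi_norm v i).trans hv)
  rwa [Fintype.card_fun, Fintype.card_fin, Fintype.card_fin] at this

end Vale.Agent.P109N
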