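import Vale.Agent.P109N.Def2
import Vale.Agent.P109N.LA1

namespace Vale.Agent.P109N

open MeasureTheory Matrix Manifold

variable {d : ℕ}

theorem LA3_psd (B : Mx d) : (Bᵀ * B).PosSemidef := by
  simpa using Matrix.posSemidef_conjTranspose_mul_self B

theorem LA3_pd {N : Mx d} (hN : N.PosSemidef) : (1 + N).PosDef := Matrix.PosDef.one.add_posSemidef hN

theorem LA3_symm {N : Mx d} (hN : N.PosSemidef) : Nᵀ = N := by
  simpa using hN.isHermitian.eq

theorem LA3_one_sub {N : Mx d} (hN : N.PosSemidef) : (1 - (1 + N)⁻¹).PosSemidef := by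
  have hP := LA3_pd hN
  have hu : IsUnit (1 + N).det := hP.det_pos.ne'.isUnit
  have h1 : (1 + N)⁻¹ * (1 + N) = 1 := Matrix.nonsing_inv_mul _ hu
  have h2 : (1 + N) * (1 + N)⁻¹ = 1 := Matrix.mul_nonsing_inv _ hu
  have hs : ((1 + N)⁻¹)ᵀ = (1 + N)⁻¹ := LA3_symm hP.inv.posSemidef
  have h3 : (N + Nᵀ * N).PosSemidef := hN.add (LA3_psd N)
  have h4 := h3.conjTranspose_mul_mul_same (1 + N)⁻¹
  rw [Matrix.conjTranspose_eq_transpose_of_trivial, hs, LA3_symm hN] at h4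
  have h5 : N + N * N = (1 + N) * ((1 + N) - 1) := by noncomm_ring
  have h6 : (1 + N)⁻¹ * (N + N * N) * (1 + N)⁻¹ = 1 - (1 + N)⁻¹ := by
    rw [h5, ← Matrix.mul_assoc, h1, Matrix.one_mul, Matrix.sub_mul, h2, Matrix.one_mul]
  rwa [h6] at h4

theorem LA3_quad (C : Mx d) (v : E d) : (C *ᵥ v) ⬝ᵥ (C *ᵥ v) = v ⬝ᵥ (Cᵀ * C) *ᵥ v := by
  rw [← Matrix.mulVec_mulVec, Matrix.dotProduct_mulVec v, Matrix.vecMul_transpose]

theorem LA3_exp (A : Mx d) : Real.exp (2 * Psi A) = (1 + Aᵀ * A).det := by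
  unfold Psi
  rw [mul_div_cancel₀ _ two_ne_zero, Real.exp_log (LA3_pd (LA3_psd A)).det_pos]

theorem LA3 {A B : Mx d} (hA : A.det ≠ 0) : ∃ U W : Mx d, U - A * W = 1 ∧ ∀ e : E d,
    (U *ᵥ e) ⬝ᵥ (U *ᵥ e) + ((B * U) *ᵥ e) ⬝ᵥ ((B * U) *ᵥ e) + ((A * W) *ᵥ e) ⬝ᵥ ((A * W) *ᵥ e) +
      (W *ᵥ e) ⬝ᵥ (W *ᵥ e) ≤ 2 ^ d * Real.exp (2 * (Psi A + Psi B - Psi (B * A))) * (e ⬝ᵥ e) := by
  have hu : IsUnit A.det := hA.isUnit
  set C : Mx d := A⁻¹ with hC
  have hAC : A * C = 1 := Matrix.mul_nonsing_inv _ hu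
  have hCA : C * A = 1 := Matrix.nonsing_inv_mul _ hu
  have hCd : C.det ≠ 0 := by
    intro h
    have := congrArg Matrix.det hAC
    simp [Matrix.det_mul, h] at this
  set M : Mx d := Cᵀ * C with hM
  set N : Mx d := Bᵀ * B with hN
  have pM : M.PosSemidef := LA3_psd C
  have pN : N.PosSemidef := LA3_psd B
  have dM : M.PosDef := by
    refine pM.posDef_iff_det_ne_zero.2 ?_
    rw [hM, Matrix.det_mul, Matrix.det_transpose]
    exact mul_ne_zero hCd hCd
  have hP := LA3_pd pN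
  have hQ := LA3_pd pM
  set X : Mx d := (1 + N)⁻¹ with hX
  set Y : Mx d := (1 + M)⁻¹ with hY
  have x1 : X * (1 + N) = 1 := Matrix.nonsing_inv_mul _ hP.det_pos.ne'.isUnit
  have x2 : (1 + N) * X = 1 := Matrix.mul_nonsing_inv _ hP.det_pos.ne'.isUnit
  have y2 : (1 + M) * Y = 1 := Matrix.mul_nonsing_inv _ hQ.det_pos.ne'.isUnit
  have sX : Xᵀ = X := LA3_symm hP.inv.posSemidef
  have sY : Yᵀ = Y := LA3_symm hQ.inv.posSemidef
  have hH : (X + Y).PosDef := hP.inv.add hQ.inv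
  set G : Mx d := (X + Y)⁻¹ with hG
  have g2 : (X + Y) * G = 1 := Matrix.mul_nonsing_inv _ hH.det_pos.ne'.isUnit
  have h2 : ((2 : ℝ) • (1 : Mx d) - (X + Y)).PosSemidef := by
    have := (LA3_one_sub pN).add (LA3_one_sub pM)
    convert this using 1
    rw [two_smul]; abel
  have hdet : (X + Y).det * ((1 + N).det * (1 + M).det) = ((1 + N) + (1 + M)).det := by
    have : (1 + N) * (X + Y) * (1 + M) = (1 + N) + (1 + M) := by
      have y1 : Y * (1 + M) = 1 := Matrix.nonsing_inv_mul _ hQ.det_pos.ne'.isUnit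
      rw [Matrix.mul_add (1 + N) X Y, x2, Matrix.add_mul, Matrix.one_mul, Matrix.mul_assoc, y1, Matrix.mul_one,
        add_comm]
    rw [← this, Matrix.det_mul, Matrix.det_mul]; ring
  have hmono : (M + N).det ≤ ((1 + N) + (1 + M)).det := by
    refine det_mono (dM.add_posSemidef pN) ?_
    have : (1 + N) + (1 + M) - (M + N) = (1 : Mx d) + 1 := by abel
    rw [this]
    exact Matrix.PosSemidef.one.add Matrix.PosSemidef.one
  have hAM : Aᵀ * M * A = 1 := by
    rw [hM, ← Matrix.mul_assoc, ← Matrix.transpose_mul, hCA, Matrix.transpose_one, Matrix.one_mul,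
      hCA]
  have e1 : (1 + Aᵀ * A).det = A.det ^ 2 * (1 + M).det := by
    have : 1 + Aᵀ * A = Aᵀ * (1 + M) * A := by
      rw [Matrix.mul_add, Matrix.add_mul, hAM, Matrix.mul_one, add_comm]
    rw [this, Matrix.det_mul, Matrix.det_mul, Matrix.det_transpose]; ring
  have e2 : (1 + (B * A)ᵀ * (B * A)).det = A.det ^ 2 * (M + N).det := by
    have : 1 + (B * A)ᵀ * (B * A) = Aᵀ * (M + N) * A := by
      rw [Matrix.mul_add, Matrix.add_mul, hAM, Matrix.transpose_mul, hN]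
      simp only [Matrix.mul_assoc]
    rw [this, Matrix.det_mul, Matrix.det_mul, Matrix.det_transpose]; ring
  have hMN := (dM.add_posSemidef pN).det_pos
  have hE : 1 ≤ Real.exp (2 * (Psi A + Psi B - Psi (B * A))) * (X + Y).det := by
    have : Real.exp (2 * (Psi A + Psi B - Psi (B * A))) =
        (1 + N).det * (1 + M).det / (M + N).det := by
      rw [mul_sub, mul_add, Real.exp_sub, Real.exp_add, LA3_exp, LA3_exp, LA3_exp, e1, e2, ← hN]
      field_simp
    rw [this, div_mul_eq_mul_div, le_div_iff₀ hMN, one_mul, mul_comm, hdet]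
    exact hmono
  refine ⟨X * G, -(C * Y * G), ?_, fun e => ?_⟩
  · rw [Matrix.mul_neg, sub_neg_eq_add, ← Matrix.mul_assoc, ← Matrix.mul_assoc, hAC, Matrix.one_mul,
      ← Matrix.add_mul, g2]
  · set g : E d := G *ᵥ e with hg
    have he : (X + Y) *ᵥ g = e := by rw [hg, Matrix.mulVec_mulVec, g2, Matrix.one_mulVec]
    have a1 : (X * G) *ᵥ e = X *ᵥ g := by rw [hg, Matrix.mulVec_mulVec]
    have a2 : (B * (X * G)) *ᵥ e = (B * X) *ᵥ g := by
      rw [hg, Matrix.mulVec_mulVec, Matrix.mul_assoc]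
    have a3 : (A * -(C * Y * G)) *ᵥ e = -(Y *ᵥ g) := by
      rw [hg, Matrix.mulVec_mulVec, Matrix.mul_neg, ← Matrix.mul_assoc, ← Matrix.mul_assoc, hAC,
        Matrix.one_mul, Matrix.neg_mulVec]
    have a4 : (-(C * Y * G)) *ᵥ e = -((C * Y) *ᵥ g) := by
      rw [hg, Matrix.mulVec_mulVec, Matrix.neg_mulVec]
    have key : Xᵀ * X + (B * X)ᵀ * (B * X) + Yᵀ * Y + (C * Y)ᵀ * (C * Y) = X + Y := by
      have k1 : X * X + X * Bᵀ * (B * X) = X := by
        have : X * X + X * Bᵀ * (B * X) = X * ((1 + N) * X) := by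
          rw [hN]; simp only [Matrix.add_mul, Matrix.mul_add, Matrix.one_mul, Matrix.mul_assoc]
        rw [this, x2, Matrix.mul_one]
      have k2 : Y * Y + Y * Cᵀ * (C * Y) = Y := by
        have : Y * Y + Y * Cᵀ * (C * Y) = Y * ((1 + M) * Y) := by
          rw [hM]; simp only [Matrix.add_mul, Matrix.mul_add, Matrix.one_mul, Matrix.mul_assoc]
        rw [this, y2, Matrix.mul_one]
      rw [Matrix.transpose_mul, Matrix.transpose_mul, sX, sY, k1, add_assoc, k2]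
    rw [a1, a2, a3, a4, neg_dotProduct_neg, neg_dotProduct_neg, LA3_quad, LA3_quad, LA3_quad,
      LA3_quad, ← dotProduct_add, ← dotProduct_add, ← dotProduct_add, ← Matrix.add_mulVec,
      ← Matrix.add_mulVec, ← Matrix.add_mulVec, key, he]
    have q := quad_ge hH 2 two_pos h2 g
    rw [he] at q
    have cs : (g ⬝ᵥ e) ^ 2 ≤ (g ⬝ᵥ g) * (e ⬝ᵥ e) := by
      have := Finset.sum_mul_sq_le_sq_mul_sq Finset.univ g e
      simpa [dotProduct, sq] using this
    have ee : 0 ≤ e ⬝ᵥ e := Finset.sum_nonneg fun i _ => mul_self_nonneg _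
    have hD := hH.det_pos
    set t := g ⬝ᵥ e
    set x := Real.exp (2 * (Psi A + Psi B - Psi (B * A)))
    have hx : 0 < x := Real.exp_pos _
    have h2d : (0 : ℝ) < 2 ^ d := by positivity
    rcases le_or_gt t 0 with ht | ht
    · exact ht.trans (by positivity)
    · have s1 : (X + Y).det * t * t ≤ (2 ^ d / 2 * (e ⬝ᵥ e)) * t := by
        calc (X + Y).det * t * t = (X + Y).det * t ^ 2 := by ring
          _ ≤ (X + Y).det * ((g ⬝ᵥ g) * (e ⬝ᵥ e)) := by gcongr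
          _ = ((X + Y).det * (g ⬝ᵥ g)) * (e ⬝ᵥ e) := by ring
          _ ≤ (2 ^ d / 2 * t) * (e ⬝ᵥ e) := by gcongr
          _ = _ := by ring
      have s2 := le_of_mul_le_mul_right s1 ht
      calc t ≤ (x * (X + Y).det) * t := le_mul_of_one_le_left ht.le hE
        _ = x * ((X + Y).det * t) := by ring
        _ ≤ x * (2 ^ d / 2 * (e ⬝ᵥ e)) := by gcongr
        _ ≤ x * (2 ^ d * (e ⬝ᵥ e)) := by gcongr; linarith
        _ = _ := by ring

end Vale.Agent.P109N
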