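import Vale.Agent.P109N.Def2
import Vale.Agent.P109N.LA3
import Vale.Agent.P109N.Pr

namespace Vale.Agent.P109N

open MeasureTheory Matrix Manifold

variable {d : ℕ}

theorem RI_dot_nonneg (x : E d) : 0 ≤ x ⬝ᵥ x := Finset.sum_nonneg fun i _ => mul_self_nonneg _

theorem RI_dot_le {e : E d} {η : ℝ} (he : ‖e‖ ≤ η) : e ⬝ᵥ e ≤ d * η ^ 2 := by
  have h : ∀ i, e i * e i ≤ η ^ 2 := fun i => by
    have h1 : |e i| ≤ η := (norm_le_pi_norm e i).trans he
    have h2 := sq_le_sq' (abs_le.1 h1).1 (abs_le.1 h1).2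
    linarith [sq (e i)]
  calc e ⬝ᵥ e = ∑ i, e i * e i := rfl
    _ ≤ ∑ _i : Fin d, η ^ 2 := Finset.sum_le_sum fun i _ => h i
    _ = d * η ^ 2 := by simp

theorem RI_norm_le {x : E d} {c : ℝ} (hc : 0 ≤ c) (h : x ⬝ᵥ x ≤ c ^ 2) : ‖x‖ ≤ c := by
  refine (pi_norm_le_iff_of_nonneg hc).2 fun i => ?_
  have h1 : x i * x i ≤ x ⬝ᵥ x :=
    Finset.single_le_sum (f := fun j => x j * x j) (fun j _ => mul_self_nonneg _)
      (Finset.mem_univ i)
  rw [Real.norm_eq_abs]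
  apply abs_le_of_sq_le_sq' _ hc |> abs_le.2
  linarith [sq (x i)]

theorem RI_bd {P Q : Mx d} (hP : P.det ≠ 0) {u e : E d} {D η : ℝ}
    (h1 : Psi P + Psi Q - Psi (Q * P) ≤ D)
    (h2 : u ⬝ᵥ u + ((Q * P) *ᵥ u) ⬝ᵥ ((Q * P) *ᵥ u) ≤ 2 ^ d * Real.exp (2 * D) * (e ⬝ᵥ e))
    (hη : 0 ≤ η) (he : ‖e‖ ≤ η) : ‖P *ᵥ u‖ ≤ (d + 1) * 2 ^ d * Real.exp (2 * D) * η := by
  apply RI_norm_le (by positivity)
  have a1 := LA2 (B := Q) hP u
  have a2 : Real.exp (2 * (Psi P + Psi Q - Psi (Q * P))) ≤ Real.exp (2 * D) :=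
    Real.exp_le_exp.2 (by linarith)
  have a3 : 0 ≤ u ⬝ᵥ u + ((Q * P) *ᵥ u) ⬝ᵥ ((Q * P) *ᵥ u) :=
    add_nonneg (RI_dot_nonneg _) (RI_dot_nonneg _)
  have a4 := mul_le_mul a2 h2 a3 (Real.exp_pos _).le
  have a5 : 2 ^ d * Real.exp (2 * D) * (e ⬝ᵥ e) ≤ 2 ^ d * Real.exp (2 * D) * (d * η ^ 2) :=
    mul_le_mul_of_nonneg_left (RI_dot_le he) (by positivity)
  have a6 := mul_le_mul_of_nonneg_left a5 (Real.exp_pos (2 * D)).le
  have a7 : (1 : ℝ) ≤ 2 ^ d := one_le_pow₀ (by norm_num)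
  have a8 : (2 : ℝ) ^ d * d ≤ ((d + 1) * 2 ^ d) ^ 2 := by
    have b0 : (0 : ℝ) ≤ d := Nat.cast_nonneg d
    have b1 : (d : ℝ) ≤ (d + 1) ^ 2 := by nlinarith
    have b2 : (2 : ℝ) ^ d ≤ (2 ^ d) ^ 2 := by nlinarith
    calc (2 : ℝ) ^ d * d ≤ (2 ^ d) ^ 2 * (d + 1) ^ 2 := mul_le_mul b2 b1 b0 (by positivity)
      _ = _ := by ring
  have a9 := mul_le_mul_of_nonneg_right a8
    (show 0 ≤ (Real.exp (2 * D) * η) ^ 2 by positivity)
  calc _ ≤ _ := a1
    _ ≤ _ := a4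
    _ ≤ _ := a6
    _ = 2 ^ d * d * (Real.exp (2 * D) * η) ^ 2 := by ring
    _ ≤ _ := a9
    _ = _ := by ring

theorem RIl_of_defect {A : ℕ → Mx d} (h : ∀ t, (A t).det ≠ 0) {n : ℕ} {D : ℝ}
    (hD : ∀ t m m', t + m + m' ≤ n →
      Psi (pr A t m) + Psi (pr A (t + m) m') - Psi (pr A t (m + m')) ≤ D) :
    RIl A n (n * (d + 1) * 2 ^ d * Real.exp (2 * D)) := by
  have hUW := fun s => LA3 (A := pr A 0 (s + 1)) (B := pr A (s + 1) (n - s - 1)) (pr_det h 0 (s + 1))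
  choose U W hUW hb using hUW
  have hb' : ∀ s < n, ∀ e : E d,
      (U s *ᵥ e) ⬝ᵥ (U s *ᵥ e) + ((pr A (s + 1) (n - s - 1) * U s) *ᵥ e) ⬝ᵥ
        ((pr A (s + 1) (n - s - 1) * U s) *ᵥ e) + ((pr A 0 (s + 1) * W s) *ᵥ e) ⬝ᵥ
        ((pr A 0 (s + 1) * W s) *ᵥ e) + (W s *ᵥ e) ⬝ᵥ (W s *ᵥ e) ≤
        2 ^ d * Real.exp (2 * D) * (e ⬝ᵥ e) := by
    intro s hs e
    refine (hb s e).trans ?_
    have a1 := hD 0 (s + 1) (n - s - 1) (by omega)
    rw [pr_add A 0 (s + 1) (n - s - 1), Nat.zero_add] at a1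
    refine mul_le_mul_of_nonneg_right ?_ (RI_dot_nonneg e)
    exact mul_le_mul_of_nonneg_left (Real.exp_le_exp.2 (by linarith)) (by positivity)
  refine ⟨fun t s => if s < t then pr A (s + 1) (t - s - 1) * U s else pr A 0 t * W s,
    fun e => ⟨fun t ht => ?_, fun η hη he t ht => ?_⟩⟩
  · have key : ∀ s, (if s < t + 1 then pr A (s + 1) (t + 1 - s - 1) * U s else pr A 0 (t + 1) * W s) =
        A t * (if s < t then pr A (s + 1) (t - s - 1) * U s else pr A 0 t * W s) +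
          (if t = s then 1 else 0) := by
      intro s
      rcases lt_trichotomy s t with c | c | c
      · rw [if_pos (by omega), if_pos c, if_neg (by omega), add_zero,
          show t + 1 - s - 1 = (t - s - 1) + 1 by omega, pr,
          show s + 1 + (t - s - 1) = t by omega, Matrix.mul_assoc]
      · subst c
        rw [if_pos (by omega), if_neg (by omega), if_pos rfl, show s + 1 - s - 1 = 0 by omega, pr,
          Matrix.one_mul, ← hUW s, pr, Nat.zero_add, Matrix.mul_assoc]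
        abel
      · rw [if_neg (by omega), if_neg (by omega), if_neg (by omega), add_zero, pr, Nat.zero_add,
          Matrix.mul_assoc]
    simp only [key, Matrix.add_mulVec, Finset.sum_add_distrib, Matrix.mulVec_sum,
      Matrix.mulVec_mulVec]
    congr 1
    rw [Finset.sum_eq_single t]
    · simp
    · intro b _ hb
      rw [if_neg (Ne.symm hb), Matrix.zero_mulVec]
    · intro hh
      exact absurd (Finset.mem_range.2 ht) hh
  · have key : ∀ s ∈ Finset.range n,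
        ‖(if s < t then pr A (s + 1) (t - s - 1) * U s else pr A 0 t * W s) *ᵥ e s‖ ≤
          (d + 1) * 2 ^ d * Real.exp (2 * D) * η := by
      intro s hs
      have hs := Finset.mem_range.1 hs
      have b := hb' s hs (e s)
      split_ifs with c
      · rw [← Matrix.mulVec_mulVec]
        have e1 : pr A (s + 1) (n - s - 1) =
            pr A (s + 1 + (t - s - 1)) (n - t) * pr A (s + 1) (t - s - 1) := by
          rw [← pr_add, show t - s - 1 + (n - t) = n - s - 1 by omega]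
        refine RI_bd (Q := pr A (s + 1 + (t - s - 1)) (n - t)) (e := e s) (pr_det h _ _) ?_ ?_ hη
          (he s hs)
        · rw [← pr_add]
          exact hD _ _ _ (by omega)
        · rw [← e1, Matrix.mulVec_mulVec (e s) (pr A (s + 1) (n - s - 1))]
          linarith [RI_dot_nonneg ((pr A 0 (s + 1) * W s) *ᵥ e s), RI_dot_nonneg (W s *ᵥ e s)]
      · rw [← Matrix.mulVec_mulVec]
        have e1 : pr A 0 (s + 1) = pr A (0 + t) (s + 1 - t) * pr A 0 t := by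
          rw [← pr_add, show t + (s + 1 - t) = s + 1 by omega]
        refine RI_bd (Q := pr A (0 + t) (s + 1 - t)) (e := e s) (pr_det h _ _) ?_ ?_ hη
          (he s hs)
        · rw [← pr_add]
          exact hD _ _ _ (by omega)
        · rw [← e1, Matrix.mulVec_mulVec (e s) (pr A 0 (s + 1))]
          linarith [RI_dot_nonneg ((pr A (s + 1) (n - s - 1) * U s) *ᵥ e s),
            RI_dot_nonneg (U s *ᵥ e s)]
    calc _ ≤ _ := norm_sum_le _ _
      _ ≤ ∑ _s ∈ Finset.range n, (d + 1) * 2 ^ d * Real.exp (2 * D) * η := Finset.sum_le_sum key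
      _ = _ := by simp only [Finset.sum_const, Finset.card_range, nsmul_eq_mul]; ring

end Vale.Agent.P109N
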