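import Vale.Agent.P109N.Def2
import Vale.Agent.P109N.DomC
import Vale.Agent.P109N.Net
import Vale.Agent.P109N.Asy
import Vale.Agent.P109N.RI
import Vale.Agent.P109N.Meas

namespace Vale.Agent.P109N

open MeasureTheory Matrix Manifold

variable {d : ℕ}

lemma dom_pow (d n : ℕ) : (1 + 1 / (n : ℝ)) ^ (2 * d * n) ≤ Real.exp (2 * d) := by
  have h1 : (1 + 1 / (n : ℝ)) ^ (2 * d * n) ≤ Real.exp (1 / (n : ℝ)) ^ (2 * d * n) :=
    pow_le_pow_left₀ (by positivity) (by linarith [Real.add_one_le_exp (1 / (n : ℝ))]) _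
  refine h1.trans ?_
  rw [← Real.exp_nat_mul, Real.exp_le_exp]
  rcases Nat.eq_zero_or_pos n with rfl | hn
  · simp
  · have : (0 : ℝ) < n := by exact_mod_cast hn
    push_cast
    refine le_of_eq ?_
    field_simp

theorem exists_dom (d R l : ℕ) (hl : 0 < l) (hR : 1 ≤ R) {c : ℝ} (hc : 0 < c) : ∃ γ : ℝ,
    ∀ᶠ k : ℕ in Filter.atTop, ∃ 𝓝 : Finset ((Fin (k * l) → Bool) → ℝ),
      (𝓝.card : ℝ) ≤ Real.exp (Real.exp (c * (k * l : ℕ) / 2)) ∧
      DomBy d R l k (c * (k * l : ℕ) / (100 * (d + 1))) γ 𝓝 := by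
  classical
  have hR' : (1 : ℝ) ≤ R := by exact_mod_cast hR
  have hCP : 0 ≤ CP d R := (Psi_nonneg (1 : Mx d)).trans (Psi_one_le R)
  have hK : (0 : ℝ) < R * 36 ^ d * Real.exp (2 * d) * (2 * R + 2) ^ d := by positivity
  refine ⟨Real.log (R * 36 ^ d * Real.exp (2 * d) * (2 * R + 2) ^ d), ?_⟩
  filter_upwards [asy d R l hl hR hc (8 * l * CP d R) (by positivity)] with k hk
  obtain ⟨G, η, s, hk0, hG, hG0, hη, hs, a1, a2, a3, a4, a5, a6⟩ := hk
  obtain ⟨𝓖, g1, g2, g3⟩ := exists_net d R hs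
  have hn : (1 : ℝ) ≤ (k * l : ℕ) := by exact_mod_cast Nat.mul_pos hk0 hl
  refine ⟨𝓖.image fun g => wt R g (k * l) η, ?_, fun w hw => ?_, ?_⟩
  · refine le_trans ?_ a6
    exact_mod_cast Finset.card_image_le.trans g2
  · obtain ⟨g, hg, rfl⟩ := Finset.mem_image.1 hw
    exact ⟨wt_nonneg R g _ hη, wt_sum R (g1 g hg).1 (g1 g hg).2 _ hη⟩
  intro Z _ ν S P χ φ A Q F
  obtain ⟨g, hg, hA⟩ := g3 φ A Q F.Abd
  obtain ⟨B, hB⟩ : ∃ B : Set Z, B = ⋃ t ∈ Finset.range (k * l),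
    S^[t] ⁻¹' {z | ¬Nice R φ A Q (2 * (2 * G * η)) (χ z)} := ⟨_, rfl⟩
  have mD : MeasurableSet {z | Del (co S χ A z) l k ≤ c * (k * l : ℕ) / (100 * (d + 1))} :=
    measurableSet_le ((Finset.measurable_sum _ fun i _ => F.meas_Psi _ _).sub (F.meas_Psi _ _))
      measurable_const
  refine ⟨_, Finset.mem_image_of_mem _ hg,
    {z | Del (co S χ A z) l k ≤ c * (k * l : ℕ) / (100 * (d + 1))} \ toMeasurable ν B,
    mD.diff (measurableSet_toMeasurable _ _), ?_, fun ω => ?_⟩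
  · refine (measure_mono (t := toMeasurable ν B) fun z hz => ?_).trans ?_
    · by_contra h
      exact hz.1 ⟨hz.2, h⟩
    rw [measure_toMeasurable, hB]
    refine (measure_biUnion_finset_le _ _).trans ?_
    refine (Finset.sum_le_card_nsmul _ _ (ENNReal.ofReal (R * (2 * (2 * G * η))))
      fun t _ => ((F.mp.iterate t).measure_preimage_le _).trans (F.loc _ (by positivity))).trans ?_
    rw [Finset.card_range, nsmul_eq_mul, ← ENNReal.ofReal_natCast,
      ← ENNReal.ofReal_mul (Nat.cast_nonneg _)]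
    exact ENNReal.ofReal_le_ofReal a5
  · refine (dom_cover F (g1 g hg).1 (g1 g hg).2 hA hG0 hη a1
      ((div_le_one (by linarith)).2 hn) a2 a3 a4 _ (fun z hz => ⟨?_, fun t ht => ?_⟩) ω).trans
      (ENNReal.ofReal_le_ofReal ?_)
    · rw [← hG]
      refine RIl_of_defect (A := co S χ A z) (fun t => F.Adet _) fun t m m' h => ?_
      have := defect_le (A := co S χ A z) (R := R) (fun t => F.Adet _)
        (fun t i j => F.Abd _ i j) hl t m m' h
      have h2 : Del (co S χ A z) l k ≤ c * (k * l : ℕ) / (100 * (d + 1)) := hz.1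
      linarith
    · by_contra h
      refine hz.2 (subset_toMeasurable _ _ ?_)
      rw [hB]
      exact Set.mem_biUnion (Finset.mem_coe.2 (Finset.mem_range.2 ht)) h
    · rw [Real.exp_log hK]
      refine mul_le_mul_of_nonneg_right ?_ (wt_nonneg R g _ hη ω)
      have := dom_pow d (k * l)
      gcongr

end Vale.Agent.P109N
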