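import Vale.Agent.P109N.Def2
import Vale.Agent.P109N.Meas

namespace Vale.Agent.P109N

open MeasureTheory Matrix Manifold

variable {d : ℕ}

theorem Down_meas {Z : Type} [MeasurableSpace Z] {S : Z → Z} (hS : Measurable S) {a b : Lev}
    (ψ : b.I → ℕ → a.I) (i : ℕ) :
    Measurable fun p : Z × b.I => (S^[i * a.L] p.1, ψ p.2 i) :=
  ((hS.iterate _).comp measurable_fst).prodMk
    ((measurable_of_finite fun u : b.I => ψ u i).comp measurable_snd)

theorem Down_sum {M : Type} [AddCommMonoid M] (f : ℕ → M) (k L : ℕ) :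
    ∑ t ∈ Finset.range (k * L), f t = ∑ i ∈ Finset.range k, ∑ s ∈ Finset.range L, f (i * L + s) := by
  induction k with
  | zero => simp
  | succ k ih => rw [Nat.succ_mul, Finset.sum_range_add, ih, Finset.sum_range_succ]

theorem Joint.down {Z : Type} [MeasurableSpace Z] {ν : Measure Z} {S : Z → Z} {P : Z → Bool}
    (hS : Measurable S) (hP : Measurable P) {a b : Lev} {k : ℕ} {ψ : b.I → ℕ → a.I}
    (h : Step a b k ψ) {m : Measure (Z × b.I)} (hm : Joint ν S P b m) :
    Joint ν S P a (down S k ψ m) := by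
  classical
  have := hm.prob
  have k0 : (k : ENNReal) ≠ 0 := Nat.cast_ne_zero.2 (by have := h.two; omega)
  have kt : (k : ENNReal) ≠ ⊤ := ENNReal.natCast_ne_top k
  have ap : ∀ B : Set (Z × a.I), MeasurableSet B → P109N.down S k ψ m B =
      (k : ENNReal)⁻¹ * ∑ i ∈ Finset.range k,
        m ((fun p : Z × b.I => (S^[i * a.L] p.1, ψ p.2 i)) ⁻¹' B) := by
    intro B hB
    rw [P109N.down, Measure.smul_apply, Measure.finsetSum_apply, smul_eq_mul,
      Finset.sum_congr rfl fun i _ => Measure.map_apply (Down_meas hS ψ i) hB]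
  refine ⟨⟨?_⟩, ?_, fun v => ?_, ?_⟩
  · rw [ap _ MeasurableSet.univ]
    simp [ENNReal.inv_mul_cancel k0 kt]
  · ext B hB
    have e := congrArg (fun μ : Measure Z => μ B) hm.avg
    simp only [Measure.finsetSum_apply, Measure.smul_apply, smul_eq_mul] at e ⊢
    have ms : ∀ s, Measurable fun p : Z × a.I => S^[s] p.1 := fun s =>
      (hS.iterate s).comp measurable_fst
    have mb : ∀ s, Measurable fun p : Z × b.I => S^[s] p.1 := fun s =>
      (hS.iterate s).comp measurable_fst
    rw [Finset.sum_congr rfl fun s _ => (Measure.map_apply (ms s) hB).trans (ap _ (ms s hB)),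
      ← Finset.mul_sum, Finset.sum_comm]
    rw [h.len, Down_sum] at e
    have e2 : ∑ i ∈ Finset.range k, ∑ s ∈ Finset.range a.L,
        m ((fun p : Z × b.I => (S^[i * a.L] p.1, ψ p.2 i)) ⁻¹' ((fun p : Z × a.I => S^[s] p.1) ⁻¹' B)) =
        ∑ i ∈ Finset.range k, ∑ s ∈ Finset.range a.L,
          (m.map fun p : Z × b.I => S^[i * a.L + s] p.1) B := by
      refine Finset.sum_congr rfl fun i _ => Finset.sum_congr rfl fun s _ => ?_
      rw [Measure.map_apply (mb _) hB]
      refine congrArg m (Set.ext fun p => ?_)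
      simp only [Set.mem_preimage]
      rw [add_comm, Function.iterate_add_apply]
    rw [e2, e, Nat.cast_mul, mul_assoc, ← mul_assoc, ENNReal.inv_mul_cancel k0 kt, one_mul]
  · have mv : MeasurableSet {p : Z × a.I | p.2 = v} := measurable_snd (measurableSet_singleton v)
    rw [ap _ mv]
    have e : ∀ i, m ((fun p : Z × b.I => (S^[i * a.L] p.1, ψ p.2 i)) ⁻¹' {p : Z × a.I | p.2 = v}) =
        ∑ u, if ψ u i = v then m {p | p.2 = u} else 0 := by
      intro i
      have e1 : (fun p : Z × b.I => (S^[i * a.L] p.1, ψ p.2 i)) ⁻¹' {p : Z × a.I | p.2 = v} =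
          ⋃ u ∈ Finset.univ.filter (fun u => ψ u i = v), {p : Z × b.I | p.2 = u} := by
        ext p
        simp
      rw [e1, measure_biUnion_finset, Finset.sum_filter]
      · intro u _ u' _ hne
        exact Set.disjoint_left.2 fun p h1 h2 => hne (h1.symm.trans h2)
      · exact fun u _ => measurable_snd (measurableSet_singleton u)
    have tot : ∑ u : b.I, m {p | p.2 = u} = 1 := by
      have e1 : (Set.univ : Set (Z × b.I)) = ⋃ u ∈ (Finset.univ : Finset b.I), {p | p.2 = u} := by
        ext p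
        simp
      rw [← measure_univ (μ := m), e1, measure_biUnion_finset]
      · intro u _ u' _ hne
        exact Set.disjoint_left.2 fun p h1 h2 => hne (h1.symm.trans h2)
      · exact fun u _ => measurable_snd (measurableSet_singleton u)
    have N0 : (2 * a.N : ENNReal) ≠ 0 :=
      mul_ne_zero two_ne_zero (Nat.cast_ne_zero.2 h.ok.1.ne')
    have Nt : (2 * a.N : ENNReal) ≠ ⊤ := ENNReal.mul_ne_top (by simp) (ENNReal.natCast_ne_top _)
    have e3 : ∀ u : b.I, ∑ i ∈ Finset.range k, (if ψ u i = v then m {p | p.2 = u} else 0) =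
        (k * (2 * a.N : ENNReal)⁻¹) * m {p | p.2 = u} := by
      intro u
      rw [← Finset.sum_filter, Finset.sum_const, nsmul_eq_mul]
      have e4 : ((((Finset.range k).filter fun i => ψ u i = v).card : ℕ) : ENNReal) *
          (2 * a.N) = k := by exact_mod_cast h.bal u v
      rw [← e4, mul_assoc _ (2 * a.N : ENNReal), ENNReal.mul_inv_cancel N0 Nt, mul_one]
    rw [Finset.sum_congr rfl fun i _ => e i, Finset.sum_comm, Finset.sum_congr rfl fun u _ => e3 u,
      ← Finset.mul_sum, tot, mul_one, ← mul_assoc, ENNReal.inv_mul_cancel k0 kt, one_mul]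
  · have mn : MeasurableSet {p : Z × a.I | ¬ ∀ s < a.L, P (S^[s] p.1) = a.w p.2 s} := by
      have e : {p : Z × a.I | ¬ ∀ s < a.L, P (S^[s] p.1) = a.w p.2 s} =
          ⋃ s ∈ Finset.range a.L, (fun p : Z × a.I => (P (S^[s] p.1), p.2)) ⁻¹'
            {q : Bool × a.I | q.1 ≠ a.w q.2 s} := by
        ext p
        simp
      rw [e]
      exact Finset.measurableSet_biUnion _ fun s _ =>
        (((hP.comp (hS.iterate s)).comp measurable_fst).prodMk measurable_snd)
          (Set.toFinite _).measurableSet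
    rw [ae_iff, ap _ mn, Finset.sum_eq_zero, mul_zero]
    intro i hi
    have hn := ae_iff.1 hm.name
    refine measure_mono_null ?_ hn
    refine fun p hp hq => hp fun s hs => ?_
    have hi' := Finset.mem_range.1 hi
    have hl : i * a.L + s < b.L := by
      rw [h.len]
      calc i * a.L + s < (i + 1) * a.L := by rw [Nat.succ_mul]; omega
        _ ≤ k * a.L := Nat.mul_le_mul_right _ hi'
    have e := hq _ hl
    rw [h.cat _ i hi' s hs, add_comm, Function.iterate_add_apply] at e
    exact e

theorem integral_down {Z : Type} [MeasurableSpace Z] {S : Z → Z} (hS : Measurable S) {a b : Lev}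
    {k : ℕ} (hk : 0 < k) (ψ : b.I → ℕ → a.I) (m : Measure (Z × b.I)) [IsProbabilityMeasure m]
    {f : Z × a.I → ℝ} (hf : Measurable f) {C : ℝ} (hC : ∀ x, |f x| ≤ C) :
    ∫ x, ∑ i ∈ Finset.range k, f (S^[i * a.L] x.1, ψ x.2 i) ∂m = k * ∫ x, f x ∂(down S k ψ m) := by
  have k0 : (k : ℝ) ≠ 0 := Nat.cast_ne_zero.2 hk.ne'
  have i1 : ∀ i, Integrable f (m.map fun p : Z × b.I => (S^[i * a.L] p.1, ψ p.2 i)) := fun i =>
    Integrable.of_bound hf.aestronglyMeasurable C (Filter.Eventually.of_forall hC)
  have i2 : ∀ i, Integrable (fun x : Z × b.I => f (S^[i * a.L] x.1, ψ x.2 i)) m := fun i =>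
    Integrable.of_bound (hf.comp (Down_meas hS ψ i)).aestronglyMeasurable C
      (Filter.Eventually.of_forall fun x => hC _)
  rw [integral_finsetSum _ fun i _ => i2 i,
    down, integral_smul_measure, integral_finsetSum_measure fun i _ => i1 i,
    Finset.sum_congr rfl fun i _ => integral_map (Down_meas hS ψ i).aemeasurable
      hf.aestronglyMeasurable]
  simp only [ENNReal.toReal_inv, ENNReal.toReal_natCast, smul_eq_mul]
  rw [← mul_assoc, mul_inv_cancel₀ k0, one_mul]

theorem Kill.up {d R : ℕ} {a b : Lev} (h : Kill d R a) (hs : St a b) : Kill d R b := by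
  obtain ⟨k, ψ, hs⟩ := hs
  intro Z _ ν S P χ φ A Q F m hm
  exact h Z ν S P χ φ A Q F _ (hm.down F.mp.measurable F.mP hs)

end Vale.Agent.P109N
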