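import Vale.Agent.P109N.St2

namespace Vale.Agent.P109N

open MeasureTheory

theorem Ent_iter (s : ℕ) (ω : ℤ → Bool) (n : ℤ) : shift^[s] ω n = ω (n + s) := by
  induction s generalizing n with
  | zero => simp
  | succ s ih =>
    rw [Function.iterate_succ_apply']
    show shift^[s] ω (n + 1) = _
    rw [ih]; congr 1; push_cast; ring

theorem Ent_approx (μ : Measure (ℤ → Bool)) [IsProbabilityMeasure μ] {k : ℕ}
    {ξ : (ℤ → Bool) → Fin k} (hξ : Measurable ξ) {δ : ℝ} (hδ : 0 < δ) :
    ∃ (l : ℕ) (ζ : (ℤ → Bool) → Fin k) (D : Set (ℤ → Bool)), MeasurableSet D ∧ μ.real D ≤ k * δ ∧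
      (∀ ω ∉ D, ξ ω = ζ ω) ∧ ∀ ω ω', (∀ i : ℤ, |i| ≤ l → ω i = ω' i) → ζ ω = ζ ω' := by
  classical
  have h1 : ∀ j : Fin k, ∃ (s : Finset ℤ) (S : Set (∀ _ : s, Bool)),
      μ (symmDiff (cylinder s S) (ξ ⁻¹' {j})) < ENNReal.ofReal δ := fun j => by
    obtain ⟨t, ht, h⟩ := exists_measure_symmDiff_lt_of_generateFrom_isSetRing (μ := μ)
      isSetRing_measurableCylinders
      ⟨{Set.univ}, Set.countable_singleton _, Set.singleton_subset_iff.2 (univ_mem_measurableCylinders _),
        by simp⟩ generateFrom_measurableCylinders.symm (hξ (measurableSet_singleton j))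
      (ENNReal.ofReal_pos.2 hδ)
    obtain ⟨s, S, -, rfl⟩ := (mem_measurableCylinders _).1 ht
    exact ⟨s, S, h⟩
  choose s S hS using h1
  obtain ⟨l, hl⟩ : ∃ l : ℕ, ∀ j, ∀ i ∈ s j, |i| ≤ l := by
    refine ⟨(Finset.univ.biUnion s).sup Int.natAbs, fun j i hi => ?_⟩
    have : i.natAbs ≤ (Finset.univ.biUnion s).sup Int.natAbs :=
      Finset.le_sup (f := Int.natAbs) (Finset.mem_biUnion.2 ⟨j, Finset.mem_univ _, hi⟩)
    rw [← Int.natCast_natAbs]; exact_mod_cast this
  have hm : ∀ j, MeasurableSet (symmDiff (cylinder (s j) (S j)) (ξ ⁻¹' {j})) := fun j =>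
    (MeasurableSet.cylinder _ (Set.toFinite _).measurableSet).symmDiff
      (hξ (measurableSet_singleton j))
  let Φ : (Fin k → Prop) → Fin k := fun p => if h : ∃ j, p j then h.choose else ξ default
  refine ⟨l, fun ω => Φ fun j => ω ∈ cylinder (s j) (S j), ⋃ j, symmDiff (cylinder (s j) (S j))
    (ξ ⁻¹' {j}), MeasurableSet.iUnion hm, ?_, fun ω hω => ?_, fun ω ω' h => ?_⟩
  · refine (measureReal_iUnion_fintype_le _).trans ?_
    refine (Finset.sum_le_sum (g := fun _ => δ) fun j _ => ?_).trans (by simp)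
    exact ENNReal.toReal_le_of_le_ofReal hδ.le (hS j).le
  · have h2 : ∀ j, ω ∈ cylinder (s j) (S j) ↔ ξ ω = j := fun j => by
      have := fun h => hω (Set.mem_iUnion.2 ⟨j, h⟩)
      rw [Set.mem_symmDiff] at this
      simp only [Set.mem_preimage, Set.mem_singleton_iff] at this
      tauto
    have h3 : ∃ j, ω ∈ cylinder (s j) (S j) := ⟨_, (h2 _).2 rfl⟩
    simp only [Φ, dif_pos h3]
    exact (h2 _).1 h3.choose_spec
  · have : ∀ j, (s j).restrict ω = (s j).restrict ω' := fun j =>
      funext fun i => h i (hl j i i.2)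
    simp only [mem_cylinder, this]

theorem Ent_gibbs {X W : Type} [MeasurableSpace X] [Fintype W] [MeasurableSpace W]
    [MeasurableSingletonClass W] (μ : Measure X) [IsProbabilityMeasure μ] {N : X → W}
    (hN : Measurable N) (q : W → ℝ) (hq : ∀ w, 0 < q w) (hs : ∑ w, q w ≤ 1) {g : X → ℝ}
    (hg : Integrable g μ) (h : ∀ x, -Real.log (q (N x)) ≤ g x) :
    ∑ w, Real.negMulLog (μ.real (N ⁻¹' {w})) ≤ ∫ x, g x ∂μ := by
  have := Measure.isProbabilityMeasure_map (μ := μ) hN.aemeasurable
  have h1 : ∫ x, -Real.log (q (N x)) ∂μ = ∑ w, μ.real (N ⁻¹' {w}) * -Real.log (q w) := by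
    rw [← integral_map (f := fun w => -Real.log (q w)) hN.aemeasurable
      (measurable_of_finite _).aestronglyMeasurable, integral_fintype Integrable.of_finite]
    refine Finset.sum_congr rfl fun w _ => ?_
    rw [map_measureReal_apply hN (measurableSet_singleton w), smul_eq_mul]
  have h2 : ∑ w, μ.real (N ⁻¹' {w}) = 1 := by
    rw [sum_measureReal_preimage_singleton _ fun w _ => hN (measurableSet_singleton w)]
    simp
  have h3 : Integrable (fun x => -Real.log (q (N x))) μ :=
    (integrable_map_measure (g := fun w => -Real.log (q w))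
      (measurable_of_finite _).aestronglyMeasurable hN.aemeasurable).1 Integrable.of_finite
  refine le_trans ?_ (integral_mono h3 hg h)
  rw [h1]
  have h4 : ∀ w, Real.negMulLog (μ.real (N ⁻¹' {w})) ≤
      μ.real (N ⁻¹' {w}) * -Real.log (q w) + (q w - μ.real (N ⁻¹' {w})) := fun w => by
    rcases (measureReal_nonneg (μ := μ) (s := N ⁻¹' {w})).eq_or_lt with h0 | h0
    · rw [← h0]; simp [(hq w).le]
    · have := Real.log_le_sub_one_of_pos (div_pos (hq w) h0)
      rw [Real.log_div (hq w).ne' h0.ne'] at this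
      have h5 := mul_le_mul_of_nonneg_left this h0.le
      rw [mul_sub _ (_ / _), mul_div_cancel₀ _ h0.ne'] at h5
      rw [Real.negMulLog]; nlinarith
  refine (Finset.sum_le_sum fun w _ => h4 w).trans ?_
  rw [Finset.sum_add_distrib, Finset.sum_sub_distrib, h2]
  linarith

theorem Ent_q {k n : ℕ} (hk : 0 < k) {V : Type} [Fintype V] [Nonempty V] (z : V → Fin n → Fin k) :
    ∃ q : (Fin n → Fin k) → ℝ, (∀ w, 0 < q w) ∧ ∑ w, q w ≤ 1 ∧ ∀ w c, -Real.log (q w) ≤
      Real.log (Fintype.card V) + ∑ i, (1 + if w i = z c i then 0 else Real.log (2 * k)) := by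
  have hk' : (1 : ℝ) ≤ k := by exact_mod_cast hk
  obtain ⟨r, hrd⟩ : ∃ r : Fin k → Fin k → ℝ,
    ∀ a b, r a b = (if a = b then 1 / 2 else 0) + 1 / (2 * k) := ⟨_, fun _ _ => rfl⟩
  have hr : ∀ a b, 1 / (2 * k) ≤ r a b := fun a b => by
    rw [hrd]; split_ifs <;> linarith
  have hr0 : ∀ a b, 0 < r a b := fun a b => lt_of_lt_of_le (by positivity) (hr a b)
  have hV : (0 : ℝ) < Fintype.card V := by exact_mod_cast Fintype.card_pos
  have hp : ∀ (w : Fin n → Fin k) (c : V), 0 <
      (Fintype.card V : ℝ)⁻¹ * ∏ i : Fin n, r (w i) (z c i) := fun w c =>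
    mul_pos (inv_pos.2 hV) (Finset.prod_pos fun i _ => hr0 _ _)
  refine ⟨fun w => ∑ c : V, (Fintype.card V : ℝ)⁻¹ * ∏ i : Fin n, r (w i) (z c i),
    fun w => Finset.sum_pos (fun c _ => hp w c) Finset.univ_nonempty, ?_, fun w c => ?_⟩
  · rw [Finset.sum_comm]
    have : ∀ c : V, ∑ w : Fin n → Fin k, (Fintype.card V : ℝ)⁻¹ *
        ∏ i : Fin n, r (w i) (z c i) = (Fintype.card V : ℝ)⁻¹ := fun c => by
      rw [← Finset.mul_sum, ← Fintype.piFinset_univ,
        ← Finset.prod_univ_sum (fun _ => Finset.univ) fun (i : Fin n) a => r a (z c i)]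
      rw [Finset.prod_eq_one, mul_one]
      intro i _
      simp only [hrd, Finset.sum_add_distrib, Finset.sum_ite_eq', Finset.mem_univ, if_true,
        Finset.sum_const, Finset.card_univ, Fintype.card_fin, nsmul_eq_mul]
      field_simp; norm_num
    simp only [this, Finset.sum_const, Finset.card_univ, nsmul_eq_mul]
    rw [mul_inv_cancel₀ hV.ne']
  · have l2 : Real.log 2 ≤ 1 := by have := Real.log_two_lt_d9; linarith
    have h1 := Finset.single_le_sum (fun c _ => (hp w c).le) (Finset.mem_univ c)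
    have h2 := Real.log_le_log (hp _ _) h1
    rw [Real.log_mul (inv_pos.2 hV).ne' (Finset.prod_pos fun i _ => hr0 _ _).ne', Real.log_inv,
      Real.log_prod fun i _ => (hr0 _ _).ne'] at h2
    have h4 : ∀ i : Fin n, -Real.log (r (w i) (z c i)) ≤
        1 + if w i = z c i then 0 else Real.log (2 * k) := fun i => by
      split_ifs with hx
      · have e3 : (2 : ℝ)⁻¹ ≤ r (w i) (z c i) := by
          rw [hrd, if_pos hx]
          have : (0 : ℝ) < 1 / (2 * k) := by positivity
          linarith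
        have := Real.log_le_log (by positivity) e3
        rw [Real.log_inv] at this
        linarith
      · have := Real.log_le_log (by positivity) (hr (w i) (z c i))
        rw [one_div, Real.log_inv] at this
        linarith
    have h5 := Finset.sum_le_sum fun i (_ : i ∈ Finset.univ) => h4 i
    rw [Finset.sum_neg_distrib] at h5
    linarith

theorem Ent_core {X : Type} [MeasurableSpace X] (μ : Measure X) [IsProbabilityMeasure μ]
    {T : X → X} (hμ : MeasurePreserving T μ μ) {k n : ℕ} (hk : 0 < k) {ξ : X → Fin k}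
    (hξ : Measurable ξ) {V : Type} [Fintype V] [Nonempty V] (z : V → Fin n → Fin k) (c : X → V)
    {D : Set X} (hD : MeasurableSet D) (hDm : Real.log (2 * k) * μ.real D ≤ 1)
    (h : ∀ x (i : Fin n), T^[i] x ∉ D → ξ (T^[i] x) = z (c x) i) :
    ent μ T ξ n ≤ Real.log (Fintype.card V) + 2 * n := by
  have hk' : (1 : ℝ) ≤ k := by exact_mod_cast hk
  have hlog : 0 < Real.log (2 * k) := Real.log_pos (by linarith)
  obtain ⟨q, hq, hs, hb⟩ := Ent_q hk z
  have hN : Measurable fun x (i : Fin n) => ξ (T^[i] x) :=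
    measurable_pi_lambda _ fun i => hξ.comp (hμ.measurable.iterate i)
  have hmi : ∀ i : ℕ, MeasurableSet (T^[i] ⁻¹' D) := fun i => hμ.measurable.iterate i hD
  have hgj : ∀ i : Fin n, Integrable
      (fun x => Real.log (2 * k) * (T^[i] ⁻¹' D).indicator (1 : X → ℝ) x) μ :=
    fun i => ((integrable_const (1 : ℝ)).indicator (hmi i)).const_mul _
  have hgi : ∀ i : Fin n, Integrable
      (fun x => 1 + Real.log (2 * k) * (T^[i] ⁻¹' D).indicator (1 : X → ℝ) x) μ :=
    fun i => (integrable_const _).add (hgj i)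
  have hgs := integrable_finset_sum (μ := μ) Finset.univ fun i _ => hgi i
  have key := Ent_gibbs μ hN q hq hs (g := fun x => Real.log (Fintype.card V) + ∑ i : Fin n,
    (1 + Real.log (2 * k) * (T^[i] ⁻¹' D).indicator 1 x)) ((integrable_const _).add hgs)
    fun x => (hb _ (c x)).trans (by
      refine add_le_add le_rfl (Finset.sum_le_sum fun i _ => add_le_add le_rfl ?_)
      by_cases hx : x ∈ T^[i] ⁻¹' D
      · rw [Set.indicator_of_mem hx]
        split_ifs <;> simp [hlog.le]
      · rw [Set.indicator_of_notMem hx, if_pos (h x i hx)]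
        simp)
  have e : ent μ T ξ n =
      ∑ w, Real.negMulLog (μ.real ((fun x (i : Fin n) => ξ (T^[i] x)) ⁻¹' {w})) := by
    refine Finset.sum_congr rfl fun w _ => ?_
    congr 2
    ext x; simp [funext_iff]
  rw [e]
  refine key.trans ?_
  rw [integral_add (integrable_const _) hgs, integral_finset_sum _ fun i _ => hgi i]
  have h6 : ∀ i : Fin n, ∫ x, (1 + Real.log (2 * k) *
      (T^[i] ⁻¹' D).indicator (1 : X → ℝ) x) ∂μ ≤ 2 := fun i => by
    rw [integral_add (integrable_const _) (hgj i), integral_const_mul,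
      integral_indicator_one (hmi i), (hμ.iterate i).measureReal_preimage hD.nullMeasurableSet]
    simp; linarith
  have h7 := Finset.sum_le_sum fun i (_ : i ∈ Finset.univ) => h6 i
  simp at h7 ⊢
  linarith

theorem Ent_le (μ : Measure (ℤ → Bool)) [IsProbabilityMeasure μ]
    (hμ : MeasurePreserving shift μ μ) {k : ℕ} {ξ : (ℤ → Bool) → Fin k} (hξ : Measurable ξ) :
    ∃ l : ℕ, ∀ n : ℕ, ent μ shift ξ n ≤ 3 * n + l := by
  have hk : 0 < k := Fin.pos (ξ default)
  have hk' : (1 : ℝ) ≤ k := by exact_mod_cast hk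
  have hlog : 0 < Real.log (2 * k) := Real.log_pos (by linarith)
  obtain ⟨l, ζ, D, hD, hDm, he, hl⟩ := Ent_approx μ hξ
    (δ := 1 / (k * Real.log (2 * k))) (by positivity)
  refine ⟨2 * l + 1, fun n => ?_⟩
  have h1 := Ent_core μ hμ hk hξ (n := n) (V := Fin (2 * l + 1 + n) → Bool)
    (fun c i => ζ (shift^[i] fun j => if h : (j + l).toNat < 2 * l + 1 + n then c ⟨_, h⟩ else false))
    (fun x j => x ((j : ℕ) - l)) hD ?_ ?_
  · have l2 : Real.log 2 ≤ 1 := by have := Real.log_two_lt_d9; linarith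
    rw [Fintype.card_fun, Fintype.card_fin, Fintype.card_bool] at h1
    push_cast at h1 ⊢
    rw [Real.log_pow] at h1
    push_cast at h1
    have : (2 * l + 1 + n : ℝ) * Real.log 2 ≤ 2 * l + 1 + n :=
      mul_le_of_le_one_right (by positivity) l2
    linarith
  · refine (mul_le_mul_of_nonneg_left hDm hlog.le).trans (le_of_eq ?_)
    field_simp
  · intro x i hx
    rw [he _ hx]
    refine hl _ _ fun j hj => ?_
    rw [Ent_iter, Ent_iter]
    have hi := i.2
    rw [abs_le] at hj
    rw [dif_pos (by omega)]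
    congr 1
    simp only
    omega

theorem ksEnt_lt_top (μ : Measure (ℤ → Bool)) [IsProbabilityMeasure μ]
    (hμ : MeasurePreserving shift μ μ) : ksEnt μ shift < ⊤ := by
  refine lt_of_le_of_lt (b := ENNReal.ofReal 4) ?_ ENNReal.ofReal_lt_top
  refine iSup_le fun k => iSup_le fun ξ => iSup_le fun hξ => ?_
  obtain ⟨l, hl⟩ := Ent_le μ hμ hξ
  refine Filter.limsup_le_of_le (by isBoundedDefault) ?_
  filter_upwards [Filter.eventually_ge_atTop (l + 1)] with n hn
  refine ENNReal.ofReal_le_ofReal ?_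
  have h1 : (l : ℝ) + 1 ≤ n := by exact_mod_cast hn
  have h0 : (0 : ℝ) ≤ l := Nat.cast_nonneg l
  rw [div_le_iff₀ (by linarith)]
  linarith [hl n]

end Vale.Agent.P109N
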