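import Vale.Agent.P109N.Def2
import Vale.Agent.P109N.Meas

namespace Vale.Agent.P109N

open MeasureTheory Matrix Manifold

variable {d : ℕ}

/-- Hamming distance to a word -/
def fanoD (a : Lev) (ω : ℕ → Bool) (u : a.I) : ℕ :=
  ((Finset.range a.L).filter fun s => ω s ≠ a.w u s).card

noncomputable def fanoP (a : Lev) (ω : ℕ → Bool) (u : a.I) : ℝ :=
  (if 4 * fanoD a ω u < a.L then 1 / 2 else 0) + 1 / (4 * a.N)

lemma fano_uniq {a : Lev} (ha : Good a) (ω : ℕ → Bool) {u v : a.I} (hu : 4 * fanoD a ω u < a.L)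
    (hv : 4 * fanoD a ω v < a.L) : u = v := by
  by_contra h
  have h1 := ha.2.2 u v h
  have h2 : ((Finset.range a.L).filter fun s => a.w u s ≠ a.w v s).card
      ≤ fanoD a ω u + fanoD a ω v := by
    refine le_trans (Finset.card_le_card fun s hs => ?_) (Finset.card_union_le _ _)
    simp only [Finset.mem_union, Finset.mem_filter] at hs ⊢
    by_cases h3 : ω s = a.w u s
    · exact Or.inr ⟨hs.1, fun h4 => hs.2 (h3.symm.trans h4)⟩
    · exact Or.inl ⟨hs.1, h3⟩
  omega

lemma fano_pred {a : Lev} (ha : Good a) : Pred a (fanoP a) := by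
  have hN : (0 : ℝ) < a.N := by exact_mod_cast ha.1.1
  refine ⟨fun ω u => ?_, fun ω => ?_, fun ω ω' h => ?_⟩
  · unfold fanoP
    split_ifs <;> positivity
  · unfold fanoP
    rw [Finset.sum_add_distrib, ← Finset.sum_filter, Finset.sum_const, Finset.sum_const,
      Finset.card_univ, Fintype.card_prod, Fintype.card_fin, Fintype.card_bool, nsmul_eq_mul,
      nsmul_eq_mul]
    have h1 : ((Finset.univ.filter fun u => 4 * fanoD a ω u < a.L).card : ℝ) ≤ 1 := by
      exact_mod_cast Finset.card_le_one.2 fun u hu v hv =>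
        fano_uniq ha ω (Finset.mem_filter.1 hu).2 (Finset.mem_filter.1 hv).2
    have h2 : ((a.N * 2 : ℕ) : ℝ) * (1 / (4 * a.N)) = 1 / 2 := by
      push_cast
      field_simp
      norm_num
    rw [h2]
    linarith
  · funext u
    have : fanoD a ω u = fanoD a ω' u := by
      unfold fanoD
      rw [Finset.filter_congr fun s hs => by rw [h s (Finset.mem_range.1 hs)]]
    unfold fanoP
    rw [this]

lemma fano_log {a : Lev} (ha : Good a) (ω : ℕ → Bool) (u : a.I) :
    0 ≤ -Real.log (fanoP a ω u) ∧ -Real.log (fanoP a ω u) ≤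
      Real.log 2 + 4 / a.L * Real.log (4 * a.N) * fanoD a ω u := by
  have hN : (1 : ℝ) ≤ a.N := by exact_mod_cast ha.1.1
  have hL : (0 : ℝ) < a.L := by exact_mod_cast ha.1.2
  have h1 : 0 ≤ Real.log (4 * a.N) := Real.log_nonneg (by linarith)
  have h2 : 0 ≤ Real.log 2 := Real.log_nonneg (by norm_num)
  have h3 : (1 : ℝ) / (4 * a.N) ≤ 1 / 4 := one_div_le_one_div_of_le (by norm_num) (by linarith)
  have h4 : (0 : ℝ) < 1 / (4 * a.N) := by positivity
  refine ⟨neg_nonneg.2 (Real.log_nonpos ((fano_pred ha).pos ω u).le ?_), ?_⟩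
  · unfold fanoP
    split_ifs <;> linarith
  · unfold fanoP
    split_ifs with h
    · have h5 : Real.log (1 / 2) ≤ Real.log (1 / 2 + 1 / (4 * a.N)) :=
        Real.log_le_log (by norm_num) (by linarith)
      rw [one_div (2 : ℝ), Real.log_inv, ← one_div] at h5
      have : 0 ≤ 4 / a.L * Real.log (4 * a.N) * fanoD a ω u := by positivity
      linarith
    · rw [zero_add, one_div, Real.log_inv, neg_neg]
      have h5 : (a.L : ℝ) ≤ 4 * fanoD a ω u := by exact_mod_cast not_lt.1 h
      have h6 : 1 ≤ 4 / (a.L : ℝ) * fanoD a ω u := by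
        rw [div_mul_eq_mul_div, le_div_iff₀ hL]
        linarith
      nlinarith [mul_le_mul_of_nonneg_left h6 h1]

theorem fano (d R : ℕ) {a : Lev} (ha : Good a) {y : ℝ} (hy : 0 ≤ y) :
    ∃ F, Inv d R a F (a.rate / 100 + y * CP d R) y := by
  refine ⟨{fanoP a}, fun p hp => by rw [Finset.mem_singleton.1 hp]; exact fano_pred ha, ?_⟩
  intro Z _ ν S P χ φ A Q F m hm
  refine ⟨_, Finset.mem_singleton_self _, ?_⟩
  have := hm.prob
  have := F.prob
  have hN : (1 : ℝ) ≤ a.N := by exact_mod_cast ha.1.1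
  have hL : (0 : ℝ) < a.L := by exact_mod_cast ha.1.2
  have hB : MeasurableSet {z | P z ≠ Q (χ z)} := (measurableSet_eq_fun F.mP F.mQ).compl
  have hf : ∀ s, Measurable fun p : Z × a.I => S^[s] p.1 := fun s =>
    (F.mp.measurable.iterate s).comp measurable_fst
  obtain ⟨T, hT⟩ : ∃ T : ℕ → Set (Z × a.I),
    T = fun s => (fun p : Z × a.I => S^[s] p.1) ⁻¹' {z | P z ≠ Q (χ z)} := ⟨_, rfl⟩
  have mT : ∀ s, MeasurableSet (T s) := fun s => by rw [hT]; exact hf s hB
  have iT : ∀ s, Integrable ((T s).indicator fun _ => (1 : ℝ)) m := fun s =>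
    (integrable_const _).indicator (mT s)
  have e1 : ∑ s ∈ Finset.range a.L, m.real (T s) ≤ a.L / 1000 := by
    have h1 := congrArg (fun μ : Measure Z => μ {z | P z ≠ Q (χ z)}) hm.avg
    simp only [Measure.finsetSum_apply, Measure.smul_apply, smul_eq_mul] at h1
    have h2 : ∑ s ∈ Finset.range a.L, m (T s) ≤ a.L * ENNReal.ofReal (1 / 1000) := by
      refine le_trans (le_of_eq ?_) (h1.le.trans (mul_le_mul' le_rfl F.err))
      exact Finset.sum_congr rfl fun s _ => by rw [Measure.map_apply (hf s) hB, hT]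
    have h3 := ENNReal.toReal_mono
      (ENNReal.mul_ne_top (ENNReal.natCast_ne_top _) ENNReal.ofReal_ne_top) h2
    rw [ENNReal.toReal_sum fun s _ => measure_ne_top _ _, ENNReal.toReal_mul,
      ENNReal.toReal_natCast, ENNReal.toReal_ofReal (by norm_num)] at h3
    refine le_trans (le_of_eq rfl) (h3.trans (le_of_eq ?_))
    ring
  have iS : Integrable (fun x => ∑ s ∈ Finset.range a.L, (T s).indicator (fun _ => (1 : ℝ)) x) m :=
    integrable_finsetSum _ fun s _ => iT s
  have e2 : cost S (fun z => Q (χ z)) (fanoP a) m ≤ ∫ x, (Real.log 2 +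
      4 / a.L * Real.log (4 * a.N) *
        ∑ s ∈ Finset.range a.L, (T s).indicator (fun _ => (1 : ℝ)) x) ∂m := by
    refine integral_mono_of_nonneg (Filter.Eventually.of_forall fun x => (fano_log ha _ _).1)
      ((integrable_const _).add (iS.const_mul _)) ?_
    filter_upwards [hm.name] with x hx
    refine (fano_log ha _ _).2.trans (le_of_eq ?_)
    congr 2
    unfold fanoD
    rw [Finset.card_filter]
    push_cast
    refine Finset.sum_congr rfl fun s hs => ?_
    rw [← hx s (Finset.mem_range.1 hs)]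
    split_ifs with h
    · rw [Set.indicator_of_mem (by rw [hT]; exact fun h' => h h'.symm)]
    · rw [Set.indicator_of_notMem (by rw [hT]; exact fun h' => h fun h2 => h' h2.symm)]
  rw [integral_add (integrable_const _) (iS.const_mul _), integral_const_mul,
    integral_finsetSum _ fun s _ => iT s] at e2
  simp only [integral_const, probReal_univ, smul_eq_mul, one_mul,
    integral_indicator_const _ (mT _), mul_one] at e2
  have l1 : Real.log (4 * a.N) = Real.log 2 + Real.log (2 * a.N) := by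
    rw [← Real.log_mul (by norm_num) (by positivity)]
    congr 1
    ring
  have l2 : 201 * Real.log 2 ≤ Real.log (2 * a.N) := by
    have h1 : (2 : ℝ) ^ 200 ≤ a.N := by exact_mod_cast ha.2.1
    have h2 := Real.log_le_log (by positivity : (0 : ℝ) < 2 ^ 201)
      (show (2 : ℝ) ^ 201 ≤ 2 * a.N by rw [pow_succ]; linarith)
    rw [Real.log_pow] at h2
    exact_mod_cast h2
  have l3 : 0 ≤ Real.log 2 := Real.log_nonneg (by norm_num)
  have l4 : 0 ≤ Real.log (4 * a.N) := by rw [l1]; linarith
  have e3 := mul_le_mul_of_nonneg_left e1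
    (show 0 ≤ 4 / a.L * Real.log (4 * a.N) by positivity)
  have e4 : 4 / a.L * Real.log (4 * a.N) * (a.L / 1000) = 4 / 1000 * Real.log (4 * a.N) := by
    field_simp
  have e5 : (a.rate / 100 + y * CP d R - y * Lam S χ A m) * a.L
      = Real.log (2 * a.N) / 100 + y * (CP d R - Lam S χ A m) * a.L := by
    unfold Lev.rate
    field_simp
    ring
  have e6 : 0 ≤ y * (CP d R - Lam S χ A m) * a.L :=
    mul_nonneg (mul_nonneg hy (sub_nonneg.2 (F.Lam_bd ha.1 m).2)) hL.le
  rw [e5]
  rw [e4] at e3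
  linarith

end Vale.Agent.P109N
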