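import Vale.Agent.P109N.Def2

namespace Vale.Agent.P109N

open MeasureTheory Matrix Manifold

variable {d : ℕ}

lemma mk_flip (a : Lev) (β : Bool) (x v : a.I) : a.flip β x = v ↔ x = a.flip β v := by
  obtain ⟨x1, x2⟩ := x
  obtain ⟨v1, v2⟩ := v
  cases β <;> cases x2 <;> cases v2 <;> simp [Lev.flip]

theorem exists_lev (a : Lev) (ha : a.Ok) {k' : ℕ} (hk : 0 < k') (W : Finset (ℕ → a.I))
    (hW : W.Nonempty) (h : ∀ x ∈ W, (x 0).2 = false ∧ (∀ i, k' * (2 * a.N) ≤ i → x i = x 0) ∧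
      ∀ v, ((Finset.range (k' * (2 * a.N))).filter fun i => x i = v).card = k') :
    ∃ (b : Lev) (e : Fin b.N ≃ W), b.N = W.card ∧
      Step a b (k' * (2 * a.N)) (fun u i => a.flip u.2 ((e u.1).1 i)) ∧
      ∀ u v : b.I, (∀ i < k' * (2 * a.N), a.flip u.2 ((e u.1).1 i) = a.flip v.2 ((e v.1).1 i)) →
        u = v := by
  have h2 : 2 ≤ k' * (2 * a.N) := by
    have := ha.1
    nlinarith
  refine ⟨⟨W.card, k' * (2 * a.N) * a.L,
    fun j t => a.w ((W.equivFin.symm j).1 (t / a.L)) (t % a.L)⟩, W.equivFin.symm, rfl,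
    ⟨ha, ⟨hW.card_pos, Nat.mul_pos (by omega) ha.2⟩, h2, rfl, fun u i _ s hs => ?_,
      fun u v => ?_⟩, fun u v huv => ?_⟩
  · have e1 : (i * a.L + s) / a.L = i := by
      rw [add_comm, Nat.add_mul_div_right _ _ ha.2, Nat.div_eq_of_lt hs, zero_add]
    have e2 : (i * a.L + s) % a.L = s := by
      rw [add_comm, Nat.add_mul_mod_self_right, Nat.mod_eq_of_lt hs]
    simp only [Lev.w, Lev.flip, e1, e2, Bool.xor_assoc]
  · simp only [mk_flip]
    rw [(h _ (W.equivFin.symm u.1).2).2.2]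
  · have hu := h _ (W.equivFin.symm u.1).2
    have hv := h _ (W.equivFin.symm v.1).2
    have e2 : u.2 = v.2 := by
      have := congrArg Prod.snd (huv 0 (by omega))
      simpa only [Lev.flip, hu.1, hv.1, Bool.false_xor] using this
    have e3 : ∀ i < k' * (2 * a.N), (W.equivFin.symm u.1).1 i = (W.equivFin.symm v.1).1 i :=
      fun i hi => by
        have := huv i hi
        rw [e2, mk_flip] at this
        exact this.trans (((mk_flip a _ _ _).1 rfl).symm)
    have e1 : W.equivFin.symm u.1 = W.equivFin.symm v.1 := by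
      refine Subtype.ext (funext fun i => ?_)
      rcases lt_or_ge i (k' * (2 * a.N)) with hi | hi
      · exact e3 i hi
      · rw [hu.2.1 i hi, hv.2.1 i hi, e3 0 (by omega)]
    exact Prod.ext (W.equivFin.symm.injective e1) e2

lemma mk_sum (f : ℕ → ℕ) (m k : ℕ) :
    ∑ i ∈ Finset.range (m * k), f i = ∑ j ∈ Finset.range m, ∑ i ∈ Finset.range k, f (j * k + i) := by
  induction m with
  | zero => simp
  | succ m ih => rw [Nat.succ_mul, Finset.sum_range_add, ih, Finset.sum_range_succ]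

theorem St.trans {a b c : Lev} (h : St a b) (h' : St b c) : St a c := by
  obtain ⟨k, ψ, h⟩ := h
  obtain ⟨k', ψ', h'⟩ := h'
  have hk := h.two
  have hk' := h'.two
  refine ⟨k' * k, fun u i => ψ (ψ' u (i / k)) (i % k), h.ok, h'.ok', by nlinarith,
    by rw [h'.len, h.len, mul_assoc], fun u i hi s hs => ?_, fun u v => ?_⟩
  · have h1 : i % k < k := Nat.mod_lt _ (by omega)
    have h2 : i / k < k' := Nat.div_lt_of_lt_mul (by rwa [mul_comm])
    have h3 : i % k * a.L + s < b.L := by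
      rw [h.len]
      nlinarith
    have h4 : i * a.L + s = i / k * b.L + (i % k * a.L + s) := by
      rw [h.len, ← mul_assoc, ← add_assoc, ← add_mul, Nat.div_add_mod']
    rw [h4, h'.cat u _ h2 _ h3, h.cat _ _ h1 _ hs]
  · rw [Finset.card_filter, mk_sum, Finset.sum_mul]
    rw [Finset.sum_congr rfl (g := fun _ => k) fun j _ => ?_]
    · simp
    · refine Eq.trans ?_ (h.bal (ψ' u j) v)
      rw [Finset.card_filter]
      refine congrArg (· * (2 * a.N)) (Finset.sum_congr rfl fun i hi => ?_)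
      have hi' : i < k := Finset.mem_range.1 hi
      have e1 : (j * k + i) / k = j := by
        rw [add_comm, Nat.add_mul_div_right _ _ (by omega), Nat.div_eq_of_lt hi', zero_add]
      have e2 : (j * k + i) % k = i := by
        rw [add_comm, Nat.add_mul_mod_self_right, Nat.mod_eq_of_lt hi']
      simp only [e1, e2]

theorem St.len {a b : Lev} (h : St a b) : a.Ok ∧ b.Ok ∧ 2 * a.L ≤ b.L := by
  obtain ⟨k, ψ, h⟩ := h
  exact ⟨h.ok, h.ok', h.len ▸ Nat.mul_le_mul_right _ h.two⟩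

theorem pp_sum {a : Lev} {p : (ℕ → Bool) → a.I → ℝ} (hp : Pred a p) (k : ℕ) (ω : ℕ → Bool)
    {J : Type} [Fintype J] (ψ : J → ℕ → a.I) (hψ : ∀ u v, (∀ i < k, ψ u i = ψ v i) → u = v) :
    ∑ u, pp p k ω (ψ u) ≤ 1 := by
  classical
  let g : J ↪ (Fin k → a.I) := ⟨fun u i => ψ u i, fun u v huv =>
    hψ u v fun i hi => congrFun huv ⟨i, hi⟩⟩
  let F : (Fin k → a.I) → ℝ := fun x => ∏ i : Fin k, p (fun s => ω (i * a.L + s)) (x i)
  calc ∑ u, pp p k ω (ψ u) = ∑ x ∈ Finset.univ.map g, F x := by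
        rw [Finset.sum_map]
        exact Finset.sum_congr rfl fun u _ =>
          Finset.prod_range fun i => p (fun s => ω (i * a.L + s)) (ψ u i)
    _ ≤ ∑ x, F x := Finset.sum_le_sum_of_subset_of_nonneg (Finset.subset_univ _) fun x _ _ =>
        Finset.prod_nonneg fun i _ => (hp.pos _ _).le
    _ = ∏ i : Fin k, ∑ v, p (fun s => ω (i * a.L + s)) v := by
        rw [Finset.prod_univ_sum, Fintype.piFinset_univ]
    _ ≤ 1 := Finset.prod_le_one (fun i _ => Finset.sum_nonneg fun v _ => (hp.pos _ _).le)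
        fun i _ => hp.sum _

end Vale.Agent.P109N
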