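import Vale.Agent.P109N.Def2
import Vale.Agent.P109N.Down
import Vale.Agent.P109N.Mk

namespace Vale.Agent.P109N

open MeasureTheory Matrix Manifold

variable {d : ℕ}

theorem gain_del {A : ℕ → Mx d} (h : ∀ t, (A t).det ≠ 0) (l k : ℕ) : 0 ≤ Del A l (k + 1) := by
  rw [Del, sub_nonneg]
  induction k with
  | zero => simp
  | succ k ih =>
    rw [Finset.sum_range_succ, Nat.succ_mul (k + 1), pr_add, zero_add]
    linarith [Psi_mul (B := pr A ((k + 1) * l) l) (pr_det h 0 ((k + 1) * l))]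

open Classical in
noncomputable def gainP {a b : Lev} (k : ℕ) (ψ : b.I → ℕ → a.I) (p : (ℕ → Bool) → a.I → ℝ)
    (T : Finset b.I) (ω : ℕ → Bool) (u : b.I) : ℝ :=
  pp p k ω (ψ u) / 2 + if u ∈ T then pp p k ω (ψ u) / (2 * ∑ v ∈ T, pp p k ω (ψ v)) else 0

theorem gain_pos {a : Lev} {p : (ℕ → Bool) → a.I → ℝ} (hp : Pred a p) (k : ℕ) (ω : ℕ → Bool)
    (x : ℕ → a.I) : 0 < pp p k ω x := Finset.prod_pos fun _ _ => hp.pos _ _

theorem gain_loc {a : Lev} {p : (ℕ → Bool) → a.I → ℝ} (hp : Pred a p) {k : ℕ} {ω ω' : ℕ → Bool}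
    (h : ∀ s < k * a.L, ω s = ω' s) : pp p k ω = pp p k ω' := by
  funext x
  refine Finset.prod_congr rfl fun i hi => ?_
  rw [hp.loc _ (fun s => ω' (i * a.L + s)) fun s hs => h _ ?_]
  have := Nat.mul_le_mul_right a.L (Nat.succ_le_of_lt (Finset.mem_range.1 hi))
  rw [Nat.succ_mul] at this
  omega

theorem gain_pred {a b : Lev} {k : ℕ} {ψ : b.I → ℕ → a.I} (h : Step a b k ψ)
    (hψ : ∀ u v, (∀ i < k, ψ u i = ψ v i) → u = v) {p : (ℕ → Bool) → a.I → ℝ} (hp : Pred a p)
    (T : Finset b.I) : Pred b (gainP k ψ p T) := by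
  have z0 : ∀ ω, 0 ≤ ∑ v ∈ T, pp p k ω (ψ v) := fun ω =>
    Finset.sum_nonneg fun v _ => (gain_pos hp k ω _).le
  refine ⟨fun ω u => ?_, fun ω => ?_, fun ω ω' e => ?_⟩
  · have a1 := gain_pos hp k ω (ψ u)
    have a2 := z0 ω
    unfold gainP
    split_ifs <;> positivity
  · have a1 := pp_sum hp k ω ψ hψ
    simp only [gainP, Finset.sum_add_distrib, Finset.sum_ite_mem, Finset.univ_inter,
      ← Finset.sum_div]
    have a2 : (∑ v ∈ T, pp p k ω (ψ v)) / (2 * ∑ v ∈ T, pp p k ω (ψ v)) ≤ 1 / 2 := by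
      rcases (z0 ω).eq_or_lt with e | e
      · rw [← e]; norm_num
      · rw [div_le_iff₀ (by positivity)]; linarith
    linarith
  · rw [h.len] at e
    funext u
    simp only [gainP, gain_loc hp e]

theorem gain_pt {P Z H D δ i1 i2 i3 r : ℝ} {t g : Prop} [Decidable t] (hP : 0 < P) (hH : 0 ≤ H)
    (hD : 0 < D) (hδ : 0 ≤ δ) (hZ : 0 ≤ Z) (hZ' : t → P ≤ Z) (h1 : 0 ≤ i1) (h2 : 0 ≤ i2)
    (h3 : 0 ≤ i3) (k1 : ¬t → i1 = 1) (k2 : ¬g → δ ≤ D → i2 = 1) (k3 : g → Z ≤ i3)
    (hr : r = P / 2 + if t then P / (2 * Z) else 0) :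
    -Real.log r ≤ Real.log 2 - H + -Real.log P + H * i1 + H / D * δ + H * i2 +
      H * Real.exp H * i3 := by
  have e0 := Real.exp_pos H
  have b1 : 0 ≤ H * i1 := by positivity
  have b2 : 0 ≤ H / D * δ := by positivity
  have b3 : 0 ≤ H * i2 := by positivity
  have b4 : 0 ≤ H * Real.exp H * i3 := by positivity
  have c0 : P / 2 ≤ r := by rw [hr]; split_ifs <;> [exact le_add_of_nonneg_right (by positivity); simp]
  have c1 := Real.log_le_log (by positivity) c0
  rw [Real.log_div hP.ne' two_ne_zero] at c1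
  by_cases ht : t
  · by_cases hz : Z * Real.exp H ≤ 1
    · have z0 : 0 < Z := hP.trans_le (hZ' ht)
      have c2 : P * Real.exp H / 2 ≤ r := by
        rw [hr, if_pos ht]
        have : P * Real.exp H / 2 ≤ P / (2 * Z) := by
          rw [div_le_div_iff₀ (by norm_num) (by positivity)]
          nlinarith
        linarith
      have c3 := Real.log_le_log (by positivity) c2
      rw [Real.log_div (by positivity) two_ne_zero, Real.log_mul hP.ne' e0.ne', Real.log_exp] at c3
      linarith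
    · push Not at hz
      by_cases hg : g
      · have := mul_le_mul_of_nonneg_right (k3 hg) e0.le
        nlinarith
      · by_cases hd : δ ≤ D
        · rw [k2 hg hd] at b3 ⊢
          linarith
        · have : H ≤ H / D * δ := by
            rw [div_mul_eq_mul_div, le_div_iff₀ hD]
            exact mul_le_mul_of_nonneg_left (not_le.1 hd).le hH
          linarith
  · rw [k1 ht] at b1 ⊢
    linarith

theorem gain_ind {Z : Type} [MeasurableSpace Z] {ν : Measure Z} {S : Z → Z} {P : Z → Bool}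
    {b : Lev} {m : Measure (Z × b.I)} (h : Joint ν S P b m) (hb : b.Ok) {s : Set Z}
    (hs : MeasurableSet s) {c : ℝ} (hc : 0 ≤ c) (h1 : ν s ≤ ENNReal.ofReal c) :
    ∫ x, (Prod.fst ⁻¹' s).indicator (1 : Z × b.I → ℝ) x ∂m ≤ b.L * c := by
  rw [integral_indicator_one (measurable_fst hs)]
  refine ENNReal.toReal_le_of_le_ofReal (by positivity) ((h.fst_le hb s).trans ?_)
  rw [ENNReal.ofReal_mul (Nat.cast_nonneg _), ENNReal.ofReal_natCast]
  exact mul_le_mul_right h1 _

theorem gain {d R : ℕ} {a b : Lev} {k : ℕ} {ψ : b.I → ℕ → a.I} (h : Step a b k ψ)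
    (hψ : ∀ u v, (∀ i < k, ψ u i = ψ v i) → u = v) {F : Finset ((ℕ → Bool) → a.I → ℝ)}
    {x D γ β η : ℝ} (hD : 0 < D) (hη : 0 < η) (hβ : 0 ≤ β) (hI : Inv d R a F x (η / D * b.L))
    {𝓝 : Finset ((Fin (k * a.L) → Bool) → ℝ)} (hN : DomBy d R a.L k D γ 𝓝)
    (hc : ∀ p ∈ F, ∀ w ∈ 𝓝, ∃ T : Finset b.I, 8 * Tᶜ.card ≤ 2 * b.N ∧
      ∑ u ∈ T, ∑ ω, w ω * pp p k (ext ω) (ψ u) ≤ β) :
    ∃ F', Inv d R b F' (x + Real.log 2 / b.L -
      η * (7 / 8 - 1 / b.L - b.L * Real.exp γ * β * Real.exp (η * b.L))) (η / D * b.L) := by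
  classical
  choose! T hT1 hT2 using hc
  refine ⟨(F ×ˢ 𝓝).image fun c => gainP k ψ c.1 (T c.1 c.2), fun p' hp' => ?_,
    fun Z _ ν S P χ φ A Q hF m hm => ?_⟩
  · obtain ⟨c, hc, rfl⟩ := Finset.mem_image.1 hp'
    exact gain_pred h hψ (hI.1 _ (Finset.mem_product.1 hc).1) _
  have hS := hF.mp.measurable
  haveI := hm.prob
  have k0 : 0 < k := by have := h.two; omega
  obtain ⟨p, hp, hcost⟩ := hI.2 Z ν S P χ φ A Q hF _ (hm.down hS hF.mP h)
  obtain ⟨w, hw, G, hG, g1, g2⟩ := hN.2 Z ν S P χ φ A Q hF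
  have pr1 := hI.1 p hp
  have t1 := hT1 p hp w hw
  have t2 := hT2 p hp w hw
  refine ⟨_, Finset.mem_image.2 ⟨(p, w), Finset.mem_product.2 ⟨hp, hw⟩, rfl⟩, ?_⟩
  dsimp only
  generalize T p w = T at t1 t2
  have pr2 := gain_pred h hψ pr1 T
  have L0 : (0 : ℝ) < b.L := by exact_mod_cast h.ok'.2
  have l0 : (0 : ℝ) < a.L := by exact_mod_cast h.ok.2
  have N0 : (0 : ℝ) < b.N := by exact_mod_cast h.ok'.1
  have eL : (b.L : ℝ) = k * a.L := by rw [h.len, Nat.cast_mul]
  rw [← h.len] at g1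
  obtain ⟨H, hH⟩ : ∃ H, H = η * b.L := ⟨_, rfl⟩
  have H0 : 0 ≤ H := by rw [hH]; positivity
  have cd : ∀ z t, (co S χ A z t).det ≠ 0 := fun z t => hF.Adet _
  have cb : ∀ z t n, |Psi (pr (co S χ A z) t n)| ≤ (max n 1 : ℕ) * CP d R := fun z t n => by
    rw [abs_of_nonneg (Psi_nonneg _)]
    exact Psi_pr_le (cd z) (fun _ => hF.Abd _) t n
  obtain ⟨f1, C, f2⟩ := meas_loc hS hF.mQ (L := a.L) (fun ω u => -Real.log (p ω u))
    fun ω ω' e => by simp only [pr1.loc ω ω' e]
  have mi : ∀ i, Measurable fun x : Z × b.I => (S^[i * a.L] x.1, ψ x.2 i) := fun i =>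
    ((hS.iterate _).comp measurable_fst).prodMk
      ((measurable_of_finite fun u => ψ u i).comp measurable_snd)
  have i2 : Integrable (fun x : Z × b.I => ∑ i ∈ Finset.range k,
      -Real.log (p (nm S (fun z => Q (χ z)) (S^[i * a.L] x.1)) (ψ x.2 i))) m :=
    integrable_finset_sum _ fun i _ => Integrable.of_bound (f1.comp (mi i)).aestronglyMeasurable C
      (Filter.Eventually.of_forall fun x => f2 _ _)
  have j2 := integral_down hS k0 ψ m f1 (C := C) fun x => f2 _ _
  have ip : ∀ t n, Integrable (fun x : Z × b.I => Psi (pr (co S χ A x.1) t n)) m := fun t n =>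
    Integrable.of_bound ((hF.meas_Psi t n).comp measurable_fst).aestronglyMeasurable _
      (Filter.Eventually.of_forall fun x => cb _ _ _)
  have i4 : Integrable (fun x : Z × b.I => Del (co S χ A x.1) a.L k) m :=
    (integrable_finset_sum _ fun i _ => ip _ _).sub (ip _ _)
  have j4 : ∫ x, Del (co S χ A x.1) a.L k ∂m =
      b.L * (Lam S χ A (down S k ψ m) - Lam S χ A m) := by
    have e := integral_down hS k0 ψ m (f := fun x : Z × a.I => Psi (pr (co S χ A x.1) 0 a.L))
      ((hF.meas_Psi 0 a.L).comp measurable_fst) fun x => cb _ _ _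
    simp only [← pr_co] at e
    unfold Del
    rw [integral_sub (integrable_finset_sum _ fun i _ => ip _ _) (ip _ _), e, ← h.len, Lam, Lam,
      mul_sub, mul_div_cancel₀ _ L0.ne', eL]
    field_simp
  have m3 : MeasurableSet (Prod.snd ⁻¹' (Tᶜ : Finset b.I) : Set (Z × b.I)) :=
    measurable_snd (Finset.measurableSet _)
  have j3 : ∫ x, (Prod.snd ⁻¹' (Tᶜ : Finset b.I) : Set (Z × b.I)).indicator
      (1 : Z × b.I → ℝ) x ∂m ≤ 1 / 8 := by
    rw [integral_indicator_one m3]
    have e : (Prod.snd ⁻¹' (Tᶜ : Finset b.I) : Set (Z × b.I)) = ⋃ u ∈ Tᶜ, {x | x.2 = u} := by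
      ext x
      simp
    rw [e]
    refine (measureReal_biUnion_finset_le _ _).trans ?_
    simp only [Measure.real, hm.unif, Finset.sum_const, nsmul_eq_mul, ENNReal.toReal_inv,
      ENNReal.toReal_mul, ENNReal.toReal_ofNat, ENNReal.toReal_natCast]
    have : (8 : ℝ) * Tᶜ.card ≤ 2 * b.N := by exact_mod_cast t1
    rw [← div_eq_mul_inv, div_le_iff₀ (by positivity)]
    linarith
  have m5 : MeasurableSet (Gᶜ ∩ {z | Del (co S χ A z) a.L k ≤ D}) :=
    hG.compl.inter (measurableSet_le ((Finset.measurable_sum _ fun i _ =>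
      hF.meas_Psi _ _).sub (hF.meas_Psi _ _)) measurable_const)
  have j5 := gain_ind hm h.ok' m5 (by positivity) g1
  have m6 : ∀ ω : Fin (k * a.L) → Bool,
      MeasurableSet (G ∩ {z | ∀ t : Fin (k * a.L), Q (χ (S^[t] z)) = ω t}) := fun ω => by
    refine hG.inter ?_
    rw [Set.setOf_forall]
    exact MeasurableSet.iInter fun t => (hF.mQ.comp (hS.iterate _)) (measurableSet_singleton _)
  have z0 : ∀ ω, 0 ≤ ∑ v ∈ T, pp p k ω (ψ v) := fun ω =>
    Finset.sum_nonneg fun v _ => (gain_pos pr1 k ω _).le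
  have ii : ∀ s : Set (Z × b.I), MeasurableSet s →
      Integrable (fun x => s.indicator (1 : Z × b.I → ℝ) x) m := fun s hs =>
    (integrable_const 1).indicator hs
  have i6 : ∀ ω : Fin (k * a.L) → Bool, Integrable (fun x : Z × b.I =>
      (∑ v ∈ T, pp p k (ext ω) (ψ v)) * (Prod.fst ⁻¹' (G ∩ {z | ∀ t : Fin (k * a.L),
        Q (χ (S^[t] z)) = ω t})).indicator (1 : Z × b.I → ℝ) x) m := fun ω =>
    (ii _ (measurable_fst (m6 ω))).const_mul _
  have j6 : ∫ x, ∑ ω : Fin (k * a.L) → Bool, (∑ v ∈ T, pp p k (ext ω) (ψ v)) *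
      (Prod.fst ⁻¹' (G ∩ {z | ∀ t : Fin (k * a.L), Q (χ (S^[t] z)) = ω t})).indicator
        (1 : Z × b.I → ℝ) x ∂m ≤ b.L * Real.exp γ * β := by
    rw [integral_finset_sum _ fun ω _ => i6 ω]
    refine (Finset.sum_le_sum fun ω _ => ?_ : _ ≤ ∑ ω : Fin (k * a.L) → Bool, b.L * Real.exp γ *
      ∑ v ∈ T, w ω * pp p k (ext ω) (ψ v)).trans ?_
    · rw [integral_const_mul]
      refine (mul_le_mul_of_nonneg_left (gain_ind hm h.ok' (m6 ω)
        (mul_nonneg (Real.exp_pos _).le ((hN.1 w hw).1 ω)) (g2 ω)) (z0 _)).trans (le_of_eq ?_)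
      rw [← Finset.mul_sum]
      ring
    · rw [← Finset.mul_sum, Finset.sum_comm]
      exact mul_le_mul_of_nonneg_left t2 (by positivity)
  have i7 := integrable_finset_sum Finset.univ fun ω _ => i6 ω
  have a1 := (integrable_const (μ := m) (Real.log 2 - H)).add i2
  have a2 := a1.add ((ii _ m3).const_mul H)
  have a3 := a2.add (i4.const_mul (H / D))
  have a4 := a3.add ((ii _ (measurable_fst m5)).const_mul H)
  have a5 := a4.add (i7.const_mul (H * Real.exp H))
  refine (integral_mono_of_nonneg (Filter.Eventually.of_forall fun y => ?_) a5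
    (Filter.Eventually.of_forall fun y => ?_)).trans ?_
  · exact neg_nonneg.2 (Real.log_nonpos (pr2.pos _ _).le ((Finset.single_le_sum
      (fun u _ => (pr2.pos _ u).le) (Finset.mem_univ y.2)).trans (pr2.sum _)))
  · have e : ∑ i ∈ Finset.range k, -Real.log (p (nm S (fun z => Q (χ z)) (S^[i * a.L] y.1))
        (ψ y.2 i)) = -Real.log (pp p k (nm S (fun z => Q (χ z)) y.1) (ψ y.2)) := by
      rw [pp, Real.log_prod fun i _ => (pr1.pos _ _).ne', Finset.sum_neg_distrib]
      congr 2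
      funext i
      congr 2
      funext s
      simp only [nm]
      rw [add_comm, Function.iterate_add_apply]
    simp only [Pi.add_apply, e]
    have hδ := gain_del (cd y.1) a.L (k - 1)
    rw [Nat.sub_add_cancel k0] at hδ
    have n0 : ∀ s : Set (Z × b.I), 0 ≤ s.indicator (1 : Z × b.I → ℝ) y := fun s =>
      Set.indicator_nonneg (fun _ _ => zero_le_one) y
    refine gain_pt (t := y.2 ∈ T) (g := y.1 ∈ G) (gain_pos pr1 _ _ _) H0 hD hδ
      (z0 _) (fun ht => Finset.single_le_sum (f := fun v => pp p k _ (ψ v))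
        (fun v _ => (gain_pos pr1 _ _ _).le) ht) (n0 _) (n0 _)
      (Finset.sum_nonneg fun ω _ => mul_nonneg (z0 _) (n0 _))
      (fun ht => Set.indicator_of_mem (by simpa using ht) _)
      (fun h1 h2 => Set.indicator_of_mem (Set.mem_preimage.2 (Set.mem_inter h1 h2)) _) (fun hg => ?_)
      (by simp only [gainP])
    refine le_trans (le_of_eq ?_) (Finset.single_le_sum (fun ω _ => mul_nonneg (z0 _) (n0 _))
      (Finset.mem_univ fun t : Fin (k * a.L) => Q (χ (S^[t] y.1))))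
    rw [Set.indicator_of_mem (by exact ⟨hg, fun _ => rfl⟩), Pi.one_apply, mul_one,
      gain_loc pr1 (ω' := ext fun t : Fin (k * a.L) => Q (χ (S^[t] y.1)))
        fun s hs => by simp [ext, hs, nm]]
  · rw [integral_add' a4 (i7.const_mul _), integral_add' a3 ((ii _ (measurable_fst m5)).const_mul _),
      integral_add' a2 (i4.const_mul _), integral_add' a1 ((ii _ m3).const_mul _),
      integral_add' (integrable_const _) i2, integral_const_mul, integral_const_mul,
      integral_const_mul, integral_const_mul, j4, j2, integral_const]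
    have b1 := mul_le_mul_of_nonneg_left hcost (Nat.cast_nonneg k : (0 : ℝ) ≤ k)
    have b3 := mul_le_mul_of_nonneg_left j3 H0
    have b5 := mul_le_mul_of_nonneg_left j5 H0
    have b6 := mul_le_mul_of_nonneg_left j6 (mul_nonneg H0 (Real.exp_pos H).le)
    unfold cost at b1
    rw [← hH]
    have e1 : k * ((x - η / D * b.L * Lam S χ A (down S k ψ m)) * a.L) =
        x * b.L - H / D * (b.L * Lam S χ A (down S k ψ m)) := by rw [hH, eL]; ring
    have e2 : (x + Real.log 2 / b.L - η * (7 / 8 - 1 / b.L - b.L * Real.exp γ * β * Real.exp H) -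
        η / D * b.L * Lam S χ A m) * b.L = x * b.L + Real.log 2 - H * (7 / 8) +
        H * (b.L * (1 / b.L ^ 2)) + H * Real.exp H * (b.L * Real.exp γ * β) -
        H / D * (b.L * Lam S χ A m) := by
      generalize Real.exp H = e
      rw [hH]
      field_simp
      ring
    rw [e1] at b1
    rw [e2]
    simp only [probReal_univ, smul_eq_mul, one_mul]
    linarith

end Vale.Agent.P109N
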