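import Vale.Agent.P109N.Def2

namespace Vale.Agent.P109N

open MeasureTheory Matrix Manifold

variable {d : ℕ}

theorem Perm_fam {I : Type} [Fintype I] [DecidableEq I] {n k : ℕ} (hn : 0 < n) (hk : 0 < k)
    (hc : Fintype.card I = n) : ∃ O : Finset (ℕ → I), O.card = n.factorial ^ k ∧
      ∀ x ∈ O, (∀ i, k * n ≤ i → x i = x 0) ∧
        ∀ v, ((Finset.range (k * n)).filter fun i => x i = v).card = k := by
  classical
  have h0 : 0 < k * n := Nat.mul_pos hk hn
  let e : Fin k × Fin n ≃ Fin (k * n) := finProdFinEquiv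
  let g : (Fin k → (Fin n ≃ I)) → Fin (k * n) → I := fun σ t => σ (e.symm t).1 (e.symm t).2
  let X : (Fin k → (Fin n ≃ I)) → ℕ → I := fun σ i =>
    if h : i < k * n then g σ ⟨i, h⟩ else g σ ⟨0, h0⟩
  have hX : ∀ σ (t : Fin (k * n)), X σ t = g σ t := fun σ t => dif_pos t.2
  have hg : ∀ σ (p : Fin k × Fin n), g σ (e p) = σ p.1 p.2 := fun σ p => by
    simp only [g, Equiv.symm_apply_apply]
  have hinj : Function.Injective X := by
    intro σ σ' h
    funext j
    ext b
    have := congrFun h (e (j, b))
    rwa [hX, hX, hg, hg] at this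
  refine ⟨Finset.univ.image X, ?_, ?_⟩
  · rw [Finset.card_image_of_injective _ hinj, Finset.card_univ, Fintype.card_fun,
      Fintype.card_equiv (Fintype.equivFinOfCardEq hc).symm, Fintype.card_fin, Fintype.card_fin]
  · intro x hx
    obtain ⟨σ, -, rfl⟩ := Finset.mem_image.1 hx
    refine ⟨fun i hi => ?_, fun v => ?_⟩
    · simp only [X, dif_neg (not_lt.2 hi), dif_pos h0]
    · rw [Finset.card_filter, Finset.sum_range, ← e.sum_comp, Fintype.sum_prod_type]
      simp only [hX, hg]
      have : ∀ j, ∑ b, (if σ j b = v then 1 else 0) = 1 := fun j => by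
        rw [(σ j).sum_comp fun u => if u = v then 1 else 0]
        simp
      simp [this]

theorem exists_perm (a : Lev) (ha : a.Ok) {k' : ℕ} (hk : 0 < k') :
    ∃ O : Finset (ℕ → a.I), (∀ x ∈ O, (x 0).2 = false ∧ (∀ i, k' * (2 * a.N) ≤ i → x i = x 0) ∧
      ∀ v, ((Finset.range (k' * (2 * a.N))).filter fun i => x i = v).card = k') ∧
      Real.exp ((k' * (2 * a.N) : ℕ) * (Real.log (2 * a.N) - 1)) ≤ 2 * O.card := by
  classical
  have hn : 0 < 2 * a.N := Nat.mul_pos two_pos ha.1
  obtain ⟨O, hO, hP⟩ := Perm_fam (I := a.I) hn hk (by simp [mul_comm])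
  have hff : ∀ u, a.flip true (a.flip true u) = u := fun u => by simp [Lev.flip]
  have hinj : Function.Injective fun x : ℕ → a.I => fun i => a.flip true (x i) := by
    intro x y h
    funext i
    have := congrArg (a.flip true) (congrFun h i)
    rwa [hff, hff] at this
  refine ⟨(O.filter fun x => (x 0).2 = false) ∪
    (O.filter fun x => ¬ (x 0).2 = false).image fun x i => a.flip true (x i), fun x hx => ?_, ?_⟩
  · rcases Finset.mem_union.1 hx with h | h
    · exact ⟨(Finset.mem_filter.1 h).2, hP x (Finset.mem_filter.1 h).1⟩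
    · obtain ⟨y, hy, rfl⟩ := Finset.mem_image.1 h
      obtain ⟨h1, h2⟩ := Finset.mem_filter.1 hy
      refine ⟨by simpa [Lev.flip] using h2, fun i hi => congrArg (a.flip true) ((hP y h1).1 i hi),
        fun v => ?_⟩
      refine Eq.trans ?_ ((hP y h1).2 (a.flip true v))
      refine congrArg Finset.card (Finset.filter_congr fun i _ => ⟨fun h => ?_, fun h => ?_⟩)
      · rw [← h, hff]
      · exact (congrArg (a.flip true) h).trans (hff v)
  · have h1 := Finset.card_filter_add_card_filter_not (s := O) fun x => (x 0).2 = false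
    have h2 := Finset.card_le_card (Finset.subset_union_left
      (s₁ := O.filter fun x => (x 0).2 = false)
      (s₂ := (O.filter fun x => ¬ (x 0).2 = false).image fun x i => a.flip true (x i)))
    have h3 := Finset.card_le_card (Finset.subset_union_right
      (s₁ := O.filter fun x => (x 0).2 = false)
      (s₂ := (O.filter fun x => ¬ (x 0).2 = false).image fun x i => a.flip true (x i)))
    rw [Finset.card_image_of_injective _ hinj] at h3
    refine le_trans (b := (O.card : ℝ)) ?_ (by exact_mod_cast (by omega))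
    have hn' : (0 : ℝ) < ((2 * a.N : ℕ) : ℝ) := by exact_mod_cast hn
    have h4 : Real.exp (((2 * a.N : ℕ) : ℝ) * (Real.log (2 * a.N) - 1)) ≤
        ((2 * a.N).factorial : ℝ) := by
      have h5 := Real.pow_div_factorial_le_exp _ hn'.le (2 * a.N)
      rw [div_le_iff₀ (by exact_mod_cast Nat.factorial_pos _)] at h5
      rw [show (2 * a.N : ℝ) = ((2 * a.N : ℕ) : ℝ) by push_cast; ring, mul_sub, mul_one,
        Real.exp_sub, Real.exp_nat_mul, Real.exp_log hn', div_le_iff₀' (Real.exp_pos _)]
      exact h5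
    rw [hO, Nat.cast_mul k', mul_assoc, Real.exp_nat_mul, Nat.cast_pow]
    exact pow_le_pow_left₀ (Real.exp_pos _).le h4 _

end Vale.Agent.P109N
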