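import Vale.Agent.P109N.Def2
import Vale.Agent.P109N.Code
import Vale.Agent.P109N.Perm
import Vale.Agent.P109N.Mk

namespace Vale.Agent.P109N

open MeasureTheory Matrix Manifold

variable {d : ℕ}

theorem light_y {c g ρ L Fc : ℝ} (hc : 0 < c) (hg : 0 < g) (hρ : 3 / 5 * c ≤ ρ) (hL0 : 0 ≤ L)
    (h2 : 20 * (40 * g / c + Fc + 100) / c ≤ L) (hF : 0 ≤ Fc) :
    L * (2 * g) + (Fc + Real.exp (c * L / 2)) < Real.exp (L * ρ) / 32 := by
  obtain ⟨t, ht⟩ : ∃ t, t = c * L / 20 := ⟨_, rfl⟩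
  have hA : 40 * g / c + Fc + 100 ≤ t := by rw [div_le_iff₀ hc] at h2; linarith
  have hLg : L * (2 * g) = 40 * g / c * t := by rw [ht]; field_simp; ring
  obtain ⟨q, hq⟩ : ∃ q, q = 40 * g / c := ⟨_, rfl⟩
  have hq0 : 0 ≤ q := by rw [hq]; positivity
  rw [← hq] at hA hLg
  obtain ⟨y, hy⟩ : ∃ y, y = Real.exp (c * L / 10) := ⟨_, rfl⟩
  have ht1 : 1 ≤ t := by linarith
  have hyt : t * t ≤ y := by
    have e : y = Real.exp t * Real.exp t := by rw [hy, ← Real.exp_add, ht]; ring_nf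
    have : t ≤ Real.exp t := by linarith [Real.add_one_le_exp t]
    rw [e]; exact mul_self_le_mul_self (by linarith) this
  have b1 := mul_le_mul_of_nonneg_right hA (by linarith : 0 ≤ t)
  have b2 := mul_le_mul_of_nonneg_left ht1 (by linarith : 0 ≤ Fc + 100)
  have b3 : 0 ≤ q * t := mul_nonneg hq0 (by linarith)
  have hy1 : q * t + Fc + 100 ≤ y := by linarith
  have y5 : Real.exp (c * L / 2) = y ^ 5 := by
    rw [hy, ← Real.exp_nat_mul]; congr 1; push_cast; ring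
  have y6 : y ^ 6 ≤ Real.exp (L * ρ) := by
    rw [hy, ← Real.exp_nat_mul]
    refine Real.exp_le_exp.2 ?_
    have := mul_le_mul_of_nonneg_left hρ hL0
    push_cast
    linarith
  have hy100 : 100 ≤ y := by linarith
  have p5 : y ≤ y ^ 5 := le_self_pow₀ (by linarith) (by norm_num)
  have p6 : y ^ 5 * 100 ≤ y ^ 6 := by
    rw [pow_succ y 5]; exact mul_le_mul_of_nonneg_left hy100 (by positivity)
  rw [y5, hLg]
  linarith

theorem light_z {z N0 M : ℝ} (hz : 4 ≤ z) (hN : 0 < N0) (hM : z * z ≤ M) :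
    -z⁻¹ / (8 * z⁻¹ / N0) + 2 / (M * (8 * z⁻¹ / N0)) ≤ -(N0 / 16) := by
  have hz0 : 0 < z := by linarith
  have hM0 : 0 < M := (mul_pos hz0 hz0).trans_le hM
  have : -z⁻¹ / (8 * z⁻¹ / N0) + 2 / (M * (8 * z⁻¹ / N0)) =
      -(N0 / 8) + N0 * (z / (4 * M)) := by field_simp; ring
  rw [this]
  have : z / (4 * M) ≤ 1 / 16 := by rw [div_le_iff₀ (by positivity)]; nlinarith
  nlinarith

theorem light_num {c g ρ L O Fc Nc M : ℝ} (hc : 0 < c) (hg : 0 < g) (hρ : 3 / 5 * c ≤ ρ)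
    (h1 : 6 / g ≤ L) (h2 : 20 * (40 * g / c + Fc + 100) / c ≤ L)
    (hO : Real.exp (L * (ρ + 2 * g)) ≤ 2 * O) (hF : 0 ≤ Fc) (hN0 : 0 ≤ Nc)
    (hN : Nc ≤ Real.exp (Real.exp (c * L / 2))) (hM : Real.exp (g * L) ≤ M)
    (hM' : M ≤ Real.exp (g * L) + 1) :
    Real.exp (L * ρ) * M ≤ 2 * O ∧ M * (Fc * Nc) * Real.exp (-Real.exp (-(g * L / 2)) /
      (8 * Real.exp (-(g * L / 2)) / (O / M)) +
      2 / (M * (8 * Real.exp (-(g * L / 2)) / (O / M)))) < 1 := by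
  have hgL : 6 ≤ g * L := by rwa [div_le_iff₀ hg, mul_comm] at h1
  have hL0 : 0 ≤ L := le_trans (by positivity) h1
  have hy := light_y hc hg hρ hL0 h2 hF
  obtain ⟨z, hz⟩ : ∃ z, z = Real.exp (g * L / 2) := ⟨_, rfl⟩
  have hz4 : 4 ≤ z := by have := Real.add_one_le_exp (g * L / 2); linarith
  have e1 : Real.exp (g * L) = z * z := by rw [hz, ← Real.exp_add]; ring_nf
  have e2 : Real.exp (-(g * L / 2)) = z⁻¹ := by rw [hz, Real.exp_neg]
  have hM2 : M ≤ Real.exp (L * (2 * g)) := by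
    have : Real.exp (L * (2 * g)) = (z * z) * (z * z) := by rw [← e1, ← Real.exp_add]; ring_nf
    have h16 : 4 * 4 ≤ z * z := mul_self_le_mul_self (by norm_num) hz4
    have := mul_le_mul_of_nonneg_left h16 (mul_self_nonneg z)
    linarith
  have hM0 : 0 < M := (Real.exp_pos _).trans_le hM
  have a1 : Real.exp (L * ρ) * M ≤ 2 * O := by
    refine le_trans ?_ hO
    rw [mul_add, Real.exp_add]
    exact mul_le_mul_of_nonneg_left hM2 (Real.exp_pos _).le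
  refine ⟨a1, ?_⟩
  obtain ⟨N0, hN0d⟩ : ∃ N0, N0 = O / M := ⟨_, rfl⟩
  have hN0' : Real.exp (L * ρ) / 2 ≤ N0 := by rw [hN0d, le_div_iff₀ hM0]; linarith
  have hN0p : 0 < N0 := by linarith [Real.exp_pos (L * ρ)]
  have ex := Real.exp_le_exp.2 (light_z hz4 hN0p (e1 ▸ hM))
  rw [e2, ← hN0d]
  have hF' : Fc ≤ Real.exp Fc := by linarith [Real.add_one_le_exp Fc]
  calc _ ≤ Real.exp (L * (2 * g)) * (Real.exp Fc * Real.exp (Real.exp (c * L / 2))) *
        Real.exp (-(N0 / 16)) :=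
        mul_le_mul (mul_le_mul hM2 (mul_le_mul hF' hN hN0 (Real.exp_pos _).le)
          (mul_nonneg hF hN0) (Real.exp_pos _).le) ex (Real.exp_pos _).le (by positivity)
    _ = Real.exp (L * (2 * g) + (Fc + Real.exp (c * L / 2)) + -(N0 / 16)) := by
        rw [Real.exp_add, Real.exp_add, Real.exp_add]
    _ < 1 := Real.exp_lt_one_iff.2 (by linarith)

theorem light_core (a : Lev) (ha : a.Ok) (F : Finset ((ℕ → Bool) → a.I → ℝ))
    (hF : ∀ p ∈ F, Pred a p) {k' L : ℕ} (hk : 0 < k') (𝓝 : Finset ((Fin L → Bool) → ℝ))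
    (h𝓝 : ∀ w ∈ 𝓝, (∀ ω, 0 ≤ w ω) ∧ ∑ ω, w ω ≤ 1) (O : Finset (ℕ → a.I))
    (hO : ∀ x ∈ O, (x 0).2 = false ∧ (∀ i, k' * (2 * a.N) ≤ i → x i = x 0) ∧
      ∀ v, ((Finset.range (k' * (2 * a.N))).filter fun i => x i = v).card = k')
    {β : ℝ} {M : ℕ} (hβ : 0 < β) (hM : 0 < M) (hO0 : 0 < O.card)
    (hs : M * (F.card * 𝓝.card) * Real.exp (-β / (8 * β / (O.card / M)) +
      2 / (M * (8 * β / (O.card / M)))) < 1) :
    ∃ (b : Lev) (ψ : b.I → ℕ → a.I), Step a b (k' * (2 * a.N)) ψ ∧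
      (∀ u v, (∀ i < k' * (2 * a.N), ψ u i = ψ v i) → u = v) ∧ O.card ≤ b.N * M ∧
      ∀ p ∈ F, ∀ w ∈ 𝓝, ∃ T : Finset b.I, 8 * Tᶜ.card ≤ 2 * b.N ∧
        ∑ u ∈ T, ∑ ω, w ω * pp p (k' * (2 * a.N)) (ext ω) (ψ u) ≤ β := by
  classical
  have hk0 : 0 < k' * (2 * a.N) := by have := ha.1; positivity
  obtain ⟨τ, hτd⟩ : ∃ τ : ℝ, τ = 8 * β / (O.card / M) := ⟨_, rfl⟩
  have hτ : 0 < τ := by rw [hτd]; positivity
  rw [← hτd] at hs
  obtain ⟨mu, hmu⟩ : ∃ mu : ((ℕ → Bool) → a.I → ℝ) → ((Fin L → Bool) → ℝ) → (ℕ → a.I) → Bool → ℝ,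
      mu = fun p w x s => ∑ ω, w ω * pp p (k' * (2 * a.N)) (ext ω) (fun i => a.flip s (x i)) :=
    ⟨_, rfl⟩
  have mu0 : ∀ p ∈ F, ∀ w ∈ 𝓝, ∀ x s, 0 ≤ mu p w x s := fun p hp w hw x s => by
    rw [hmu]
    exact Finset.sum_nonneg fun ω _ => mul_nonneg ((h𝓝 w hw).1 ω)
      (Finset.prod_nonneg fun i _ => ((hF p hp).pos _ _).le)
  have mu1 : ∀ p ∈ F, ∀ w ∈ 𝓝, ∑ x : O, ∑ s, mu p w x.1 s ≤ 1 := fun p hp w hw => by
    rw [← Fintype.sum_prod_type', hmu]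
    simp only
    rw [Finset.sum_comm]
    refine le_trans (Finset.sum_le_sum fun ω _ => ?_) (h𝓝 w hw).2
    rw [← Finset.mul_sum]
    refine mul_le_of_le_one_right ((h𝓝 w hw).1 ω) (pp_sum (hF p hp) _ _
      (fun (q : O × Bool) i => a.flip q.2 (q.1.1 i)) ?_)
    rintro ⟨x, s⟩ ⟨y, s'⟩ h
    have hx := hO x.1 x.2
    have hy := hO y.1 y.2
    have hs' : s = s' := by
      have := congrArg Prod.snd (h 0 hk0)
      simpa [Lev.flip, hx.1, hy.1] using this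
    subst hs'
    have h' : ∀ i < k' * (2 * a.N), x.1 i = y.1 i := fun i hi => by
      have := h i hi
      simp only [Lev.flip, Prod.mk.injEq] at this
      exact Prod.ext this.1 (by simpa using this.2)
    refine Prod.ext (Subtype.ext (funext fun i => ?_)) rfl
    by_cases hi : i < k' * (2 * a.N)
    · exact h' i hi
    · rw [hx.2.1 i (not_lt.1 hi), hy.2.1 i (not_lt.1 hi), h' 0 hk0]
  obtain ⟨W', hW, hWf⟩ := exists_code (O := O) (β := β)
    ((F ×ˢ 𝓝).image fun q x => min (∑ s, mu q.1 q.2 x.1 s) τ) hτ hM (fun f hf => by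
      obtain ⟨q, hq, rfl⟩ := Finset.mem_image.1 hf
      obtain ⟨hp, hw⟩ := Finset.mem_product.1 hq
      exact ⟨fun x => ⟨le_min (Finset.sum_nonneg fun s _ => mu0 _ hp _ hw _ _) hτ.le,
        min_le_right _ _⟩, (Finset.sum_le_sum fun x _ => min_le_left _ _).trans (mu1 _ hp _ hw)⟩)
    (lt_of_le_of_lt (by
      gcongr
      exact_mod_cast Finset.card_image_le.trans (Finset.card_product F 𝓝).le) hs)
  rw [Fintype.card_coe] at hW
  have hWc : (W'.map (Function.Embedding.subtype _)).card = W'.card := Finset.card_map _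
  obtain ⟨b, e, hb, hst, hinj⟩ := exists_lev a ha hk (W'.map (Function.Embedding.subtype _))
    (by
      rw [← Finset.card_pos, hWc]
      exact Nat.pos_of_ne_zero fun h => by rw [h] at hW; omega)
    (fun x hx => by
      obtain ⟨y, -, rfl⟩ := Finset.mem_map.1 hx
      exact hO _ y.2)
  have hW2 : O.card ≤ b.N * M := by rw [hb, hWc]; exact hW
  refine ⟨b, _, hst, hinj, hW2, fun p hp w hw => ?_⟩
  have key : ∑ j : Fin b.N, min (∑ s, mu p w (e j).1 s) τ ≤ β := by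
    have := hWf _ (Finset.mem_image_of_mem _ (Finset.mk_mem_product hp hw))
    refine le_trans (le_of_eq ?_) this
    rw [Equiv.sum_comp e (fun x => min (∑ s, mu p w x.1 s) τ),
      Finset.sum_coe_sort _ (fun x => min (∑ s, mu p w x s) τ), Finset.sum_map]
    rfl
  refine ⟨Finset.univ.filter fun u => ∑ s, mu p w (e u.1).1 s ≤ τ, ?_, ?_⟩
  · have h1 : (((Finset.univ.filter fun u : b.I => ∑ s, mu p w (e u.1).1 s ≤ τ)ᶜ).card : ℝ) * τ ≤
        2 * β := by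
      rw [Finset.compl_filter, ← nsmul_eq_mul, ← Finset.sum_const, Finset.sum_filter,
        Fintype.sum_prod_type]
      refine le_trans ?_ (mul_le_mul_of_nonneg_left key (by norm_num : (0 : ℝ) ≤ 2))
      rw [Finset.mul_sum]
      refine Finset.sum_le_sum fun j _ => ?_
      have h0 : 0 ≤ ∑ s, mu p w (e j).1 s := Finset.sum_nonneg fun s _ => mu0 _ hp _ hw _ _
      simp only [Finset.sum_const, Finset.card_univ, Fintype.card_bool, nsmul_eq_mul]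
      split_ifs with h
      · have := le_min h0 hτ.le
        push_cast; linarith
      · rw [min_eq_right (not_le.1 h).le]; norm_num
    have h2 : 8 * β ≤ b.N * τ := by
      have hM' : (0 : ℝ) < M := by exact_mod_cast hM
      have hO' : (0 : ℝ) < O.card := by exact_mod_cast hO0
      have : (O.card : ℝ) ≤ b.N * M := by exact_mod_cast hW2
      rw [hτd, mul_div_assoc', le_div_iff₀ (by positivity), mul_div_assoc', div_le_iff₀ hM']
      nlinarith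
    have h3 : (8 * (((Finset.univ.filter fun u : b.I => ∑ s, mu p w (e u.1).1 s ≤ τ)ᶜ).card : ℝ)) * τ ≤
        (2 * b.N) * τ := by linarith
    exact_mod_cast le_of_mul_le_mul_right h3 hτ
  · refine le_trans ?_ key
    rw [Finset.sum_filter, Fintype.sum_prod_type]
    refine Finset.sum_le_sum fun j _ => ?_
    have h0 : 0 ≤ ∑ s, mu p w (e j).1 s := Finset.sum_nonneg fun s _ => mu0 _ hp _ hw _ _
    by_cases h : ∑ s, mu p w (e j).1 s ≤ τ
    · simp only [if_pos h]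
      rw [min_eq_left h, hmu]
    · simp only [if_neg h, Finset.sum_const_zero]
      exact le_min h0 hτ.le

theorem exists_light (a : Lev) (ha : a.Ok) (F : Finset ((ℕ → Bool) → a.I → ℝ))
    (hF : ∀ p ∈ F, Pred a p) {c g : ℝ} (hc : 0 < c) (hg : 0 < g)
    (hr : 3 / 5 * c ≤ a.rate - 1 / a.L - 2 * g) : ∀ᶠ k' : ℕ in Filter.atTop,
    ∀ 𝓝 : Finset ((Fin (k' * (2 * a.N) * a.L) → Bool) → ℝ),
      (∀ w ∈ 𝓝, (∀ ω, 0 ≤ w ω) ∧ ∑ ω, w ω ≤ 1) →
      (𝓝.card : ℝ) ≤ Real.exp (Real.exp (c * (k' * (2 * a.N) * a.L : ℕ) / 2)) →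
      ∃ (b : Lev) (ψ : b.I → ℕ → a.I), Step a b (k' * (2 * a.N)) ψ ∧
        (∀ u v, (∀ i < k' * (2 * a.N), ψ u i = ψ v i) → u = v) ∧
        a.rate - 1 / a.L - 2 * g ≤ b.rate ∧ ∀ p ∈ F, ∀ w ∈ 𝓝, ∃ T : Finset b.I,
          8 * Tᶜ.card ≤ 2 * b.N ∧ ∑ u ∈ T, ∑ ω, w ω * pp p (k' * (2 * a.N)) (ext ω) (ψ u) ≤
            Real.exp (-(g * b.L / 2)) := by
  filter_upwards [Filter.eventually_ge_atTop
    (⌈6 / g⌉₊ + ⌈20 * (40 * g / c + F.card + 100) / c⌉₊ + 1)] with k' hk' 𝓝 h𝓝 hcard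
  have hk : 0 < k' := by omega
  have hN := ha.1
  have hL := ha.2
  have hkL : k' ≤ k' * (2 * a.N) * a.L := by
    rw [mul_assoc]; exact Nat.le_mul_of_pos_right _ (by positivity)
  obtain ⟨O, hO, hOc⟩ := exists_perm a ha hk
  have hL' : (0 : ℝ) < a.L := by exact_mod_cast hL
  have hOc' : Real.exp (((k' * (2 * a.N) * a.L : ℕ) : ℝ) *
      ((a.rate - 1 / a.L - 2 * g) + 2 * g)) ≤ 2 * O.card := by
    refine le_trans (le_of_eq ?_) hOc
    congr 1
    simp only [Lev.rate]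
    push_cast
    field_simp
    ring
  have hM : 0 < ⌈Real.exp (g * (k' * (2 * a.N) * a.L : ℕ))⌉₊ := Nat.ceil_pos.2 (Real.exp_pos _)
  obtain ⟨n1, n2⟩ := light_num (Fc := F.card) hc hg hr
    (Nat.le_of_ceil_le (le_trans (by omega) hkL)) (Nat.le_of_ceil_le (le_trans (by omega) hkL))
    hOc' (Nat.cast_nonneg _) (Nat.cast_nonneg _) hcard (Nat.le_ceil _)
    (Nat.ceil_lt_add_one (Real.exp_pos _).le).le
  have hO0 : 0 < O.card := by
    have : (0 : ℝ) < 2 * O.card := (Real.exp_pos _).trans_le hOc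
    exact_mod_cast (by linarith : (0 : ℝ) < O.card)
  obtain ⟨b, ψ, hst, hinj, hW, hT⟩ := light_core a ha F hF hk 𝓝 h𝓝 O hO (Real.exp_pos _) hM hO0 n2
  refine ⟨b, ψ, hst, hinj, ?_, by rw [hst.len]; exact hT⟩
  have hbL : (0 : ℝ) < b.L := by exact_mod_cast hst.ok'.2
  have hM' : (0 : ℝ) < (⌈Real.exp (g * (k' * (2 * a.N) * a.L : ℕ))⌉₊ : ℕ) := by exact_mod_cast hM
  have hW' : (O.card : ℝ) ≤ b.N * (⌈Real.exp (g * (k' * (2 * a.N) * a.L : ℕ))⌉₊ : ℕ) := by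
    exact_mod_cast hW
  have h4 : Real.exp (((k' * (2 * a.N) * a.L : ℕ) : ℝ) * (a.rate - 1 / a.L - 2 * g)) ≤ 2 * b.N :=
    le_of_mul_le_mul_right (by linarith) hM'
  rw [Lev.rate.eq_1 b, le_div_iff₀ hbL, mul_comm, hst.len]
  exact (Real.le_log_iff_exp_le ((Real.exp_pos _).trans_le h4)).2 h4

end Vale.Agent.P109N
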