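import Vale.Agent.P109N.Def2
import Vale.Agent.P109N.Gain
import Vale.Agent.P109N.Light
import Vale.Agent.P109N.Dom

namespace Vale.Agent.P109N

open MeasureTheory Matrix Manifold

variable {d : ℕ}

theorem stage_num {g : ℝ} (hg : 0 < g) (γ : ℝ) : ∀ᶠ L : ℝ in Filter.atTop,
    Real.log 2 / L - g / 4 * (7 / 8 - 1 / L -
      L * Real.exp γ * Real.exp (-(g * L / 2)) * Real.exp (g / 4 * L)) ≤ -(g / 8) := by
  have t1 : Filter.Tendsto (fun L : ℝ => g / 4 * L) Filter.atTop Filter.atTop :=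
    Filter.tendsto_id.const_mul_atTop (by positivity)
  have t2 := ((Real.tendsto_pow_mul_exp_neg_atTop_nhds_zero 1).comp t1).const_mul (Real.exp γ)
  have t3 : Filter.Tendsto (fun L : ℝ => (Real.log 2 + g / 4) / L) Filter.atTop (nhds 0) :=
    tendsto_const_nhds.div_atTop Filter.tendsto_id
  have t4 := (t2.add t3).eventually (gt_mem_nhds
    (show Real.exp γ * 0 + 0 < 3 * g / 32 by rw [mul_zero, add_zero]; positivity))
  filter_upwards [t4] with L h
  have e : Real.exp (-(g * L / 2)) * Real.exp (g / 4 * L) = Real.exp (-(g / 4 * L)) := by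
    rw [← Real.exp_add]; congr 1; ring
  have e' : (Real.log 2 + g / 4) / L = Real.log 2 / L + g / 4 * (1 / L) := by ring
  simp only [Function.comp, pow_one] at h
  rw [mul_assoc (L * Real.exp γ), e]
  rw [e'] at h
  linarith

theorem stage_mono {d R : ℕ} {b : Lev} {F : Finset ((ℕ → Bool) → b.I → ℝ)} {x x' y : ℝ}
    (h : Inv d R b F x y) (hx : x ≤ x') : Inv d R b F x' y := by
  refine ⟨h.1, fun Z _ ν S P χ φ A Q hF m hm => ?_⟩
  obtain ⟨p, hp, h'⟩ := h.2 Z ν S P χ φ A Q hF m hm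
  exact ⟨p, hp, h'.trans (mul_le_mul_of_nonneg_right (by linarith) (Nat.cast_nonneg _))⟩

theorem stage (d R : ℕ) (hR : 1 ≤ R) {a : Lev} (ha : a.Ok) {F : Finset ((ℕ → Bool) → a.I → ℝ)}
    {x c g : ℝ} (hc : 0 < c) (hg : 0 < g) (hr : 3 / 5 * c ≤ a.rate - 1 / a.L - 2 * g)
    (hI : Inv d R a F x (25 * (d + 1) * g / c)) : ∃ b F', St a b ∧
      a.rate - 1 / a.L - 2 * g ≤ b.rate ∧ Inv d R b F' (x - g / 8) (25 * (d + 1) * g / c) := by
  obtain ⟨γ, hγ⟩ := exists_dom d R a.L ha.2 hR hc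
  have hN := ha.1
  have hL := ha.2
  have t1 : Filter.Tendsto (fun k' : ℕ => k' * (2 * a.N)) Filter.atTop Filter.atTop :=
    Filter.tendsto_atTop_mono (fun k => Nat.le_mul_of_pos_right k (by positivity))
      Filter.tendsto_id
  have t2 : Filter.Tendsto (fun k' : ℕ => ((k' * (2 * a.N) * a.L : ℕ) : ℝ)) Filter.atTop
      Filter.atTop := tendsto_natCast_atTop_atTop.comp
    (Filter.tendsto_atTop_mono (fun k => Nat.le_mul_of_pos_right _ hL) t1)
  obtain ⟨k', ⟨𝓝, hc𝓝, hD⟩, hl, hn⟩ := ((t1.eventually hγ).and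
    ((exists_light a ha F hI.1 hc hg hr).and (t2.eventually (stage_num hg γ)))).exists
  obtain ⟨b, ψ, hst, hinj, hrate, hT⟩ := hl 𝓝 hD.1 hc𝓝
  have hbL : (0 : ℝ) < b.L := by exact_mod_cast hst.ok'.2
  rw [← hst.len] at hn
  have hD' : DomBy d R a.L (k' * (2 * a.N)) (c * b.L / (100 * (d + 1))) γ 𝓝 := by
    rw [hst.len]; exact hD
  have ey : g / 4 / (c * b.L / (100 * (d + 1))) * b.L = 25 * (d + 1) * g / c := by
    field_simp
    ring
  obtain ⟨F', hF'⟩ := gain hst hinj (η := g / 4) (by positivity) (by positivity)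
    (Real.exp_pos _).le (by rw [ey]; exact hI) hD' hT
  rw [ey] at hF'
  exact ⟨b, F', ⟨_, ψ, hst⟩, hrate, stage_mono hF' (by linarith)⟩

end Vale.Agent.P109N
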