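import Vale.Agent.P109N.Def2
import Vale.Agent.P109N.Stage
import Vale.Agent.P109N.Fano

namespace Vale.Agent.P109N

open MeasureTheory Matrix Manifold

variable {d : ℕ}

theorem epoch_one (d R : ℕ) (hR : 1 ≤ R) {a : Lev} (ha : Good a) : ∃ b, St a b ∧ Kill d R b := by
  have L0 : (0 : ℝ) < a.L := by exact_mod_cast ha.1.2
  have hlog : 139 ≤ Real.log (2 * a.N) := by
    have h1 : ((2 : ℝ) ^ 201) ≤ 2 * a.N := by
      have : ((2 : ℝ) ^ 200) ≤ a.N := by exact_mod_cast ha.2.1
      rw [pow_succ']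
      exact mul_le_mul_of_nonneg_left this (by norm_num)
    have h2 := Real.log_le_log (by positivity) h1
    rw [Real.log_pow] at h2
    push_cast at h2
    linarith [Real.log_two_gt_d9]
  set c := a.rate with hcd
  have hL : 139 * (1 / (a.L : ℝ)) ≤ c := by
    rw [hcd, Lev.rate, mul_one_div]
    exact div_le_div_of_nonneg_right hlog L0.le
  have hc : 0 < c := lt_of_lt_of_le (by positivity) hL
  obtain ⟨J, hJ⟩ := exists_nat_gt (max 0 (1000 * (d + 1) * CP d R / c))
  have J0 : (0 : ℝ) < J := (le_max_left _ _).trans_lt hJ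
  have J1 : 1000 * (d + 1) * CP d R < J * c := (div_lt_iff₀ hc).1 ((le_max_right _ _).trans_lt hJ)
  set g := c / (10 * J) with hgd
  have hg : 0 < g := by positivity
  have gJ : g * J = c / 10 := by rw [hgd]; field_simp
  set y := 25 * (d + 1) * g / c with hyd
  have hy : 0 ≤ y := by positivity
  have yC : y * CP d R < c / 400 := by
    have : y = 25 * (d + 1) / (10 * J) := by rw [hyd, hgd]; field_simp
    rw [this, div_mul_eq_mul_div, div_lt_div_iff₀ (by positivity) (by norm_num)]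
    linarith
  have key : ∀ j : ℕ, j ≤ J → ∃ (b : Lev) (F : Finset ((ℕ → Bool) → b.I → ℝ)),
      (j = 0 ∧ b = a ∨ St a b) ∧ b.Ok ∧ c - 2 * (1 / a.L) - 2 * g * j ≤ b.rate - 2 * (1 / b.L) ∧
        Inv d R b F (c / 100 + y * CP d R - j * (g / 8)) y := by
    intro j
    induction j with
    | zero =>
      intro _
      obtain ⟨F, hF⟩ := fano d R ha hy
      exact ⟨a, F, Or.inl ⟨rfl, rfl⟩, ha.1, by simp [hcd], by simpa using hF⟩
    | succ j ih =>
      intro hj
      obtain ⟨b, F, h1, h2, h3, h4⟩ := ih (by omega)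
      have Lb : (0 : ℝ) < b.L := by exact_mod_cast h2.2
      have j1 : (j : ℝ) + 1 ≤ J := by exact_mod_cast hj
      have j2 := mul_le_mul_of_nonneg_left j1 hg.le
      have p1 : (0 : ℝ) < 1 / b.L := by positivity
      obtain ⟨b', F', k1, k2, k3⟩ := stage d R hR h2 hc hg (by linarith) h4
      have l1 : 2 * (b.L : ℝ) ≤ b'.L := by exact_mod_cast k1.len.2.2
      have l2 : 2 * (1 / (b'.L : ℝ)) ≤ 1 / b.L := by
        rw [mul_one_div, div_le_div_iff₀ (by linarith) Lb]
        linarith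
      refine ⟨b', F', Or.inr ?_, k1.len.2.1, by push_cast; linarith, ?_⟩
      · rcases h1 with ⟨-, rfl⟩ | h1
        · exact k1
        · exact h1.trans k1
      · have e : c / 100 + y * CP d R - ((j + 1 : ℕ) : ℝ) * (g / 8) =
            c / 100 + y * CP d R - j * (g / 8) - g / 8 := by push_cast; ring
        rw [e]
        exact k3
  obtain ⟨b, F, h1, h2, -, h4⟩ := key J le_rfl
  refine ⟨b, h1.resolve_left fun h => by simp [h.1] at J0, ?_⟩
  intro Z _ ν S P χ φ A Q hF m hm
  obtain ⟨p, hp, hc'⟩ := h4.2 Z ν S P χ φ A Q hF m hm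
  have := hm.prob
  have a1 := (h4.1 p hp).cost_nonneg S (fun z => Q (χ z)) m
  have a2 := mul_nonneg hy (hF.Lam_bd h2 m).1
  have Lb : (0 : ℝ) < b.L := by exact_mod_cast h2.2
  have a3 : c / 100 + y * CP d R - J * (g / 8) - y * Lam S χ A m < 0 := by linarith
  linarith [mul_neg_of_neg_of_pos a3 Lb]

theorem epoch (d R : ℕ) {a : Lev} (ha : Good a) : ∃ b, St a b ∧ Kill d R b := by
  rcases Nat.eq_zero_or_pos R with rfl | hR
  · obtain ⟨b, hb, -⟩ := epoch_one d 1 le_rfl ha
    exact ⟨b, hb, fun Z _ ν S P χ φ A Q hF => absurd hF.one (by norm_num)⟩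
  · exact epoch_one d R hR ha

end Vale.Agent.P109N
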