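import Vale.Agent.P109N.Def2

namespace Vale.Agent.P109N

open MeasureTheory Matrix Manifold

variable {d : ℕ}

theorem MuA_iter (s : ℕ) (ω : ℤ → Bool) (n : ℤ) : shift^[s] ω n = ω (n + s) := by
  induction s generalizing n with
  | zero => simp
  | succ s ih =>
    rw [Function.iterate_succ_apply', shift, ih]
    congr 1
    push_cast
    ring

theorem shift_cont : Continuous shift := continuous_pi fun _ => continuous_apply _

theorem Om_closed (a : Lev) : IsClosed (Om a) := by
  have : Om a = ⋃ s ∈ Set.Iio a.L, ⋂ i : ℤ, ⋃ u : a.I, ⋂ t ∈ Set.Iio a.L,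
      {ω : ℤ → Bool | ω ((s : ℤ) + i * a.L + t) = a.w u t} := by
    ext ω
    simp only [Om, Set.mem_setOf_eq, Set.mem_iUnion, Set.mem_iInter, Set.mem_Iio, exists_prop]
  rw [this]
  exact (Set.finite_Iio _).isClosed_biUnion fun s _ => isClosed_iInter fun i =>
    isClosed_iUnion_of_finite fun u => isClosed_biInter fun t _ =>
      isClosed_eq (continuous_apply _) continuous_const

theorem per_joint (a : Lev) (ha : a.Ok) : ∃ μ : Measure (ℤ → Bool), IsProbabilityMeasure μ ∧
    MeasurePreserving shift μ μ ∧ μ (Om a)ᶜ = 0 ∧ ∃ m, Joint μ shift (fun ω => ω 0) a m := by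
  have hL : (0 : ℤ) < a.L := by exact_mod_cast ha.2
  have hL0 : (a.L : ENNReal) ≠ 0 := by exact_mod_cast ha.2.ne'
  have hN0 : (2 * a.N : ENNReal) ≠ 0 := by exact_mod_cast (Nat.mul_pos two_pos ha.1).ne'
  have hNt : (2 * a.N : ENNReal) ≠ ⊤ := ENNReal.mul_ne_top (by simp) (by simp)
  set ω : a.I → ℤ → Bool := fun u n => a.w u (n % a.L).toNat with hω
  set m : Measure ((ℤ → Bool) × a.I) :=
    (2 * a.N : ENNReal)⁻¹ • ∑ u : a.I, Measure.dirac (ω u, u) with hm
  have hae : ∀ Q : (ℤ → Bool) × a.I → Prop, (∀ u, Q (ω u, u)) → ∀ᵐ p ∂m, Q p := by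
    intro Q hQ
    refine Measure.ae_smul_measure (ae_finsetSum_measure_iff.2 fun u _ => ?_) _
    rw [ae_dirac_eq]
    exact hQ u
  have hp : IsProbabilityMeasure m := by
    refine ⟨?_⟩
    simp only [hm, Measure.smul_apply, Measure.finsetSum_apply, measure_univ, Finset.sum_const,
      Finset.card_univ, Fintype.card_prod, Fintype.card_fin, Fintype.card_bool, nsmul_eq_mul,
      smul_eq_mul, mul_one]
    rw [Nat.cast_mul, mul_comm (a.N : ENNReal)]
    exact ENNReal.inv_mul_cancel hN0 hNt
  have hsm : Measurable shift := shift_cont.measurable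
  have hg : ∀ s : ℕ, Measurable fun p : (ℤ → Bool) × a.I => shift^[s] p.1 := fun s =>
    (hsm.iterate s).comp measurable_fst
  set g : ℕ → Measure (ℤ → Bool) := fun s => m.map fun p => shift^[s] p.1 with hgd
  have g1 : ∀ s, (g s).map shift = g (s + 1) := fun s => by
    simp only [hgd]
    rw [Measure.map_map hsm (hg s)]
    simp only [Function.iterate_succ', Function.comp_def]
  have g2 : g a.L = g 0 := by
    refine Measure.map_congr (hae _ fun u => ?_)
    funext n
    simp only [MuA_iter, hω, Int.add_emod_right, Nat.cast_zero, add_zero]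
  have g3 : ∀ s, g s Set.univ = 1 := fun s =>
    (Measure.isProbabilityMeasure_map (hg s).aemeasurable).measure_univ
  refine ⟨(a.L : ENNReal)⁻¹ • ∑ s ∈ Finset.range a.L, g s, ⟨?_⟩, ⟨hsm, ?_⟩, ?_, m, hp, ?_, ?_, ?_⟩
  · simp only [Measure.smul_apply, Measure.finsetSum_apply, g3, Finset.sum_const,
      Finset.card_range, nsmul_eq_mul, smul_eq_mul, mul_one]
    exact ENNReal.inv_mul_cancel hL0 (by simp)
  · have h1 : (∑ s ∈ Finset.range a.L, g s).map shift = ∑ s ∈ Finset.range a.L, g (s + 1) := by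
      ext A hA
      simp only [← g1, Measure.map_apply hsm hA, Measure.finsetSum_apply]
    obtain ⟨l, hl⟩ := Nat.exists_eq_add_one_of_ne_zero ha.2.ne'
    rw [Measure.map_smul, h1]
    rw [hl] at g2
    rw [hl, Finset.sum_range_succ, Finset.sum_range_succ' g, g2]
  · rw [Measure.smul_apply, Measure.finsetSum_apply, Finset.sum_eq_zero, smul_zero]
    intro s hs
    have hs' := Finset.mem_range.1 hs
    simp only [hgd]
    rw [Measure.map_apply (hg s) (Om_closed a).measurableSet.compl]
    refine hae (fun p => shift^[s] p.1 ∈ Om a) fun u => ?_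
    refine ⟨(a.L - s) % a.L, Nat.mod_lt _ ha.2, fun i => ⟨u, fun t ht => ?_⟩⟩
    simp only [MuA_iter, hω]
    congr 1
    have h1 : ((((a.L - s) % a.L : ℕ) : ℤ) + i * a.L + t + s) % a.L = t := by
      rw [Int.natCast_mod, Nat.cast_sub hs'.le, add_assoc, add_assoc, Int.emod_add_emod,
        show (a.L : ℤ) - s + (i * a.L + (t + s)) = t + (i + 1) * a.L by ring,
        Int.add_mul_emod_self_right]
      exact Int.emod_eq_of_lt (by positivity) (by exact_mod_cast ht)
    rw [h1, Int.toNat_natCast]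
  · rw [smul_smul, ENNReal.mul_inv_cancel hL0 (by simp), one_smul]
  · intro u
    have hA : MeasurableSet {p : (ℤ → Bool) × a.I | p.2 = u} :=
      measurable_snd (measurableSet_singleton u)
    simp only [hm, Measure.smul_apply, Measure.finsetSum_apply, Measure.dirac_apply' _ hA,
      Set.indicator_apply, Set.mem_setOf_eq, Pi.one_apply, Finset.sum_ite_eq', Finset.mem_univ,
      if_true, smul_eq_mul, mul_one]
  · refine hae _ fun u s hs => ?_
    simp only [MuA_iter, hω, zero_add]
    rw [Int.emod_eq_of_lt (by positivity) (by exact_mod_cast hs), Int.toNat_natCast]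

theorem Om_sub {a b : Lev} (h : St a b) : Om b ⊆ Om a := by
  obtain ⟨k, ψ, h⟩ := h
  rintro ω ⟨s, -, hs⟩
  have hk : (0 : ℤ) < k := by exact_mod_cast lt_of_lt_of_le two_pos h.two
  refine ⟨s % a.L, Nat.mod_lt _ h.ok.2, fun i => ?_⟩
  set j : ℤ := i - (s / a.L : ℕ) with hj
  obtain ⟨u, hu⟩ := hs (j / k)
  obtain ⟨r, hr⟩ := Int.eq_ofNat_of_zero_le (Int.emod_nonneg j hk.ne')
  have hrk : r < k := by
    have := Int.emod_lt_of_pos j hk
    rw [hr] at this
    exact_mod_cast this
  refine ⟨ψ u r, fun t ht => ?_⟩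
  have h1 : r * a.L + t < b.L := by
    rw [h.len]
    nlinarith [Nat.mul_le_mul_right a.L (Nat.succ_le_of_lt hrk)]
  rw [← h.cat u r hrk t ht, ← hu _ h1]
  congr 1
  have h2 : j = k * (j / k) + r := by rw [← hr, Int.mul_ediv_add_emod]
  have h3 : (s : ℤ) = a.L * (s / a.L : ℕ) + (s % a.L : ℕ) := by
    exact_mod_cast (Nat.div_add_mod s a.L).symm
  rw [h.len]
  generalize j / k = q at h2 ⊢
  generalize s / a.L = s1 at hj h3
  generalize s % a.L = s2 at h3 ⊢
  push_cast
  rw [h3, show i = k * q + r + s1 by linarith]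
  ring

end Vale.Agent.P109N
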