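import Vale.Agent.P109N.Def2
import Vale.Agent.P109N.MuA
import Vale.Agent.P109N.Mk

namespace Vale.Agent.P109N

open MeasureTheory Matrix Manifold

variable {d : ℕ}

lemma frq_blocks (G : ℕ → ℝ) (L k : ℕ) : ∑ t ∈ Finset.range (k * L), G t =
    ∑ i ∈ Finset.range k, ∑ t ∈ Finset.range L, G (i * L + t) := by
  induction k with
  | zero => simp
  | succ k ih => rw [Nat.succ_mul, Finset.sum_range_add, ih, Finset.sum_range_succ]

lemma frq_abs {A B : ℕ → ℝ} {k : ℕ} {e : ℝ} (h : ∀ i < k, |A i - B i| ≤ e) :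
    |∑ i ∈ Finset.range k, A i - ∑ i ∈ Finset.range k, B i| ≤ k * e := by
  rw [← Finset.sum_sub_distrib]
  refine (Finset.abs_sum_le_sum_abs _ _).trans ?_
  have := Finset.sum_le_card_nsmul (Finset.range k) (fun i => |A i - B i|) e
    fun i hi => h i (Finset.mem_range.1 hi)
  rwa [Finset.card_range, nsmul_eq_mul] at this

lemma frq_one {l : ℕ} {f : (ℕ → Bool) → ℝ} (hf : ∀ ω ω', (∀ s < l, ω s = ω' s) → f ω = f ω')
    (h0 : ∀ ω, 0 ≤ f ω ∧ f ω ≤ 1) {L : ℕ} {x y : ℕ → Bool} (h : ∀ t < L, x t = y t) :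
    |∑ t ∈ Finset.range L, f (fun s => x (t + s)) -
      ∑ t ∈ Finset.range L, f (fun s => y (t + s))| ≤ l := by
  rw [← Finset.sum_sub_distrib]
  refine (Finset.abs_sum_le_sum_abs _ _).trans ?_
  have h1 : ∑ t ∈ Finset.range L, |f (fun s => x (t + s)) - f (fun s => y (t + s))| ≤
      ∑ t ∈ Finset.range L, if L < t + l then (1 : ℝ) else 0 := by
    refine Finset.sum_le_sum fun t _ => ?_
    split_ifs with ht
    · have a1 := h0 fun s => x (t + s)
      have a2 := h0 fun s => y (t + s)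
      rw [abs_le]
      constructor <;> linarith [a1.1, a1.2, a2.1, a2.2]
    · rw [hf (fun s => x (t + s)) (fun s => y (t + s)) fun s hs => h _ (by omega)]
      simp
  refine h1.trans ?_
  rw [Finset.sum_boole]
  have h2 : ((Finset.range L).filter fun t => L < t + l) ⊆ Finset.Ico (L - l) L := by
    intro t ht
    simp only [Finset.mem_filter, Finset.mem_range, Finset.mem_Ico] at ht ⊢
    omega
  have h3 := Finset.card_le_card h2
  rw [Nat.card_Ico] at h3
  exact_mod_cast h3.trans (by omega)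

lemma frq_step {a b : Lev} {k : ℕ} {ψ : b.I → ℕ → a.I} (h : Step a b k ψ) {l : ℕ}
    {f : (ℕ → Bool) → ℝ} (hf : ∀ ω ω', (∀ s < l, ω s = ω' s) → f ω = f ω')
    (h0 : ∀ ω, 0 ≤ f ω ∧ f ω ≤ 1) : ∃ c : ℝ, ∀ (u : b.I) (x : ℕ → Bool),
      (∀ t < b.L, x t = b.w u t) →
      |∑ t ∈ Finset.range b.L, f (fun s => x (t + s)) - b.L * c| ≤ k * l := by
  obtain ⟨g, hg⟩ : ∃ g : a.I → ℝ, g = fun v =>
    ∑ t ∈ Finset.range a.L, f (fun s => a.w v (t + s)) := ⟨_, rfl⟩
  have hN : (0 : ℝ) < a.N := by exact_mod_cast h.ok.1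
  have hL : (0 : ℝ) < a.L := by exact_mod_cast h.ok.2
  refine ⟨(∑ v, g v) / (2 * a.N * a.L), fun u x hx => ?_⟩
  have h1 : (b.L : ℝ) * ((∑ v, g v) / (2 * a.N * a.L)) = ∑ i ∈ Finset.range k, g (ψ u i) := by
    rw [← Finset.sum_fiberwise (Finset.range k) (ψ u) fun i => g (ψ u i)]
    have h2 : ∀ v, ∑ i ∈ Finset.range k with ψ u i = v, g (ψ u i) = k / (2 * a.N) * g v := by
      intro v
      rw [Finset.sum_congr rfl (g := fun _ => g v) fun i hi => by rw [(Finset.mem_filter.1 hi).2],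
        Finset.sum_const, nsmul_eq_mul]
      have h3 : (((Finset.range k).filter fun i => ψ u i = v).card : ℝ) * (2 * a.N) = k := by
        exact_mod_cast h.bal u v
      rw [← h3]
      field_simp
    simp only [h2]
    rw [← Finset.mul_sum, h.len]
    push_cast
    field_simp
  rw [h1, h.len, frq_blocks]
  refine frq_abs fun i hi => ?_
  have h4 := frq_one hf h0 (L := a.L) (x := fun t => x (i * a.L + t)) (y := a.w (ψ u i))
    fun t ht => by
      rw [← h.cat u i hi t ht]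
      refine hx _ ?_
      rw [h.len]
      have := Nat.mul_le_mul_right a.L (Nat.succ_le_of_lt hi)
      rw [Nat.succ_mul] at this
      omega
  simpa only [hg, add_assoc] using h4

lemma frq_le {f : ℕ → ℝ} (h0 : ∀ t, 0 ≤ f t ∧ f t ≤ 1) (n : ℕ) :
    0 ≤ ∑ t ∈ Finset.range n, f t ∧ ∑ t ∈ Finset.range n, f t ≤ n := by
  refine ⟨Finset.sum_nonneg fun t _ => (h0 t).1, ?_⟩
  have := Finset.sum_le_card_nsmul (Finset.range n) f 1 fun t _ => (h0 t).2
  rwa [Finset.card_range, nsmul_eq_mul, mul_one] at this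

theorem freq {a : ℕ → Lev} {k : ℕ → ℕ} {ψ : ∀ j, (a (j + 1)).I → ℕ → (a j).I} (h : Chain a k ψ)
    (l : ℕ) (f : (ℕ → Bool) → ℝ) (hf : ∀ ω ω', (∀ s < l, ω s = ω' s) → f ω = f ω')
    (h0 : ∀ ω, 0 ≤ f ω ∧ f ω ≤ 1) {ε : ℝ} (hε : 0 < ε) : ∃ (j n : ℕ) (c : ℝ), 0 < n ∧
      ∀ ω ∈ Om (a j), |∑ t ∈ Finset.range n, f (fun s => ω (t + s)) - n * c| ≤ ε * n := by
  have hL : ∀ j, j ≤ (a j).L := by
    intro j
    induction j with
    | zero => exact Nat.zero_le _
    | succ j ih =>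
      have h1 := (h.step j).len
      have h2 := Nat.mul_le_mul_right (a j).L (h.step j).two
      have h3 := (h.step j).ok.2
      omega
  obtain ⟨j, hj⟩ := exists_nat_ge (2 * l / ε)
  obtain ⟨c, hc⟩ := frq_step (h.step j) hf h0
  obtain ⟨M, hM⟩ := exists_nat_ge (2 * (1 + |c|) / ε)
  rw [div_le_iff₀ hε] at hj hM
  obtain ⟨L, hL'⟩ : ∃ L, L = (a (j + 1)).L := ⟨_, rfl⟩
  have hp : 0 < L := hL' ▸ (h.step j).ok'.2
  have hkl : (k j : ℝ) * l ≤ ε / 2 * L := by
    have h1 : (j : ℝ) ≤ (a j).L := by exact_mod_cast hL j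
    have h2 : (l : ℝ) ≤ ε / 2 * (a j).L := by nlinarith
    have h3 := mul_le_mul_of_nonneg_left h2 (Nat.cast_nonneg (α := ℝ) (k j))
    rw [hL', (h.step j).len]
    push_cast
    linarith
  refine ⟨j + 1, M * L + L, c, by omega, ?_⟩
  rintro ω ⟨s, hs, hω⟩
  rw [← hL'] at hs hω hc
  obtain ⟨F, hF⟩ : ∃ F : ℕ → ℝ, F = fun t : ℕ => f (fun s : ℕ => ω (t + s)) := ⟨_, rfl⟩
  have F0 : ∀ t, 0 ≤ F t ∧ F t ≤ 1 := fun t => hF ▸ h0 _
  rw [← hF]
  have e : M * L + L = s + M * L + (L - s) := by omega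
  have h1 : ∑ t ∈ Finset.range (M * L + L), F t = ∑ t ∈ Finset.range s, F t +
      ∑ i ∈ Finset.range M, ∑ t ∈ Finset.range L, F (s + (i * L + t)) +
      ∑ t ∈ Finset.range (L - s), F (s + M * L + t) := by
    rw [e, Finset.sum_range_add, Finset.sum_range_add, frq_blocks]
  have h2 : |∑ i ∈ Finset.range M, ∑ t ∈ Finset.range L, F (s + (i * L + t)) -
      ∑ i ∈ Finset.range M, L * c| ≤ M * (k j * l) := by
    refine frq_abs fun i _ => ?_
    obtain ⟨u, hu⟩ := hω i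
    have := hc u (fun t : ℕ => ω (s + i * L + t)) hu
    simpa only [hF, Nat.cast_add, Nat.cast_mul, add_assoc] using this
  rw [Finset.sum_const, Finset.card_range, nsmul_eq_mul] at h2
  have h3 := frq_le F0 s
  have h4 := frq_le (f := fun t => F (s + M * L + t)) (fun t => F0 _) (L - s)
  rw [Nat.cast_sub hs.le] at h4
  have hM0 : (0 : ℝ) ≤ M := Nat.cast_nonneg M
  have hL0 : (0 : ℝ) ≤ L := Nat.cast_nonneg L
  have h5 := mul_le_mul_of_nonneg_left hkl hM0
  have h6 := mul_le_mul_of_nonneg_left hM hL0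
  have h7 := mul_le_mul_of_nonneg_left (le_abs_self c) hL0
  have h8 := mul_le_mul_of_nonneg_left (neg_abs_le c) hL0
  have h9 := mul_nonneg hε.le hL0
  rw [h1]
  push_cast
  rw [abs_le] at h2 ⊢
  constructor <;> nlinarith [h2.1, h2.2, h3.1, h3.2, h4.1, h4.2]

end Vale.Agent.P109N
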