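import Vale.Agent.P109N.Def2
import Vale.Agent.P109N.Frq

namespace Vale.Agent.P109N

open MeasureTheory Matrix Manifold

variable {d : ℕ}

lemma Erg_it (m : ℕ) (ω : ℤ → Bool) (i : ℤ) : shift^[m] ω i = ω (i + m) := by
  induction m generalizing i with
  | zero => simp
  | succ m ih =>
    rw [Function.iterate_succ_apply', shift, ih]
    congr 1
    push_cast
    ring

lemma Erg_avg {μ : Measure (ℤ → Bool)} [IsProbabilityMeasure μ]
    (hμ : MeasurePreserving shift μ μ) {O C : Set (ℤ → Bool)} (hO : μ Oᶜ = 0)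
    (hC : MeasurableSet C) {n : ℕ} (hn : 0 < n) (M : ℕ) {c ε : ℝ}
    (h : ∀ ω ∈ O, |∑ t ∈ Finset.range n, (shift^[t + M] ⁻¹' C).indicator (1 : (ℤ → Bool) → ℝ) ω -
      n * c| ≤ ε * n) : |μ.real C - c| ≤ ε := by
  have hm : ∀ t, MeasurableSet (shift^[t + M] ⁻¹' C) := fun t => (hμ.iterate _).measurable hC
  have hi : ∀ t ∈ Finset.range n,
      Integrable ((shift^[t + M] ⁻¹' C).indicator (1 : (ℤ → Bool) → ℝ)) μ :=
    fun t _ => (integrable_const _).indicator (hm t)
  have h1 := norm_integral_le_of_norm_le_const (μ := μ) (C := ε * n) (f := fun ω =>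
    ∑ t ∈ Finset.range n, (shift^[t + M] ⁻¹' C).indicator (1 : (ℤ → Bool) → ℝ) ω - n * c)
    (by filter_upwards [mem_ae_iff.mpr hO] with ω hω using h ω hω)
  rw [integral_sub (integrable_finsetSum _ hi) (integrable_const _), integral_finsetSum _ hi] at h1
  simp only [integral_indicator_one (hm _),
    (hμ.iterate _).measureReal_preimage hC.nullMeasurableSet, Finset.sum_const, Finset.card_range,
    nsmul_eq_mul, integral_const, probReal_univ, one_smul, mul_one, Real.norm_eq_abs] at h1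
  have hn' : (0 : ℝ) < n := by exact_mod_cast hn
  rw [← mul_sub, abs_mul, abs_of_pos hn', mul_comm] at h1
  exact le_of_mul_le_mul_right h1 hn'

lemma Erg_uniq {a : ℕ → Lev} {k : ℕ → ℕ} {ψ : ∀ j, (a (j + 1)).I → ℕ → (a j).I}
    (h : Chain a k ψ) {μ ν : Measure (ℤ → Bool)} [IsProbabilityMeasure μ] [IsProbabilityMeasure ν]
    (hμ : MeasurePreserving shift μ μ) (hO : ∀ j, μ (Om (a j))ᶜ = 0)
    (hν : MeasurePreserving shift ν ν) (hO' : ∀ j, ν (Om (a j))ᶜ = 0) : μ = ν := by
  refine ext_of_generate_finite _ generateFrom_measurableCylinders.symm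
    isPiSystem_measurableCylinders (fun C hC => ?_) (by simp)
  have hm := MeasurableSet.of_mem_measurableCylinders hC
  obtain ⟨s, S, -, rfl⟩ := (mem_measurableCylinders _).mp hC
  obtain ⟨M, hM⟩ : ∃ M : ℕ, ∀ i ∈ s, i.natAbs ≤ M := ⟨s.sup Int.natAbs, fun i hi => s.le_sup hi⟩
  let f : (ℕ → Bool) → ℝ := fun x =>
    (cylinder (α := fun _ : ℤ => Bool) s S).indicator 1 fun i : ℤ => x (i + M).toNat
  have key : ∀ x y : ℤ → Bool, (∀ i ∈ s, x i = y i) →
      (cylinder (α := fun _ : ℤ => Bool) s S).indicator (1 : (ℤ → Bool) → ℝ) x =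
        (cylinder (α := fun _ : ℤ => Bool) s S).indicator 1 y := by
    intro x y hxy
    have e : s.restrict x = s.restrict y := funext fun i => hxy i i.2
    classical
    simp only [Set.indicator_apply, mem_cylinder, e, Pi.one_apply]
  refine (measureReal_eq_measureReal_iff (measure_ne_top _ _) (measure_ne_top _ _)).mp ?_
  refine eq_of_forall_dist_le fun ε hε => ?_
  obtain ⟨j, n, c, hn, hf⟩ := freq h (2 * M + 1) f
    (fun ω ω' hω => key _ _ fun i hi => hω _ (by have := hM i hi; omega))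
    (fun ω => ⟨Set.indicator_nonneg (fun _ _ => zero_le_one) _,
      Set.indicator_le_self' (fun _ _ => zero_le_one) _⟩) (half_pos hε)
  have e : ∀ (ω : ℤ → Bool) (t : ℕ), f (fun s => ω (t + s)) =
      (shift^[t + M] ⁻¹' cylinder (α := fun _ : ℤ => Bool) s S).indicator 1 ω := fun ω t =>
    (key _ (shift^[t + M] ω) fun i hi => by
      have := hM i hi
      rw [Erg_it]
      exact congrArg ω (by omega)).trans rfl
  simp only [e] at hf
  have h1 := Erg_avg hμ (hO j) hm hn M hf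
  have h2 := Erg_avg hν (hO' j) hm hn M hf
  rw [Real.dist_eq]
  rw [abs_le] at h1 h2 ⊢
  constructor <;> linarith [h1.1, h1.2, h2.1, h2.2]

theorem chain_ergodic {a : ℕ → Lev} {k : ℕ → ℕ} {ψ : ∀ j, (a (j + 1)).I → ℕ → (a j).I}
    (h : Chain a k ψ) {μ : Measure (ℤ → Bool)} [IsProbabilityMeasure μ]
    (hμ : MeasurePreserving shift μ μ) (hO : ∀ j, μ (Om (a j))ᶜ = 0) : Ergodic shift μ := by
  refine Ergodic.of_mem_extremePoints ⟨⟨hμ, inferInstance⟩, ?_⟩
  rintro ν ⟨h1, h2⟩ ν' - ⟨s, t, hs, -, -, e⟩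
  refine Erg_uniq h h1 (fun j => ?_) hμ hO
  have := hO j
  rw [← e, Measure.add_apply, Measure.smul_apply, add_eq_zero, smul_eq_mul, mul_eq_zero] at this
  exact this.1.resolve_left hs.ne'

end Vale.Agent.P109N
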