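import Vale.Agent.P109N.St2

namespace Vale.Agent.P109N

open MeasureTheory

theorem SmoothVolE.trans {d : ℕ} {H M : Type} [TopologicalSpace H]
    {I : ModelWithCorners ℝ (EuclideanSpace ℝ (Fin d)) H}
    [TopologicalSpace M] [ChartedSpace H M] [MeasurableSpace M] {ν : Measure M}
    (h : SmoothVolE I ν) :
    SmoothVol (I.transContinuousLinearEquiv (EuclideanSpace.equiv (Fin d) ℝ)) ν := by
  intro x
  obtain ⟨f, h1, h2, h3⟩ := h x
  set e := EuclideanSpace.equiv (Fin d) ℝ with he
  have hmp : MeasurePreserving e.symm volume volume := PiLp.volume_preserving_toLp (Fin d)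
  have hemb : MeasurableEmbedding e.symm := e.symm.toHomeomorph.measurableEmbedding
  refine ⟨fun v => f (e.symm v), ?_, ?_, ?_⟩
  · rw [I.extChartAt_transContinuousLinearEquiv_target]
    exact h1.comp e.symm.contDiff.contDiffOn fun v hv => hv
  · rw [I.extChartAt_transContinuousLinearEquiv_target]
    exact fun v hv => h2 _ hv
  · intro s hs hst
    rw [I.extChartAt_transContinuousLinearEquiv_target] at hst
    have a := h3 (e ⁻¹' s) (e.continuous.measurable hs) fun v hv => by simpa using hst hv
    have b := hmp.setLIntegral_comp_preimage_emb hemb (fun v => ENNReal.ofReal (f v)) (e ⁻¹' s)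
    have c : e.symm ⁻¹' (e ⁻¹' s) = s := by ext v; simp
    rw [c] at b
    rw [b, ← a, extChartAt_source, extChartAt_source]
    rfl

theorem range_trans {d : ℕ} {H : Type} [TopologicalSpace H]
    {I : ModelWithCorners ℝ (EuclideanSpace ℝ (Fin d)) H}
    (h : Set.range I = Set.univ ∨ ∃ i : Fin d, Set.range I = {v | 0 ≤ v i}) :
    Set.range (I.transContinuousLinearEquiv (EuclideanSpace.equiv (Fin d) ℝ)) = Set.univ ∨
      ∃ i : Fin d, Set.range (I.transContinuousLinearEquiv (EuclideanSpace.equiv (Fin d) ℝ)) =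
        {v | 0 ≤ v i} := by
  rw [I.transContinuousLinearEquiv_range]
  rcases h with h | ⟨i, h⟩
  · left
    rw [h, Set.image_univ, (EuclideanSpace.equiv (Fin d) ℝ).surjective.range_eq]
  · refine Or.inr ⟨i, ?_⟩
    rw [h, ContinuousLinearEquiv.image_eq_preimage_symm]
    rfl

end Vale.Agent.P109N
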