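import Vale.Agent.P109N.Def2

namespace Vale.Agent.P109N

open MeasureTheory Matrix Manifold

variable {d : ℕ}

/-- truncated matrix of a linear map -/
noncomputable def MDm (R : ℕ) (D : E d →L[ℝ] E d) : Mx d :=
  if ‖D‖ ≤ R ∧ D.det ≠ 0 then LinearMap.toMatrix' (D : E d →ₗ[ℝ] E d) else 1

lemma MD_ent (D : E d →L[ℝ] E d) (i j : Fin d) : |D (Pi.single j 1) i| ≤ ‖D‖ := by
  have h1 := norm_le_pi_norm (D (Pi.single j 1)) i
  have h2 := D.le_opNorm (Pi.single j 1)
  rw [Pi.norm_single, norm_one, mul_one] at h2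
  exact h1.trans h2

lemma MD_one {R : ℕ} (hR : 1 ≤ R) (i j : Fin d) : |(1 : Mx d) i j| ≤ R := by
  have : (1 : ℝ) ≤ R := by exact_mod_cast hR
  rw [Matrix.one_apply]
  split_ifs
  · simpa using hR
  · simp

lemma MDm_bd {R : ℕ} (hR : 1 ≤ R) (D : E d →L[ℝ] E d) (i j : Fin d) : |MDm R D i j| ≤ R := by
  unfold MDm
  split_ifs with h
  · rw [LinearMap.toMatrix'_apply]
    exact (MD_ent D i j).trans h.1
  · exact MD_one hR i j

lemma MDm_det (R : ℕ) (D : E d →L[ℝ] E d) : (MDm R D).det ≠ 0 := by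
  unfold MDm
  split_ifs with h
  · rw [LinearMap.det_toMatrix']
    exact h.2
  · simp

lemma MDm_meas (R : ℕ) (i j : Fin d) : Measurable fun D : E d →L[ℝ] E d => MDm R D i j := by
  have e : (fun D : E d →L[ℝ] E d => MDm R D i j) = fun D =>
      if ‖D‖ ≤ R ∧ D.det ≠ 0 then D (Pi.single j 1) i else (1 : Mx d) i j := by
    funext D
    unfold MDm
    split_ifs
    · rw [LinearMap.toMatrix'_apply]; rfl
    · rfl
  rw [e]
  refine Measurable.ite ?_ (Continuous.measurable (by fun_prop)) measurable_const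
  exact (measurableSet_le continuous_norm.measurable measurable_const).inter
    ((ContinuousLinearMap.continuous_det.measurable (measurableSet_singleton 0)).compl)

lemma MD_meas {Z Y κ : Type} [MeasurableSpace Z] [MeasurableSpace Y] [MeasurableSpace κ]
    [Countable κ] [MeasurableSingletonClass κ] {f : κ → Z → Y} (hf : ∀ i, Measurable (f i))
    {a : Z → κ} (ha : Measurable a) : Measurable fun z => f (a z) z :=
  (measurable_from_prod_countable_right (f := fun p : κ × Z => f p.1 p.2) hf).comp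
    (ha.prodMk measurable_id)

lemma MD_meas2 {Z κ : Type} [MeasurableSpace Z] [MeasurableSpace κ] [Countable κ]
    [MeasurableSingletonClass κ] (R : ℕ) (F : κ → κ → E d → E d) {a b : Z → κ} {u : Z → E d}
    (ha : Measurable a) (hb : Measurable b) (hu : Measurable u) (i j : Fin d) :
    Measurable fun z => MDm R (fderiv ℝ (F (a z) (b z)) (u z)) i j := by
  have h1 : ∀ G : E d → E d, Measurable fun z => MDm R (fderiv ℝ G (u z)) i j := fun G =>
    (MDm_meas R i j).comp ((measurable_fderiv ℝ G).comp hu)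
  exact MD_meas (f := fun k z => MDm R (fderiv ℝ (F k (b z)) (u z)) i j)
    (fun k => MD_meas (f := fun l z => MDm R (fderiv ℝ (F k l) (u z)) i j) (fun l => h1 _) hb) ha

theorem flat_of_atl {d n R : ℕ} (hd : 0 < d) {Z : Type} [MeasurableSpace Z] {ν : Measure Z}
    {S : Z → Z} {P : Z → Bool} {c : Fin n → Z → E d} {s : Fin n → E d → Z} {a : Z → Fin n}
    {q : Z → Bool} (h : Atl d n R ν S P c s a q) : ∃ (R' : ℕ) (χ : Z → E d) (φ : E d → E d)
      (A : E d → Mx d) (Q : E d → Bool), Flat d R' ν S P χ φ A Q := by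
  have hR : (1 : ℝ) ≤ R := by exact_mod_cast h.one
  let o : Fin n → E d := fun i _ => 4 * R * (i : ℕ)
  let χ : Z → E d := fun z => c (a z) z + o (a z)
  have hχ : ∀ z, χ z = c (a z) z + o (a z) := fun z => rfl
  have hinj : Function.Injective χ := by
    intro z z' e
    have e0 : c (a z) z ⟨0, hd⟩ + 4 * R * ((a z : ℕ) : ℝ) =
        c (a z') z' ⟨0, hd⟩ + 4 * R * ((a z' : ℕ) : ℝ) := congrFun e ⟨0, hd⟩
    have b1 := abs_le.1 ((norm_le_pi_norm (c (a z) z) ⟨0, hd⟩).trans (h.bd z))
    have b2 := abs_le.1 ((norm_le_pi_norm (c (a z') z') ⟨0, hd⟩).trans (h.bd z'))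
    have ea : a z = a z' := by
      apply Fin.ext
      rcases lt_trichotomy (a z : ℕ) (a z') with hl | hl | hl
      · have : ((a z : ℕ) : ℝ) + 1 ≤ (a z' : ℕ) := by exact_mod_cast hl
        nlinarith
      · exact hl
      · have : ((a z' : ℕ) : ℝ) + 1 ≤ (a z : ℕ) := by exact_mod_cast hl
        nlinarith
    rw [hχ, hχ, ← ea, add_left_inj] at e
    rw [← h.inv z, e, ea, h.inv]
  let F : Fin n → Fin n → E d → E d := fun i j w => c j (S (s i w))
  let A0 : Z → Mx d := fun z => MDm R (fderiv ℝ (F (a z) (a (S z))) (c (a z) z))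
  let φ : E d → E d := Function.extend χ (fun z => χ (S z)) 0
  let A : E d → Mx d := Function.extend χ A0 1
  let Q : E d → Bool := Function.extend χ q fun _ => false
  have hφ : ∀ z, φ (χ z) = χ (S z) := fun z => hinj.extend_apply _ _ z
  have hA : ∀ z, A (χ z) = A0 z := fun z => hinj.extend_apply _ _ z
  have hQ : ∀ z, Q (χ z) = q z := fun z => hinj.extend_apply _ _ z
  have hn : (0 : ℝ) ≤ n := Nat.cast_nonneg n
  have hRR : ((R * (4 * n + 2) : ℕ) : ℝ) = R * (4 * n + 2) := by push_cast; ring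
  have hle : (R : ℝ) ≤ (R * (4 * n + 2) : ℕ) := by rw [hRR]; nlinarith
  have hbd : ∀ z, ‖χ z‖ ≤ (R * (4 * n + 2) : ℕ) := fun z => by
    have b1 : ‖o (a z)‖ ≤ 4 * R * n := by
      refine (pi_norm_le_iff_of_nonneg (by positivity)).2 fun _ => ?_
      have : ((a z : ℕ) : ℝ) ≤ n := by exact_mod_cast (a z).2.le
      change ‖(4 * R * ((a z : ℕ) : ℝ))‖ ≤ _
      rw [Real.norm_of_nonneg (by positivity)]
      exact mul_le_mul_of_nonneg_left this (by positivity)
    have b2 := h.bd z
    refine (norm_add_le _ _).trans ?_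
    rw [hRR]
    nlinarith
  have mcz : Measurable fun z => c (a z) z := MD_meas h.mc h.ma
  refine ⟨R * (4 * n + 2), χ, φ, A, Q, h.prob, h.mp, ?_, h.mP, ?_, fun i j => ?_, ?_, hbd,
    fun z => (hφ z).symm, fun t ht => ?_, fun v i j => ?_, fun z => ?_, ?_, fun ρ hρ => ?_⟩
  · exact h.one.trans (Nat.le_mul_of_pos_right _ (by omega))
  · exact mcz.add ((measurable_of_finite o).comp h.ma)
  · simp only [hA]
    exact MD_meas2 R F (b := fun z => a (S z)) h.ma (h.ma.comp h.mp.measurable) mcz i j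
  · simp only [hQ]
    exact h.mq
  · have hs : χ ⁻¹' t ⊆ ⋃ i, {z | a z = i} ∩ c i ⁻¹' ((fun v => v + o i) ⁻¹' t) := fun z hz =>
      Set.mem_iUnion.2 ⟨a z, rfl, hz⟩
    refine (measure_mono hs).trans ((measure_iUnion_fintype_le _ _).trans
      ((Finset.sum_le_sum fun i _ => h.dens i _ (measurable_add_const _ ht)).trans ?_))
    simp only [measure_preimage_add_right, Finset.sum_const, Finset.card_univ, Fintype.card_fin,
      nsmul_eq_mul]
    rw [← mul_assoc, ← Nat.cast_mul]
    exact mul_le_mul_left (Nat.cast_le.2 (by nlinarith)) _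
  · refine le_trans ?_ hle
    by_cases hv : ∃ z, χ z = v
    · obtain ⟨z, rfl⟩ := hv
      rw [hA]
      exact MDm_bd h.one _ i j
    · have : A v = 1 := Function.extend_apply' _ _ _ hv
      rw [this]
      exact MD_one h.one i j
  · rw [hA]
    exact MDm_det _ _
  · simp only [hQ]
    exact h.err
  · have hρ2 : (R : ℝ) * (2 * ρ) ≤ (R * (4 * n + 2) : ℕ) * ρ := by
      have : 0 ≤ (R : ℝ) * n * ρ := by positivity
      rw [hRR]; nlinarith
    refine le_trans (measure_mono ?_) ((h.loc (2 * ρ) (by positivity)).trans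
      (ENNReal.ofReal_le_ofReal hρ2))
    refine fun z hz hr => hz ?_
    have nw : ∀ v, v - o (a z) - c (a z) z = v - χ z := fun v => by rw [hχ]; abel
    have key : ∀ v, ‖v - χ z‖ ≤ 2 * ρ → χ (s (a z) (v - o (a z))) = v ∧
        φ v = F (a z) (a (S z)) (v - o (a z)) + o (a (S z)) ∧
        A v = LinearMap.toMatrix' (fderiv ℝ (F (a z) (a (S z))) (v - o (a z)) : E d →ₗ[ℝ] E d) := by
      intro v hv
      obtain ⟨r1, r2, r3, -, -, r6, r7, -⟩ := hr (v - o (a z)) (by rwa [nw])
      have e : χ (s (a z) (v - o (a z))) = v := by rw [hχ, r1, r2, sub_add_cancel]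
      refine ⟨e, ?_, ?_⟩
      · rw [← congrArg φ e, hφ, hχ, r3]
      · rw [← congrArg A e, hA]
        change MDm R (fderiv ℝ (F (a (s (a z) (v - o (a z)))) (a (S (s (a z) (v - o (a z))))))
          (c (a (s (a z) (v - o (a z)))) (s (a z) (v - o (a z))))) = _
        rw [r1, r2, r3]
        exact if_pos ⟨r6, r7⟩
    intro v hv
    have hv2 : ‖v - χ z‖ ≤ 2 * ρ := by linarith
    obtain ⟨k1, k2, k3⟩ := key v hv2
    obtain ⟨-, -, -, r4, r5, -, -, r8⟩ := hr (v - o (a z)) (by rwa [nw])
    refine ⟨?_, ?_, ?_, fun v' hv' i j => ?_⟩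
    · rw [← congrArg Q k1, hQ, hQ, r4]
    · rw [← congrArg φ k1, hφ]
      exact hbd _
    · have e1 : LinearMap.toContinuousLinearMap (Matrix.toLin' (A v)) =
          fderiv ℝ (F (a z) (a (S z))) (v - o (a z)) := by
        rw [k3, Matrix.toLin'_toMatrix']
        rfl
      rw [e1]
      have d1 : HasFDerivAt (fun w => F (a z) (a (S z)) (w - o (a z)) + o (a (S z)))
          (fderiv ℝ (F (a z) (a (S z))) (v - o (a z))) v := by
        have d2 : HasFDerivAt (F (a z) (a (S z))) (fderiv ℝ (F (a z) (a (S z))) (v - o (a z)))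
            (v - o (a z)) := r5.hasFDerivAt
        have d3 := d2.comp v ((hasFDerivAt_id v).sub_const (o (a z)))
        rw [ContinuousLinearMap.comp_id] at d3
        exact d3.add_const _
      refine d1.congr_of_eventuallyEq ?_
      have hb : Metric.closedBall (χ z) (2 * ρ) ∈ nhds v :=
        Metric.closedBall_mem_nhds_of_mem (by rw [Metric.mem_ball, dist_eq_norm]; linarith)
      filter_upwards [hb] with w hw
      exact (key w (by rwa [Metric.mem_closedBall, dist_eq_norm] at hw)).2.1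
    · have hv2' : ‖v' - χ z‖ ≤ 2 * ρ := by linarith
      have r9 := r8 (v' - o (a z)) (by rwa [nw])
      rw [sub_sub_sub_cancel_right] at r9
      rw [k3, (key v' hv2').2.2, LinearMap.toMatrix'_apply, LinearMap.toMatrix'_apply]
      refine le_trans (MD_ent (fderiv ℝ (F (a z) (a (S z))) (v - o (a z)) -
        fderiv ℝ (F (a z) (a (S z))) (v' - o (a z))) i j) (r9.trans ?_)
      exact mul_le_mul_of_nonneg_right hle (norm_nonneg _)

end Vale.Agent.P109N
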