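import Vale.Agent.P109N.Def2

namespace Vale.Agent.P109N

open MeasureTheory Matrix Manifold

variable {d : ℕ}

variable {H M : Type} [TopologicalSpace H] {I : ModelWithCorners ℝ (E d) H} [TopologicalSpace M]
  [ChartedSpace H M] [IsManifold I (⊤ : ℕ∞) M] [T2Space M] [CompactSpace M]
  [MeasurableSpace M] [BorelSpace M]


theorem dm_compact {x : M} (f : SmoothBumpFunction I x) : IsCompact (dm f) ∧ Convex ℝ (dm f) ∧
    dm f ⊆ (extChartAt I x).target :=
  ⟨(isCompact_closedBall _ _).inter_right I.isClosed_range,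
    (convex_closedBall _ _).inter I.convex_range,
    (Set.inter_subset_inter_left _ (Metric.closedBall_subset_closedBall f.rIn_lt_rOut.le)).trans
      f.closedBall_subset⟩

theorem cf_smooth {x : M} (f : SmoothBumpFunction I x) :
    ContMDiff I 𝓘(ℝ, E d) (⊤ : ℕ∞) (cf f) :=
  f.contMDiff_smul contMDiffOn_extChartAt

theorem chart_bd {F : Type} [NormedAddCommGroup F] [NormedSpace ℝ F] {x : M}
    (f : SmoothBumpFunction I x) {g : M → F} (hg : ContMDiff I 𝓘(ℝ, F) (⊤ : ℕ∞) g) : ∃ C : ℝ, 0 ≤ C ∧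
    (∀ v ∈ dm f, ∀ v' ∈ dm f,
      ‖g ((extChartAt I x).symm v) - g ((extChartAt I x).symm v')‖ ≤ C * ‖v - v'‖) ∧
    ∀ v ∈ dm f ∩ interior (Set.range I),
      DifferentiableAt ℝ (fun w => g ((extChartAt I x).symm w)) v ∧
      ‖fderiv ℝ (fun w => g ((extChartAt I x).symm w)) v‖ ≤ C ∧
      ∀ v' ∈ dm f ∩ interior (Set.range I), ‖fderiv ℝ (fun w => g ((extChartAt I x).symm w)) v -
        fderiv ℝ (fun w => g ((extChartAt I x).symm w)) v'‖ ≤ C * ‖v - v'‖ := by
  obtain ⟨hK, hc, hs⟩ := dm_compact f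
  have hT := uniqueDiffOn_extChartAt_target (I := I) x
  have hn : ∀ v ∈ dm f ∩ interior (Set.range I), (extChartAt I x).target ∈ nhds v := by
    intro v hv
    have h1 := extChartAt_target_mem_nhdsWithin_of_mem (hs hv.1)
    rwa [nhdsWithin_eq_nhds.2 (mem_interior_iff_mem_nhds.1 hv.2)] at h1
  have hG : ContDiffOn ℝ (⊤ : ℕ∞) (fun w => g ((extChartAt I x).symm w)) (extChartAt I x).target :=
    (hg.comp_contMDiffOn (contMDiffOn_extChartAt_symm x)).contDiffOn
  have hD := hG.fderivWithin (m := 1) hT (by norm_cast)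
  obtain ⟨K1, h1⟩ := (hG.mono hs).exists_lipschitzOnWith (by simp) hc hK
  obtain ⟨K2, h2⟩ := (hD.mono hs).exists_lipschitzOnWith (by simp) hc hK
  obtain ⟨K3, h3⟩ := hK.exists_bound_of_continuousOn (hD.continuousOn.mono hs)
  have p1 : (0 : ℝ) ≤ K1 := K1.2
  have p2 : (0 : ℝ) ≤ K2 := K2.2
  have p3 := abs_nonneg K3
  refine ⟨K1 + K2 + |K3|, by positivity, fun v hv v' hv' => ?_, fun v hv => ⟨?_, ?_, ?_⟩⟩
  · exact (h1.norm_sub_le hv hv').trans
      (mul_le_mul_of_nonneg_right (by linarith) (norm_nonneg _))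
  · exact (hG.contDiffAt (hn v hv)).differentiableAt (by simp)
  · have := h3 v hv.1
    rw [fderivWithin_of_mem_nhds (hn v hv)] at this
    linarith [le_abs_self K3]
  · intro v' hv'
    have := h2.norm_sub_le hv.1 hv'.1
    rw [fderivWithin_of_mem_nhds (hn v hv), fderivWithin_of_mem_nhds (hn v' hv')] at this
    exact this.trans (mul_le_mul_of_nonneg_right (by linarith) (norm_nonneg _))

end Vale.Agent.P109N
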