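import Vale.Agent.P109N.Def2
import Vale.Agent.P109N.MA

namespace Vale.Agent.P109N

open MeasureTheory Matrix Manifold

variable {d : ℕ}

variable {H M : Type} [TopologicalSpace H] {I : ModelWithCorners ℝ (E d) H} [TopologicalSpace M]
  [ChartedSpace H M] [IsManifold I (⊤ : ℕ∞) M] [T2Space M] [CompactSpace M]
  [MeasurableSpace M] [BorelSpace M]

theorem MU_one {x : M} (f : SmoothBumpFunction I x) {z : M} (hz : z ∈ (extChartAt I x).source)
    (h : ‖extChartAt I x z - extChartAt I x x‖ ≤ f.rIn) :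
    uf f z = ‖extChartAt I x z - extChartAt I x x‖ ∧ cf f z = extChartAt I x z := by
  have h1 : f z = 1 := f.one_of_dist_le (by rwa [extChartAt_source] at hz) (by rwa [dist_eq_norm])
  rw [uf, cf, h1, one_smul, one_smul, sub_self, mul_zero, add_zero]
  exact ⟨rfl, rfl⟩

theorem MU_eq {x : M} (f : SmoothBumpFunction I x) {z : M} (h : uf f z < f.rIn) :
    z ∈ (extChartAt I x).source ∧ uf f z = ‖extChartAt I x z - extChartAt I x x‖ ∧
      cf f z = extChartAt I x z := by
  have hz : z ∈ (extChartAt I x).source := by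
    by_contra hz
    have h0 : f z = 0 := by
      by_contra h0
      exact hz (by rw [extChartAt_source]; exact f.support_subset_source h0)
    rw [uf, h0, zero_smul, norm_zero, sub_zero, mul_one, zero_add] at h
    exact lt_irrefl _ h
  refine ⟨hz, MU_one f hz ?_⟩
  by_contra h1
  rw [uf, norm_smul, Real.norm_of_nonneg f.nonneg] at h
  have h2 := mul_le_mul_of_nonneg_left (not_le.1 h1).le (f.nonneg (x := z))
  linarith

theorem uf_le {x : M} (f : SmoothBumpFunction I x) {t : ℝ} (ht : t < f.rIn) (z : M) :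
    uf f z ≤ t ↔ z ∈ (extChartAt I x).source ∧ ‖extChartAt I x z - extChartAt I x x‖ ≤ t := by
  refine ⟨fun h => ?_, fun h => ?_⟩
  · obtain ⟨h1, h2, -⟩ := MU_eq f (h.trans_lt ht)
    exact ⟨h1, h2 ▸ h⟩
  · rw [(MU_one f h.1 (h.2.trans ht.le)).1]
    exact h.2

theorem uf_eq {x : M} (f : SmoothBumpFunction I x) {z : M} (h : uf f z < f.rIn) :
    z ∈ (extChartAt I x).source ∧ uf f z = ‖extChartAt I x z - extChartAt I x x‖ ∧
      cf f z = extChartAt I x z := MU_eq f h

theorem MU_vf {x : M} (f : SmoothBumpFunction I x) : ContMDiff I 𝓘(ℝ, E d) (⊤ : ℕ∞)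
    fun z => f z • (extChartAt I x z - extChartAt I x x) :=
  f.contMDiff_smul (contMDiffOn_extChartAt.sub contMDiffOn_const)

theorem uf_cont {x : M} (f : SmoothBumpFunction I x) : Continuous (uf f) :=
  (MU_vf f).continuous.norm.add (continuous_const.mul (continuous_const.sub f.continuous))

theorem uf_lip {x y : M} (f : SmoothBumpFunction I x) (f' : SmoothBumpFunction I y) {g : M → M}
    (hg : ContMDiff I I (⊤ : ℕ∞) g) : ∃ C : ℝ, 0 ≤ C ∧ ∀ v ∈ dm f, ∀ v' ∈ dm f,
      |uf f' (g ((extChartAt I x).symm v)) - uf f' (g ((extChartAt I x).symm v'))| ≤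
        C * ‖v - v'‖ := by
  obtain ⟨C1, a1, b1, -⟩ := chart_bd f ((MU_vf f').comp hg)
  obtain ⟨C2, a2, b2, -⟩ := chart_bd f (f'.contMDiff.comp hg)
  have hr := f'.rIn_pos
  refine ⟨C1 + f'.rIn * C2, by positivity, fun v hv v' hv' => ?_⟩
  have h1 := (abs_norm_sub_norm_le _ _).trans (b1 v hv v' hv')
  have h2 := b2 v hv v' hv'
  simp only [Function.comp, Real.norm_eq_abs] at h1 h2
  have h3 := mul_le_mul_of_nonneg_left (abs_le.1 h2).1 hr.le
  have h4 := mul_le_mul_of_nonneg_left (abs_le.1 h2).2 hr.le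
  have h5 := abs_le.1 h1
  unfold uf
  refine abs_le.2 ⟨?_, ?_⟩ <;> linarith [h5.1, h5.2]

theorem det_ne {x y : M} (f : SmoothBumpFunction I x) (f' : SmoothBumpFunction I y)
    (S : Diffeomorph I I M M (⊤ : ℕ∞)) {v : E d} (hv : v ∈ dm f ∩ interior (Set.range I))
    (h0 : ‖v - extChartAt I x x‖ < f.rIn) (h : uf f' (S ((extChartAt I x).symm v)) < f'.rIn) :
    (fderiv ℝ (fun w => cf f' (S ((extChartAt I x).symm w))) v).det ≠ 0 := by
  obtain ⟨C, -, -, b1⟩ := chart_bd f ((cf_smooth f').comp S.contMDiff)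
  have hG : HasFDerivAt (fun w => cf f' (S ((extChartAt I x).symm w)))
      (fderiv ℝ (fun w => cf f' (S ((extChartAt I x).symm w))) v) v := (b1 v hv).1.hasFDerivAt
  have hG' : ContDiffOn ℝ (⊤ : ℕ∞) (fun u => cf f (S.symm ((extChartAt I y).symm u)))
      (extChartAt I y).target := contMDiffOn_iff_contDiffOn.1
    (((cf_smooth f).comp S.symm.contMDiff).comp_contMDiffOn (contMDiffOn_extChartAt_symm y))
  have e1 : ∀ᶠ w in nhds v, w ∈ dm f :=
    Filter.inter_mem (Metric.closedBall_mem_nhds_of_mem (mem_ball_iff_norm.2 h0))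
      (mem_interior_iff_mem_nhds.1 hv.2)
  have e2 : ∀ᶠ w in nhds v, w ∈ (extChartAt I x).target :=
    e1.mono fun w hw => (dm_compact f).2.2 hw
  have e3 : ∀ᶠ w in nhds v, uf f' (S ((extChartAt I x).symm w)) < f'.rIn :=
    (((uf_cont f').comp S.continuous).continuousAt.comp
      ((continuousOn_extChartAt_symm x).continuousAt e2)).eventually_lt continuousAt_const h
  have e4 : ∀ᶠ w in nhds v, cf f' (S ((extChartAt I x).symm w)) ∈ (extChartAt I y).target :=
    e3.mono fun w hw => by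
      obtain ⟨h1, -, h2⟩ := uf_eq f' hw
      rw [h2]
      exact (extChartAt I y).map_source h1
  have e5 : (fun u => cf f (S.symm ((extChartAt I y).symm u))) ∘
      (fun w => cf f' (S ((extChartAt I x).symm w))) =ᶠ[nhds v] id := by
    filter_upwards [e1, e2, e3] with w h1 h2 h3
    obtain ⟨h4, -, h5⟩ := uf_eq f' h3
    have h6 := (extChartAt I x).right_inv h2
    simp only [Function.comp, id]
    rw [h5, (extChartAt I y).left_inv h4, S.symm_apply_apply,
      (MU_one f ((extChartAt I x).map_target h2) ?_).2, h6]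
    rw [h6]
    exact mem_closedBall_iff_norm.1 h1.1
  have h7 := ((hG'.differentiableOn (by simp) _ e4.self_of_nhds).hasFDerivWithinAt).comp_hasFDerivAt
    v hG e4
  have h8 := h7.unique ((hasFDerivAt_id v).congr_of_eventuallyEq e5)
  have key : ∀ A B : E d →L[ℝ] E d, A.comp B = ContinuousLinearMap.id ℝ (E d) → B.det ≠ 0 := by
    intro A B hAB h10
    have h9 : (A : E d →ₗ[ℝ] E d) ∘ₗ (B : E d →ₗ[ℝ] E d) = LinearMap.id :=
      LinearMap.ext fun w => ContinuousLinearMap.ext_iff.1 hAB w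
    have h11 := congrArg LinearMap.det h9
    rw [LinearMap.det_comp, LinearMap.det_id, show LinearMap.det (B : E d →ₗ[ℝ] E d) = 0 from h10,
      mul_zero] at h11
    exact zero_ne_one h11
  exact key _ _ h8

end Vale.Agent.P109N
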