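import Vale.Agent.P109N.Def2
import Vale.Agent.P109N.MU

namespace Vale.Agent.P109N

open MeasureTheory Matrix Manifold

variable {d : ℕ}

variable {H M : Type} [TopologicalSpace H] {I : ModelWithCorners ℝ (E d) H} [TopologicalSpace M]
  [ChartedSpace H M] [IsManifold I (⊤ : ℕ∞) M] [T2Space M] [CompactSpace M]
  [MeasurableSpace M] [BorelSpace M]

theorem MC_self {x : M} (f : SmoothBumpFunction I x) : uf f x = 0 := by
  simp [uf, f.eq_one]

theorem MC_cover {K U : Set M} (hK : IsCompact K) (hU : IsOpen U) (hKU : K ⊆ U) :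
    ∃ (n : ℕ) (x : Fin n → M) (f : ∀ i, SmoothBumpFunction I (x i)),
      (∀ z ∈ K, ∃ i, uf (f i) z ≤ (f i).rIn / 2) ∧
      ∀ z i, uf (f i) z ≤ (f i).rIn / 2 → z ∈ U := by
  classical
  have h1 : ∀ x : K, ∃ f : SmoothBumpFunction I (x : M), tsupport f ⊆ U := fun x => by
    obtain ⟨f, -, hf⟩ := (SmoothBumpFunction.nhds_basis_tsupport (I := I) (x : M)).mem_iff.1
      (hU.mem_nhds (hKU x.2))
    exact ⟨f, hf⟩
  choose f hf using h1
  obtain ⟨t, ht⟩ := hK.elim_finite_subcover (fun x : K => {z | uf (f x) z < (f x).rIn / 2})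
    (fun x => isOpen_lt (uf_cont _) continuous_const) (fun z hz => Set.mem_iUnion.2 ⟨⟨z, hz⟩, by
      have := (f ⟨z, hz⟩).rIn_pos
      show uf (f ⟨z, hz⟩) (⟨z, hz⟩ : K) < _
      rw [MC_self]; linarith⟩)
  refine ⟨t.card, fun i => (t.equivFin.symm i).1, fun i => f (t.equivFin.symm i).1, ?_, ?_⟩
  · intro z hz
    obtain ⟨x, hx, hzx⟩ := Set.mem_iUnion₂.1 (ht hz)
    refine ⟨t.equivFin ⟨x, hx⟩, ?_⟩
    have : ∀ y : K, y = x → uf (f y) z ≤ (f y).rIn / 2 := by
      rintro y rfl; exact le_of_lt hzx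
    exact this _ (by simp)
  · intro z i hz
    refine hf (t.equivFin.symm i).1 (subset_tsupport _ ?_)
    intro h0
    have hp := (f (t.equivFin.symm i).1).rIn_pos
    simp only [uf, h0, zero_smul, norm_zero] at hz
    linarith

theorem exists_cover [Nonempty M] : ∃ (n : ℕ) (x : Fin n → M) (f : ∀ i, SmoothBumpFunction I (x i)),
    ∀ z, ∃ i, uf (f i) z ≤ (f i).rIn / 2 := by
  obtain ⟨n, x, f, h, -⟩ := MC_cover (I := I) (isCompact_univ (X := M)) isOpen_univ subset_rfl
  exact ⟨n, x, f, fun z => h z trivial⟩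

theorem exists_q (ν : Measure M) [IsProbabilityMeasure ν] [SecondCountableTopology M]
    {P : M → Bool} (hP : Measurable P) :
    ∃ (n : ℕ) (x : Fin n → M) (f : ∀ i, SmoothBumpFunction I (x i)) (q : M → Bool),
      (∀ z, q z = true ↔ ∃ i, uf (f i) z ≤ (f i).rIn / 2) ∧
      ν {z | P z ≠ q z} ≤ ENNReal.ofReal (1 / 1000) := by
  classical
  have : TopologicalSpace.MetrizableSpace M := inferInstance
  have hA : MeasurableSet (P ⁻¹' {true}) := hP (measurableSet_singleton _)
  have he : ENNReal.ofReal (1 / 2000) ≠ 0 := by simp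
  obtain ⟨K, hKA, hK, h1⟩ := hA.exists_isClosed_diff_lt (measure_ne_top ν _) he
  obtain ⟨U, hAU, hU, -, h2⟩ := hA.exists_isOpen_diff_lt (measure_ne_top ν _) he
  obtain ⟨n, x, f, ha, hb⟩ := MC_cover (I := I) hK.isCompact hU (hKA.trans hAU)
  refine ⟨n, x, f, fun z => decide (∃ i, uf (f i) z ≤ (f i).rIn / 2), fun z => by simp, ?_⟩
  have hs : {z | P z ≠ decide (∃ i, uf (f i) z ≤ (f i).rIn / 2)} ⊆
      (P ⁻¹' {true} \ K) ∪ (U \ P ⁻¹' {true}) := by
    intro z hz
    by_cases hz' : ∃ i, uf (f i) z ≤ (f i).rIn / 2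
    · right
      obtain ⟨i, hi⟩ := id hz'
      refine ⟨hb z i hi, fun h => hz ?_⟩
      simpa [hz'] using h
    · left
      refine ⟨?_, fun h => hz' (ha z h)⟩
      simpa [hz'] using hz
  refine (measure_mono hs).trans ((measure_union_le _ _).trans ((add_le_add h1.le h2.le).trans ?_))
  rw [← ENNReal.ofReal_add (by norm_num) (by norm_num)]
  norm_num

theorem dim_zero (I : ModelWithCorners ℝ (E 0) H) : Finite M := by
  have : Subsingleton H := I.injective.subsingleton
  have : DiscreteTopology M := by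
    refine discreteTopology_iff_isOpen_singleton.2 fun x => ?_
    have : (chartAt H x).source = {x} := by
      refine Set.eq_singleton_iff_unique_mem.2 ⟨mem_chart_source H x, fun y hy => ?_⟩
      exact (chartAt H x).injOn hy (mem_chart_source H x) (Subsingleton.elim _ _)
    rw [← this]
    exact (chartAt H x).open_source
  exact finite_of_compact_of_discrete

end Vale.Agent.P109N
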