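import Vale.Agent.P109N.Def2

namespace Vale.Agent.P109N

open MeasureTheory Matrix Manifold

variable {d : ℕ}

theorem mb_box (p : E d) (r a : ℝ) (i : Fin d) {ρ : ℝ} (hρ : 0 < ρ) :
    volume {v : E d | ‖v - p‖ ≤ r ∧ |v i - a| ≤ ρ} ≤
      ENNReal.ofReal (2 * (2 * |r|) ^ (d - 1) * ρ) := by
  have hsub : {v : E d | ‖v - p‖ ≤ r ∧ |v i - a| ≤ ρ} ⊆
      Set.Icc (fun j => if j = i then a - ρ else p j - |r|)
        (fun j => if j = i then a + ρ else p j + |r|) := by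
    rintro v ⟨h1, h2⟩
    have h3 : ∀ j, |v j - p j| ≤ |r| := fun j =>
      ((norm_le_pi_norm (v - p) j).trans h1).trans (le_abs_self r)
    constructor
    · intro j
      dsimp only
      split_ifs with h
      · subst h; linarith [(abs_le.1 h2).1]
      · linarith [(abs_le.1 (h3 j)).1]
    · intro j
      dsimp only
      split_ifs with h
      · subst h; linarith [(abs_le.1 h2).2]
      · linarith [(abs_le.1 (h3 j)).2]
  refine (measure_mono hsub).trans (le_of_eq ?_)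
  rw [Real.volume_Icc_pi, ← Finset.mul_prod_erase _ _ (Finset.mem_univ i),
    Finset.prod_congr rfl (g := fun _ => ENNReal.ofReal (2 * |r|)) fun j hj => by
      rw [if_neg (Finset.ne_of_mem_erase hj), if_neg (Finset.ne_of_mem_erase hj)]
      congr 1
      ring,
    Finset.prod_const, Finset.card_erase_of_mem (Finset.mem_univ i), Finset.card_univ,
    Fintype.card_fin, if_pos rfl, if_pos rfl, ← ENNReal.ofReal_pow (by positivity),
    ← ENNReal.ofReal_mul (by linarith)]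
  congr 1
  ring

theorem shell_vol (p : E d) (t : ℝ) (hd : 0 < d) : ∃ C : ℝ, 0 ≤ C ∧ ∀ ρ : ℝ, 0 < ρ → ρ ≤ 1 →
    volume {v : E d | |‖v - p‖ - t| ≤ ρ} ≤ ENNReal.ofReal (C * ρ) := by
  refine ⟨d * (2 * (2 * (2 * |(|t| + 1)|) ^ (d - 1))), by positivity, fun ρ hρ h1 => ?_⟩
  have : Nonempty (Fin d) := ⟨⟨0, hd⟩⟩
  have hsub : {v : E d | |‖v - p‖ - t| ≤ ρ} ⊆ ⋃ i : Fin d,
      ({v : E d | ‖v - p‖ ≤ |t| + 1 ∧ |v i - (p i + t)| ≤ ρ} ∪
        {v : E d | ‖v - p‖ ≤ |t| + 1 ∧ |v i - (p i - t)| ≤ ρ}) := by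
    intro v hv
    obtain ⟨i, hi⟩ := Finite.exists_max fun j => |v j - p j|
    have e : ‖v - p‖ = |v i - p i| :=
      le_antisymm ((pi_norm_le_iff_of_nonneg (abs_nonneg _)).2 hi) (norm_le_pi_norm (v - p) i)
    have h2 := abs_le.1 (show |‖v - p‖ - t| ≤ ρ from hv)
    have h3 : ‖v - p‖ ≤ |t| + 1 := by linarith [le_abs_self t]
    refine Set.mem_iUnion.2 ⟨i, ?_⟩
    rw [e] at h2
    rcases abs_cases (v i - p i) with h4 | h4
    · exact Or.inl ⟨h3, abs_le.2 ⟨by linarith, by linarith⟩⟩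
    · exact Or.inr ⟨h3, abs_le.2 ⟨by linarith, by linarith⟩⟩
  refine (measure_mono hsub).trans ((measure_iUnion_fintype_le _ _).trans ?_)
  refine (Finset.sum_le_sum fun i _ => (measure_union_le _ _).trans
    (add_le_add (mb_box p _ _ i hρ) (mb_box p _ _ i hρ))).trans (le_of_eq ?_)
  rw [Finset.sum_const, Finset.card_univ, Fintype.card_fin, nsmul_eq_mul,
    ← ENNReal.ofReal_add (by positivity) (by positivity), ← ENNReal.ofReal_natCast,
    ← ENNReal.ofReal_mul (by positivity)]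
  congr 1
  ring

theorem strip_vol (p : E d) (r : ℝ) (i : Fin d) : ∃ C : ℝ, 0 ≤ C ∧ ∀ ρ : ℝ, 0 < ρ →
    volume {v : E d | ‖v - p‖ ≤ r ∧ |v i| ≤ ρ} ≤ ENNReal.ofReal (C * ρ) :=
  ⟨2 * (2 * |r|) ^ (d - 1), by positivity, fun ρ hρ => by simpa using mb_box p r 0 i hρ⟩

end Vale.Agent.P109N
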