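import Vale.Agent.P109N.Def2
import Vale.Agent.P109N.MU
import Vale.Agent.P109N.MB

namespace Vale.Agent.P109N

open MeasureTheory Matrix Manifold

variable {d : ℕ}

variable {H M : Type} [TopologicalSpace H] {I : ModelWithCorners ℝ (E d) H} [TopologicalSpace M]
  [ChartedSpace H M] [IsManifold I (⊤ : ℕ∞) M] [T2Space M] [CompactSpace M]
  [MeasurableSpace M] [BorelSpace M]


theorem dens_bd {ν : Measure M} (hν : SmoothVol I ν) {x : M} (f : SmoothBumpFunction I x) :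
    ∃ C : ℝ, 0 ≤ C ∧ ∀ t : Set (E d), MeasurableSet t →
      ν {z | uf f z < f.rIn ∧ cf f z ∈ t} ≤ ENNReal.ofReal C * volume t := by
  obtain ⟨g, hg, -, hs⟩ := hν x
  obtain ⟨hc, -, hsub⟩ := dm_compact f
  obtain ⟨C, hC⟩ := hc.bddAbove_image (hg.continuousOn.mono hsub)
  refine ⟨max C 0, le_max_right _ _, fun t ht => ?_⟩
  have hm : MeasurableSet (t ∩ dm f) := ht.inter hc.isClosed.measurableSet
  have h1 : {z | uf f z < f.rIn ∧ cf f z ∈ t} ⊆
      (extChartAt I x).source ∩ extChartAt I x ⁻¹' (t ∩ dm f) := by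
    rintro z ⟨hz, hzt⟩
    obtain ⟨a, b, c⟩ := uf_eq f hz
    refine ⟨a, ?_, ?_, ?_⟩
    · rw [← c]; exact hzt
    · rw [Metric.mem_closedBall, dist_eq_norm, ← b]; exact hz.le
    · exact extChartAt_target_subset_range x ((extChartAt I x).map_source a)
  calc ν _ ≤ ν _ := measure_mono h1
    _ = ∫⁻ v in t ∩ dm f, ENNReal.ofReal (g v) := hs _ hm (Set.inter_subset_right.trans hsub)
    _ ≤ ∫⁻ _ in t ∩ dm f, ENNReal.ofReal (max C 0) := setLIntegral_mono' hm fun v hv =>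
        ENNReal.ofReal_le_ofReal ((hC ⟨v, hv.2, rfl⟩).trans (le_max_left _ _))
    _ = ENNReal.ofReal (max C 0) * volume (t ∩ dm f) := by rw [setLIntegral_const]
    _ ≤ _ := mul_le_mul_right (measure_mono Set.inter_subset_left) _

theorem shell_bd (hd : 0 < d) {ν : Measure M} [IsProbabilityMeasure ν] (hν : SmoothVol I ν) {x : M}
    (f : SmoothBumpFunction I x) {t : ℝ} (ht : t < f.rIn) : ∃ C : ℝ, 0 ≤ C ∧ ∀ ρ : ℝ, 0 < ρ →
      ν {z | |uf f z - t| ≤ ρ} ≤ ENNReal.ofReal (C * ρ) := by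
  obtain ⟨C1, h1, H1⟩ := dens_bd hν f
  obtain ⟨C2, h2, H2⟩ := shell_vol (extChartAt I x x) t hd
  obtain ⟨r, hr, hr1, hr2⟩ : ∃ r : ℝ, 0 < r ∧ r ≤ 1 ∧ r ≤ f.rIn - t :=
    ⟨min 1 (f.rIn - t), lt_min one_pos (by linarith), min_le_left _ _, min_le_right _ _⟩
  have h12 : 0 ≤ C1 * C2 := mul_nonneg h1 h2
  have hri : 0 < r⁻¹ := inv_pos.2 hr
  refine ⟨C1 * C2 + r⁻¹, by linarith, fun ρ hρ => ?_⟩
  rcases lt_or_ge ρ r with h | h
  · have hm : MeasurableSet {v : E d | |‖v - extChartAt I x x‖ - t| ≤ ρ} :=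
      (isClosed_le (by fun_prop) continuous_const).measurableSet
    have hsub : {z | |uf f z - t| ≤ ρ} ⊆ {z | uf f z < f.rIn ∧
        cf f z ∈ {v : E d | |‖v - extChartAt I x x‖ - t| ≤ ρ}} := by
      intro z hz
      have hz' : |uf f z - t| ≤ ρ := hz
      have hlt : uf f z < f.rIn := by
        have := (abs_le.1 hz').2
        linarith
      obtain ⟨-, b, c⟩ := uf_eq f hlt
      refine ⟨hlt, ?_⟩
      show |‖cf f z - extChartAt I x x‖ - t| ≤ ρ
      rw [c, ← b]; exact hz'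
    calc ν _ ≤ ν _ := measure_mono hsub
      _ ≤ _ := H1 _ hm
      _ ≤ ENNReal.ofReal C1 * ENNReal.ofReal (C2 * ρ) :=
          mul_le_mul_right (H2 ρ hρ (by linarith)) _
      _ = ENNReal.ofReal (C1 * (C2 * ρ)) := (ENNReal.ofReal_mul h1).symm
      _ ≤ _ := ENNReal.ofReal_le_ofReal (by nlinarith [mul_pos hri hρ])
  · have hk : 1 ≤ r⁻¹ * ρ := by
      rw [← div_eq_inv_mul, one_le_div hr]; exact h
    calc ν _ ≤ 1 := prob_le_one
      _ = ENNReal.ofReal 1 := ENNReal.ofReal_one.symm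
      _ ≤ _ := ENNReal.ofReal_le_ofReal (by nlinarith [mul_nonneg h12 hρ.le])

theorem bdry_bd (hI : HS I) {ν : Measure M} [IsProbabilityMeasure ν] (hν : SmoothVol I ν) {x : M}
    (f : SmoothBumpFunction I x) : ∃ C : ℝ, 0 ≤ C ∧ ∀ ρ : ℝ, 0 < ρ →
      ν {z | uf f z < f.rIn ∧ ¬Metric.closedBall (cf f z) ρ ⊆ interior (Set.range I)} ≤
        ENNReal.ofReal (C * ρ) := by
  rcases hI with hI | ⟨i, hI⟩
  · refine ⟨0, le_rfl, fun ρ _ => ?_⟩
    have : {z | uf f z < f.rIn ∧ ¬Metric.closedBall (cf f z) ρ ⊆ interior (Set.range I)} = ∅ := by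
      refine Set.eq_empty_of_forall_notMem fun z hz => hz.2 ?_
      rw [hI, interior_univ]; exact Set.subset_univ _
    rw [this, measure_empty]; exact zero_le
  obtain ⟨C1, h1, H1⟩ := dens_bd hν f
  obtain ⟨C2, h2, H2⟩ := strip_vol (extChartAt I x x) f.rIn i
  refine ⟨C1 * C2, mul_nonneg h1 h2, fun ρ hρ => ?_⟩
  have hm : MeasurableSet {v : E d | ‖v - extChartAt I x x‖ ≤ f.rIn ∧ |v i| ≤ ρ} := by
    have a1 : IsClosed {v : E d | ‖v - extChartAt I x x‖ ≤ f.rIn} :=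
      isClosed_le (by fun_prop) continuous_const
    have a2 : IsClosed {v : E d | |v i| ≤ ρ} := isClosed_le (by fun_prop) continuous_const
    exact (a1.inter a2).measurableSet
  have hint : {v : E d | 0 < v i} ⊆ interior (Set.range I) := by
    rw [hI]
    exact interior_maximal (fun v (hv : 0 < v i) => hv.le)
      (isOpen_lt continuous_const (continuous_apply i))
  have hsub : {z | uf f z < f.rIn ∧ ¬Metric.closedBall (cf f z) ρ ⊆ interior (Set.range I)} ⊆
      {z | uf f z < f.rIn ∧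
        cf f z ∈ {v : E d | ‖v - extChartAt I x x‖ ≤ f.rIn ∧ |v i| ≤ ρ}} := by
    rintro z ⟨hz, hz'⟩
    obtain ⟨a, b, c⟩ := uf_eq f hz
    have hr : cf f z ∈ Set.range I := by
      rw [c]; exact extChartAt_target_subset_range x ((extChartAt I x).map_source a)
    rw [hI] at hr
    have h0 : 0 ≤ cf f z i := hr
    refine ⟨hz, ?_, ?_⟩
    · rw [c, ← b]; exact hz.le
    · rw [abs_of_nonneg h0]
      by_contra hn
      refine hz' fun w hw => hint ?_
      have h3 : dist (w i) (cf f z i) ≤ ρ := (dist_le_pi_dist w (cf f z) i).trans hw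
      rw [Real.dist_eq] at h3
      have h4 := (abs_le.1 h3).1
      show 0 < w i
      linarith [not_le.1 hn]
  calc ν _ ≤ ν _ := measure_mono hsub
    _ ≤ _ := H1 _ hm
    _ ≤ ENNReal.ofReal C1 * ENNReal.ofReal (C2 * ρ) := mul_le_mul_right (H2 ρ hρ) _
    _ = ENNReal.ofReal (C1 * (C2 * ρ)) := (ENNReal.ofReal_mul h1).symm
    _ = _ := by rw [mul_assoc]

end Vale.Agent.P109N
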