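import Vale.Agent.P109N.Def2
import Vale.Agent.P109N.MS
import Vale.Agent.P109N.MC

namespace Vale.Agent.P109N

open MeasureTheory Matrix Manifold

variable {d : ℕ}

variable {H M : Type} [TopologicalSpace H] {I : ModelWithCorners ℝ (E d) H} [TopologicalSpace M]
  [ChartedSpace H M] [IsManifold I (⊤ : ℕ∞) M] [T2Space M] [CompactSpace M]
  [MeasurableSpace M] [BorelSpace M]


theorem me_test {a b t r : ℝ} (h : |a - b| ≤ r) (h' : ¬|b - t| ≤ r) : a ≤ t ↔ b ≤ t := by
  rw [abs_le] at h h'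
  constructor <;> intro h1 <;> by_contra h2 <;> exact h' ⟨by linarith, by linarith⟩

theorem me_union {Z ι : Type} [MeasurableSpace Z] [Fintype ι] (ν : Measure Z) (A : ι → Set Z)
    {b : ℝ} (h : ∀ i, ν (A i) ≤ ENNReal.ofReal b) :
    ν (⋃ i, A i) ≤ ENNReal.ofReal (Fintype.card ι * b) := by
  refine (measure_iUnion_fintype_le ν A).trans
    ((Finset.sum_le_card_nsmul _ _ _ fun i _ => h i).trans (le_of_eq ?_))
  rw [Finset.card_univ, nsmul_eq_mul, ENNReal.ofReal_mul (Nat.cast_nonneg _),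
    ENNReal.ofReal_natCast]

theorem exists_atl (hd : 0 < d) (hI : HS I) [SecondCountableTopology M] {ν : Measure M}
    [IsProbabilityMeasure ν] (hν : SmoothVol I ν) (S : Diffeomorph I I M M (⊤ : ℕ∞))
    (hS : MeasurePreserving S ν ν) {P : M → Bool} (hP : Measurable P) :
    ∃ (n R : ℕ) (c : Fin n → M → E d) (s : Fin n → E d → M) (a : M → Fin n) (q : M → Bool),
      Atl d n R ν S P c s a q := by
  classical
  haveI : Nonempty M := nonempty_of_isProbabilityMeasure ν
  obtain ⟨n, x, f, hcov⟩ := exists_cover (I := I) (M := M)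
  obtain ⟨n', x', f', q, hq, herr⟩ := exists_q (I := I) ν hP
  have hm : ∀ {y : M} (g : SmoothBumpFunction I y) (t : ℝ), MeasurableSet {z | uf g z ≤ t} :=
    fun g t => measurableSet_le (uf_cont g).measurable measurable_const
  haveI : Nonempty (Fin n) := ⟨(hcov (Classical.arbitrary M)).choose⟩
  let g : (Fin n → Bool) → Fin n := fun τ => Classical.epsilon fun i => τ i = true
  let a : M → Fin n := fun z => g fun i => decide (uf (f i) z ≤ (f i).rIn / 2)
  have ha : ∀ z, uf (f (a z)) z ≤ (f (a z)).rIn / 2 := fun z => by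
    have := Classical.epsilon_spec (p := fun i => decide (uf (f i) z ≤ (f i).rIn / 2) = true)
      ((hcov z).imp fun i hi => decide_eq_true hi)
    exact of_decide_eq_true this
  have hae : ∀ z z', (∀ i, uf (f i) z ≤ (f i).rIn / 2 ↔ uf (f i) z' ≤ (f i).rIn / 2) →
      a z = a z' := fun z z' h => congrArg g (funext fun i => decide_eq_decide.2 (h i))
  have hlt : ∀ {y : M} (g : SmoothBumpFunction I y), g.rIn / 2 < g.rIn := fun g =>
    half_lt_self g.rIn_pos
  choose C1 p1 h1 using fun p : Fin n × Fin n => uf_lip (f p.1) (f p.2) contMDiff_id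
  choose C2 p2 h2 using fun p : Fin n × Fin n => uf_lip (f p.1) (f p.2) S.contMDiff
  choose C3 p3 h3 using fun p : Fin n × Fin n' => uf_lip (f p.1) (f' p.2) contMDiff_id
  choose C4 p4 h4' h4 using fun p : Fin n × Fin n =>
    chart_bd (f p.1) ((cf_smooth (f p.2)).comp S.contMDiff)
  choose C5 p5 h5 using fun i => shell_bd hd hν (f i) (hlt (f i))
  choose C6 p6 h6 using fun i => shell_bd hd hν (f' i) (hlt (f' i))
  choose C7 p7 h7 using fun i => bdry_bd hI hν (f i)
  choose C8 p8 h8 using fun i => dens_bd hν (f i)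
  choose C9 h9 using fun i => isCompact_univ.exists_bound_of_continuousOn
    (cf_smooth (f i)).continuous.continuousOn
  obtain ⟨B1, b1⟩ := Finite.exists_le C1
  obtain ⟨B2, b2⟩ := Finite.exists_le C2
  obtain ⟨B3, b3⟩ := Finite.exists_le C3
  obtain ⟨B4, b4⟩ := Finite.exists_le C4
  obtain ⟨B5, b5⟩ := Finite.exists_le C5
  obtain ⟨B6, b6⟩ := Finite.exists_le C6
  obtain ⟨B7, b7⟩ := Finite.exists_le C7
  obtain ⟨B8, b8⟩ := Finite.exists_le C8
  obtain ⟨B9, b9⟩ := Finite.exists_le C9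
  obtain ⟨B0, b0⟩ := Finite.exists_le fun i => 2 / (f i).rIn
  obtain ⟨C, hC⟩ := Finite.exists_le ![B0, B1, B2, B3, B4, B5, B6, B7, B8, B9, 1]
  have c0 : B0 ≤ C := hC 0
  have c1 : B1 ≤ C := hC 1
  have c2 : B2 ≤ C := hC 2
  have c3 : B3 ≤ C := hC 3
  have c4 : B4 ≤ C := hC 4
  have c5 : B5 ≤ C := hC 5
  have c6 : B6 ≤ C := hC 6
  have c7 : B7 ≤ C := hC 7
  have c8 : B8 ≤ C := hC 8
  have c9 : B9 ≤ C := hC 9
  have c10 : 1 ≤ C := hC 10
  have Cp : 0 < C := by linarith
  obtain ⟨R, hR⟩ := exists_nat_ge (n * C + n * (C * C) + n * (C * C) + n' * (C * C) + C)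
  have hCR : C ≤ R := by
    have : 0 ≤ n * C + n * (C * C) + n * (C * C) + n' * (C * C) := by positivity
    linarith
  refine ⟨n, R, fun i => cf (f i), fun i => (extChartAt I (x i)).symm, a, q, inferInstance, hS,
    by exact_mod_cast c10.trans hCR, hP, fun i => (cf_smooth (f i)).continuous.measurable, ?_, ?_,
    fun z => ?_, fun z => ((h9 _ z trivial).trans (b9 _)).trans (c9.trans hCR), fun i t ht => ?_,
    herr, fun ρ hρ => ?_⟩
  · refine (measurable_of_finite g).comp (measurable_pi_lambda _ fun i => measurable_to_bool ?_)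
    have e : (fun z => decide (uf (f i) z ≤ (f i).rIn / 2)) ⁻¹' {true} =
        {z | uf (f i) z ≤ (f i).rIn / 2} := by ext z; simp
    rw [e]
    exact hm _ _
  · refine measurable_to_bool ?_
    have e : q ⁻¹' {true} = ⋃ i, {z | uf (f' i) z ≤ (f' i).rIn / 2} := by ext z; simp [hq]
    rw [e]
    exact MeasurableSet.iUnion fun i => hm _ _
  · obtain ⟨e1, -, e3⟩ := uf_eq (f (a z)) ((ha z).trans_lt (hlt _))
    simp only [e3]
    exact (extChartAt I (x (a z))).left_inv e1
  · refine (measure_mono ?_).trans ((h8 i t ht).trans (mul_le_mul_left ?_ _))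
    · rintro z ⟨rfl, hz⟩
      exact ⟨(ha z).trans_lt (hlt _), hz⟩
    · rw [← ENNReal.ofReal_natCast]
      exact ENNReal.ofReal_le_ofReal ((b8 i).trans (c8.trans hCR))
  by_cases hsm : 1 ≤ C * ρ
  · refine prob_le_one.trans (ENNReal.one_le_ofReal.2 (hsm.trans ?_))
    exact mul_le_mul_of_nonneg_right hCR hρ.le
  have hCρ : 0 < C * ρ := mul_pos Cp hρ
  have hsub : {z | ¬Reg R S (fun i => cf (f i)) (fun i => (extChartAt I (x i)).symm) a q ρ z} ⊆
      (((⋃ i, {z | uf (f i) z < (f i).rIn ∧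
        ¬Metric.closedBall (cf (f i) z) ρ ⊆ interior (Set.range I)}) ∪
      ⋃ i, {z | |uf (f i) z - (f i).rIn / 2| ≤ C * ρ}) ∪
      ⋃ i, S ⁻¹' {z | |uf (f i) z - (f i).rIn / 2| ≤ C * ρ}) ∪
      ⋃ i, {z | |uf (f' i) z - (f' i).rIn / 2| ≤ C * ρ} := by
    intro z hz
    by_contra hc
    simp only [Set.mem_union, Set.mem_iUnion, Set.mem_setOf_eq, Set.mem_preimage, not_or,
      not_exists, not_and, not_not] at hc
    obtain ⟨⟨⟨k1, k2⟩, k3⟩, k4⟩ := hc
    apply hz
    obtain ⟨e1, e2, e3⟩ := uf_eq (f (a z)) ((ha z).trans_lt (hlt _))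
    have k1' := k1 (a z) ((ha z).trans_lt (hlt _))
    have hρr : ρ < (f (a z)).rIn / 2 := by
      have h0 := (f (a z)).rIn_pos
      have h1 := (div_le_iff₀ h0).1 ((b0 (a z)).trans c0)
      by_contra hh
      have := mul_le_mul_of_nonneg_left (not_lt.1 hh) Cp.le
      linarith [not_le.1 hsm]
    have hin : ∀ v, ‖v - cf (f (a z)) z‖ ≤ ρ → (v ∈ dm (f (a z)) ∩ interior (Set.range I)) ∧
        ‖v - extChartAt I (x (a z)) (x (a z))‖ < (f (a z)).rIn := fun v hv => by
      have i1 : v ∈ interior (Set.range I) := k1' (mem_closedBall_iff_norm.2 hv)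
      have i2 : ‖v - extChartAt I (x (a z)) (x (a z))‖ < (f (a z)).rIn := by
        have := norm_sub_le_norm_sub_add_norm_sub v (cf (f (a z)) z)
          (extChartAt I (x (a z)) (x (a z)))
        have h2 := ha z
        rw [e2, ← e3] at h2
        linarith
      exact ⟨⟨⟨mem_closedBall_iff_norm.2 i2.le, interior_subset i1⟩, i1⟩, i2⟩
    have hu := (hin (cf (f (a z)) z) (by simpa using hρ.le)).1.1
    have hz' : (extChartAt I (x (a z))).symm (cf (f (a z)) z) = z := by
      rw [e3]; exact (extChartAt I (x (a z))).left_inv e1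
    intro v hv
    obtain ⟨i1, i2⟩ := hin v hv
    have hb : ∀ {c : ℝ}, c ≤ C → c * ‖v - cf (f (a z)) z‖ ≤ C * ρ := fun h =>
      mul_le_mul h hv (norm_nonneg _) Cp.le
    have t1 : ∀ j, uf (f j) ((extChartAt I (x (a z))).symm v) ≤ (f j).rIn / 2 ↔
        uf (f j) z ≤ (f j).rIn / 2 := fun j => by
      have := h1 (a z, j) v i1.1 _ hu
      simp only [id, hz'] at this
      exact me_test (this.trans (hb ((b1 _).trans c1))) (k2 j)
    have t2 : ∀ j, uf (f j) (S ((extChartAt I (x (a z))).symm v)) ≤ (f j).rIn / 2 ↔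
        uf (f j) (S z) ≤ (f j).rIn / 2 := fun j => by
      have := h2 (a z, j) v i1.1 _ hu
      simp only [hz'] at this
      exact me_test (this.trans (hb ((b2 _).trans c2))) (k3 j)
    have t3 : ∀ j, uf (f' j) ((extChartAt I (x (a z))).symm v) ≤ (f' j).rIn / 2 ↔
        uf (f' j) z ≤ (f' j).rIn / 2 := fun j => by
      have := h3 (a z, j) v i1.1 _ hu
      simp only [id, hz'] at this
      exact me_test (this.trans (hb ((b3 _).trans c3))) (k4 j)
    obtain ⟨d1, d2, d3⟩ := h4 (a z, a (S z)) v i1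
    have c4' := ((b4 (a z, a (S z))).trans c4).trans hCR
    refine ⟨hae _ _ t1, ?_, hae _ _ t2, ?_, d1, d2.trans c4',
      det_ne (f (a z)) (f (a (S z))) S i1 i2 (((t2 _).2 (ha _)).trans_lt (hlt _)),
      fun v' hv' => (d3 v' (hin v' hv').1).trans (mul_le_mul_of_nonneg_right c4' (norm_nonneg _))⟩
    · have := (uf_eq (f (a z)) (((t1 _).2 (ha z)).trans_lt (hlt _))).2.2
      simp only [this]
      exact (extChartAt I (x (a z))).right_inv ((dm_compact (f (a z))).2.2 i1.1)
    · rw [Bool.eq_iff_iff, hq, hq]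
      exact exists_congr t3
  have m1 := me_union ν _ (b := C * ρ) fun i => (h7 i ρ hρ).trans (ENNReal.ofReal_le_ofReal
    (mul_le_mul_of_nonneg_right ((b7 i).trans c7) hρ.le))
  have m0 : ∀ i, ν {z | |uf (f i) z - (f i).rIn / 2| ≤ C * ρ} ≤ ENNReal.ofReal (C * (C * ρ)) :=
    fun i => (h5 i _ hCρ).trans (ENNReal.ofReal_le_ofReal
      (mul_le_mul_of_nonneg_right ((b5 i).trans c5) hCρ.le))
  have m2 := me_union ν _ m0
  have m3 := me_union ν _ fun i => (hS.measure_preimage_le _).trans (m0 i)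
  have m4 := me_union ν _ (b := C * (C * ρ)) fun i => (h6 i _ hCρ).trans
    (ENNReal.ofReal_le_ofReal (mul_le_mul_of_nonneg_right ((b6 i).trans c6) hCρ.le))
  refine (measure_mono hsub).trans ((measure_union_le _ _).trans ((add_le_add
    ((measure_union_le _ _).trans (add_le_add ((measure_union_le _ _).trans (add_le_add m1 m2))
      m3)) m4).trans ?_))
  rw [← ENNReal.ofReal_add (by positivity) (by positivity),
    ← ENNReal.ofReal_add (by positivity) (by positivity),
    ← ENNReal.ofReal_add (by positivity) (by positivity)]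
  refine ENNReal.ofReal_le_ofReal ?_
  simp only [Fintype.card_fin]
  have := mul_le_mul_of_nonneg_right hR hρ.le
  nlinarith

end Vale.Agent.P109N
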