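import Vale.Agent.P109N.Def2
import Vale.Agent.P109N.MuA

namespace Vale.Agent.P109N

open MeasureTheory Matrix Manifold

variable {d : ℕ}

theorem MuB_clopen {ι X : Type} [MeasurableSpace X] [TopologicalSpace X] [OpensMeasurableSpace X]
    [HasOuterApproxClosed X] {L : Filter ι} [L.NeBot] {ms : ι → ProbabilityMeasure X}
    {m : ProbabilityMeasure X} (hm : Filter.Tendsto ms L (nhds m)) {s : Set X} (hs : IsClopen s)
    {c : ENNReal} (h : ∀ᶠ i in L, (ms i : Measure X) s = c) : (m : Measure X) s = c := by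
  have h1 := ENNReal.tendsto_coe.2
    (ProbabilityMeasure.tendsto_measure_of_isClopen_of_tendsto hm hs)
  simp only [ProbabilityMeasure.ennreal_coeFn_eq_coeFn_toMeasure] at h1
  exact tendsto_nhds_unique h1 (tendsto_const_nhds.congr' (h.mono fun i hi => hi.symm))

theorem joint_lim {ι : Type} (𝓤 : Ultrafilter ι) (a : Lev) (μs : ι → ProbabilityMeasure (ℤ → Bool))
    (μ : ProbabilityMeasure (ℤ → Bool)) (hμ : Filter.Tendsto μs 𝓤 (nhds μ))
    (h : ∀ᶠ i in 𝓤, ∃ m, Joint (μs i : Measure (ℤ → Bool)) shift (fun ω => ω 0) a m) :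
    ∃ m, Joint (μ : Measure (ℤ → Bool)) shift (fun ω => ω 0) a m := by
  classical
  obtain ⟨i0, m0, h0⟩ := h.exists
  have hex : ∀ i, ∃ m : ProbabilityMeasure ((ℤ → Bool) × a.I),
      (∃ m, Joint (μs i : Measure (ℤ → Bool)) shift (fun ω => ω 0) a m) →
        Joint (μs i : Measure (ℤ → Bool)) shift (fun ω => ω 0) a (m : Measure _) := by
    intro i
    by_cases hi : ∃ m, Joint (μs i : Measure (ℤ → Bool)) shift (fun ω => ω 0) a m
    · obtain ⟨m, hm⟩ := hi
      exact ⟨⟨m, hm.prob⟩, fun _ => hm⟩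
    · exact ⟨⟨m0, h0.prob⟩, fun h' => absurd h' hi⟩
  choose ms hms using hex
  have hJ : ∀ᶠ i in 𝓤, Joint (μs i : Measure (ℤ → Bool)) shift (fun ω => ω 0) a (ms i : Measure _) :=
    h.mono hms
  obtain ⟨m, -, hm⟩ := isCompact_univ.ultrafilter_le_nhds (𝓤.map ms) (by simp)
  have hm' : Filter.Tendsto ms 𝓤 (nhds m) := hm
  have hc : ∀ s : ℕ, Continuous fun p : (ℤ → Bool) × a.I => shift^[s] p.1 := fun s =>
    (shift_cont.iterate s).comp continuous_fst
  refine ⟨m, inferInstance, ?_, fun u => ?_, ?_⟩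
  · symm
    have : IsFiniteMeasure ((a.L : ENNReal) • (μ : Measure (ℤ → Bool))) :=
      Measure.smul_finite _ (ENNReal.natCast_ne_top _)
    apply ext_of_forall_lintegral_eq_of_IsFiniteMeasure
    intro f
    have fm : Measurable fun x => (f x : ENNReal) := f.measurable_coe_ennreal_comp
    have e : ∀ ν : Measure ((ℤ → Bool) × a.I),
        ∫⁻ x, f x ∂(∑ s ∈ Finset.range a.L, ν.map (fun p => shift^[s] p.1)) =
          ∑ s ∈ Finset.range a.L, ∫⁻ p, f.compContinuous ⟨_, hc s⟩ p ∂ν := by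
      intro ν
      rw [lintegral_finsetSum_measure]
      exact Finset.sum_congr rfl fun s _ => lintegral_map fm (hc s).measurable
    have t1 := ENNReal.Tendsto.const_mul (a := (a.L : ENNReal))
      (ProbabilityMeasure.tendsto_iff_forall_lintegral_tendsto.1 hμ f)
      (Or.inr (ENNReal.natCast_ne_top _))
    have t2 := tendsto_finsetSum (Finset.range a.L) fun s _ =>
      ProbabilityMeasure.tendsto_iff_forall_lintegral_tendsto.1 hm' (f.compContinuous ⟨_, hc s⟩)
    rw [e, lintegral_smul_measure, smul_eq_mul]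
    refine tendsto_nhds_unique t1 (t2.congr' (hJ.mono fun i hi => ?_))
    beta_reduce
    rw [← e, hi.avg, lintegral_smul_measure, smul_eq_mul]
  · exact MuB_clopen hm' ((isClopen_discrete {u}).preimage continuous_snd)
      (hJ.mono fun i hi => hi.unif u)
  · have hcl : IsClopen {p : (ℤ → Bool) × a.I | ¬ ∀ s < a.L, shift^[s] p.1 0 = a.w p.2 s} := by
      have e : {p : (ℤ → Bool) × a.I | ¬ ∀ s < a.L, shift^[s] p.1 0 = a.w p.2 s} =
          ⋃ s ∈ Finset.range a.L, (fun p : (ℤ → Bool) × a.I => (shift^[s] p.1 0, p.2)) ⁻¹'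
            {q : Bool × a.I | q.1 ≠ a.w q.2 s} := by
        ext p
        simp
      rw [e]
      exact isClopen_biUnion_finset fun s _ => (isClopen_discrete _).preimage
        (((continuous_apply 0).comp (hc s)).prodMk continuous_snd)
    exact ae_iff.2 (MuB_clopen hm' hcl (hJ.mono fun i hi => ae_iff.1 hi.name))

end Vale.Agent.P109N
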