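import Vale.Agent.P109N.Def2
import Vale.Agent.P109N.Down
import Vale.Agent.P109N.Mk
import Vale.Agent.P109N.MuB

namespace Vale.Agent.P109N

open MeasureTheory Matrix Manifold

variable {d : ℕ}

theorem exists_mu {a : ℕ → Lev} {k : ℕ → ℕ} {ψ : ∀ j, (a (j + 1)).I → ℕ → (a j).I}
    (h : Chain a k ψ) : ∃ μ : Measure (ℤ → Bool), IsProbabilityMeasure μ ∧
      MeasurePreserving shift μ μ ∧ ∀ j, μ (Om (a j))ᶜ = 0 ∧
      ∃ m, Joint μ shift (fun ω => ω 0) (a j) m := by
  choose ν h1 h2 h3 h4 using fun n => per_joint (a n) (h.step n).ok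
  have hS := shift_cont.measurable
  have key : ∀ n j, j ≤ n → ν n (Om (a j))ᶜ = 0 ∧
      ∃ m, Joint (ν n) shift (fun ω => ω 0) (a j) m := fun n j hj => by
    induction hj using Nat.decreasingInduction with
    | self => exact ⟨h3 n, h4 n⟩
    | of_succ j _ ih =>
      obtain ⟨i1, m, i2⟩ := ih
      exact ⟨measure_mono_null (Set.compl_subset_compl.2 (Om_sub ⟨_, _, h.step j⟩)) i1,
        _, i2.down hS (measurable_pi_apply 0) (h.step j)⟩
  let μs : ℕ → ProbabilityMeasure (ℤ → Bool) := fun n => ⟨ν n, h1 n⟩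
  obtain ⟨μ, -, hμ⟩ := isCompact_univ.ultrafilter_le_nhds ((Filter.hyperfilter ℕ).map μs) (by simp)
  have hμ' : Filter.Tendsto μs (Filter.hyperfilter ℕ) (nhds μ) := hμ
  have hev : ∀ j, ∀ᶠ n in (Filter.hyperfilter ℕ : Filter ℕ), j ≤ n := fun j =>
    Nat.hyperfilter_le_atTop (Filter.eventually_ge_atTop j)
  refine ⟨μ, μ.2, ⟨hS, ?_⟩, fun j => ⟨?_, joint_lim _ _ μs μ hμ'
    ((hev j).mono fun n hn => (key n j hn).2)⟩⟩
  · have e1 := ProbabilityMeasure.tendsto_map_of_tendsto_of_continuous μs μ hμ' shift_cont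
    have e2 : (fun n => (μs n).map shift_cont.measurable.aemeasurable) = μs :=
      funext fun n => Subtype.ext (h2 n).map_eq
    rw [e2] at e1
    have e3 : μ.map shift_cont.measurable.aemeasurable = μ := tendsto_nhds_unique e1 hμ'
    exact congrArg ProbabilityMeasure.toMeasure e3
  · have e1 := ProbabilityMeasure.le_liminf_measure_open_of_tendsto hμ'
      (Om_closed (a j)).isOpen_compl
    exact le_zero_iff.1 (e1.trans_eq ((Filter.liminf_congr (v := fun _ => 0)
      ((hev j).mono fun n hn => (key n j hn).1)).trans (Filter.liminf_const 0)))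

end Vale.Agent.P109N
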