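import Mathlib

/-! Statement vocabulary: smooth positive-volume models over Euclidean model spaces. -/

namespace Vale.Agent.P109E

open MeasureTheory Manifold

/-- in every chart `ν` has a smooth strictly positive density -/
def VolE {d : ℕ} {H M : Type} [TopologicalSpace H]
    (I : ModelWithCorners ℝ (EuclideanSpace ℝ (Fin d)) H) [TopologicalSpace M] [ChartedSpace H M]
    [MeasurableSpace M] (ν : Measure M) : Prop :=
  ∀ x : M, ∃ f : EuclideanSpace ℝ (Fin d) → ℝ, ContDiffOn ℝ (⊤ : ℕ∞) f (extChartAt I x).target ∧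
    (∀ v ∈ (extChartAt I x).target, 0 < f v) ∧
    ∀ s : Set (EuclideanSpace ℝ (Fin d)), MeasurableSet s → s ⊆ (extChartAt I x).target →
      ν ((extChartAt I x).source ∩ extChartAt I x ⁻¹' s) = ∫⁻ v in s, ENNReal.ofReal (f v)

/-- isomorphism modulo null sets of `(X, μ, T)` and `(Y, ν, S)` -/
def IsoAE {X Y : Type} [MeasurableSpace X] [MeasurableSpace Y] (μ : Measure X) (T : X → X)
    (ν : Measure Y) (S : Y → Y) : Prop :=
  ∃ (F : X → Y) (G : Y → X), AEMeasurable F μ ∧ AEMeasurable G ν ∧ μ.map F = ν ∧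
    (∀ᵐ x ∂μ, G (F x) = x) ∧ (∀ᵐ y ∂ν, F (G y) = y) ∧ ∀ᵐ x ∂μ, F (T x) = S (F x)

/-- `(X, μ, T)` has no smooth positive-volume model on a compact manifold modelled on `I` -/
def NoModel {X : Type} [MeasurableSpace X] (μ : Measure X) (T : X → X) {d : ℕ} {H : Type}
    [TopologicalSpace H] (I : ModelWithCorners ℝ (EuclideanSpace ℝ (Fin d)) H) : Prop :=
  ∀ (M : Type) [TopologicalSpace M] [ChartedSpace H M] [IsManifold I (⊤ : ℕ∞) M] [T2Space M]
    [CompactSpace M] [MeasurableSpace M] [BorelSpace M] (ν : Measure M) [IsProbabilityMeasure ν],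
    VolE I ν → ∀ S : Diffeomorph I I M M (⊤ : ℕ∞), MeasurePreserving S ν ν → ¬IsoAE μ T ν S

end Vale.Agent.P109E
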