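import Vale.Agent.P109N.Tr
import Vale.Agent.P109N.StE

namespace Vale.Agent.P109N

open MeasureTheory Matrix Manifold

theorem joint_trA {Z : Type} [MeasurableSpace Z] {μ : Measure (ℤ → Bool)} {ν : Measure Z}
    {S : Z → Z} (hμ : MeasurePreserving shift μ μ) (hS : Measurable S)
    (h : Vale.Agent.P109E.IsoAE μ shift ν S) :
    ∃ P : Z → Bool, Measurable P ∧ ∀ a : Lev, a.Ok → ∀ m, Joint μ shift (fun ω => ω 0) a m →
      ∃ m', Joint ν S P a m' := by
  obtain ⟨F0, G0, aF, aG, hmap0, hinv0, -, he0⟩ := h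
  obtain ⟨F, mF, eF⟩ := aF
  obtain ⟨G, mG, eG⟩ := aG
  have hmap : μ.map F = ν := (Measure.map_congr eF).symm.trans hmap0
  have hinv : ∀ᵐ x ∂μ, G (F x) = x := by
    have h1 : ∀ᵐ x ∂μ, G0 (F x) = G (F x) := ae_of_ae_map mF.aemeasurable (hmap ▸ eG)
    filter_upwards [h1, hinv0, eF] with x a1 a2 a3
    rw [← a1, ← a3, a2]
  have he : ∀ᵐ x ∂μ, F (shift x) = S (F x) := by
    filter_upwards [he0, eF, hμ.quasiMeasurePreserving.ae eF] with x a1 a2 a3
    rw [← a2, ← a3, a1]
  have hX : ∀ᵐ x ∂μ, ∀ s : ℕ, G (F (shift^[s] x)) = shift^[s] x ∧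
      S^[s] (F x) = F (shift^[s] x) := by
    filter_upwards [ae_all_iff.2 fun s : ℕ => (hμ.iterate s).quasiMeasurePreserving.ae hinv,
      ae_all_iff.2 fun s : ℕ => (hμ.iterate s).quasiMeasurePreserving.ae he] with x a1 a2 s
    refine ⟨a1 s, ?_⟩
    induction s with
    | zero => rfl
    | succ s ih => rw [Function.iterate_succ_apply', Function.iterate_succ_apply', ih, a2 s]
  have mP : Measurable fun y => G y 0 := (measurable_pi_apply 0).comp mG
  refine ⟨fun y => G y 0, mP, fun a ha m hm => ?_⟩
  have := hm.prob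
  have mm : Measurable (Prod.map F (id : a.I → a.I)) := mF.prodMap measurable_id
  have hae : ∀ᵐ p ∂m, ∀ s : ℕ, G (F (shift^[s] p.1)) = shift^[s] p.1 ∧
      S^[s] (F p.1) = F (shift^[s] p.1) := by
    have := hm.fst_le ha {x | ¬∀ s : ℕ, G (F (shift^[s] x)) = shift^[s] x ∧
      S^[s] (F x) = F (shift^[s] x)}
    rw [ae_iff.1 hX, mul_zero] at this
    exact le_zero_iff.1 this
  refine ⟨m.map (Prod.map F id), Measure.isProbabilityMeasure_map mm.aemeasurable, ?_, ?_, ?_⟩
  · have h1 : ∀ s : ℕ, (m.map (Prod.map F id)).map (fun p => S^[s] p.1) =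
        (m.map (fun p => shift^[s] p.1)).map F := by
      intro s
      have b1 : Measurable fun p : Z × a.I => S^[s] p.1 := (hS.iterate s).comp measurable_fst
      have b2 : Measurable fun p : (ℤ → Bool) × a.I => shift^[s] p.1 :=
        (shift_cont.measurable.iterate s).comp measurable_fst
      rw [Measure.map_map b1 mm, Measure.map_map mF b2]
      refine Measure.map_congr ?_
      filter_upwards [hae] with p hp
      exact (hp s).2
    simp only [h1]
    rw [← Measure.map_finset_sum mF.aemeasurable, hm.avg, Measure.map_smul, hmap]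
  · intro u
    have b : MeasurableSet {p : Z × a.I | p.2 = u} := measurable_snd (measurableSet_singleton u)
    rw [Measure.map_apply mm b]
    exact hm.unif u
  · refine (ae_map_iff mm.aemeasurable ?_).2 ?_
    · simp only [Set.setOf_forall]
      refine MeasurableSet.iInter fun s => MeasurableSet.iInter fun _ => ?_
      exact measurableSet_eq_fun (mP.comp ((hS.iterate s).comp measurable_fst))
        ((measurable_of_finite (fun u : a.I => a.w u s)).comp measurable_snd)
    · filter_upwards [hae, hm.name] with p hp hn s hs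
      show G (S^[s] (F p.1)) 0 = a.w p.2 s
      rw [(hp s).2, (hp s).1]
      exact hn s hs

end Vale.Agent.P109N
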