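import Vale.Agent.P109N.Seq
import Vale.Agent.P109N.Mu
import Vale.Agent.P109N.Erg
import Vale.Agent.P109N.TrA
import Vale.Agent.P109N.MD
import Vale.Agent.P109N.ME

namespace Vale.Agent.P109N

open MeasureTheory Manifold Vale.Agent.P109E

theorem euc_vol {d : ℕ} {H M : Type} [TopologicalSpace H]
    {I : ModelWithCorners ℝ (EuclideanSpace ℝ (Fin d)) H} [TopologicalSpace M] [ChartedSpace H M]
    [MeasurableSpace M] {ν : Measure M} (h : VolE I ν) :
    SmoothVol (I.transContinuousLinearEquiv (EuclideanSpace.equiv (Fin d) ℝ)) ν := fun x => by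
  obtain ⟨f, h1, h2, h3⟩ := h x
  rw [I.extChartAt_transContinuousLinearEquiv_target]
  refine ⟨fun v => f ((EuclideanSpace.equiv (Fin d) ℝ).symm v),
    h1.comp (EuclideanSpace.equiv (Fin d) ℝ).symm.contDiff.contDiffOn fun v hv => hv,
    fun v hv => h2 _ hv, fun s hs hst => ?_⟩
  have hm : MeasurePreserving (EuclideanSpace.equiv (Fin d) ℝ) volume volume :=
    PiLp.volume_preserving_ofLp (Fin d)
  have h4 := h3 (EuclideanSpace.equiv (Fin d) ℝ ⁻¹' s) (hm.measurable hs) fun v hv => by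
    simpa using hst hv
  have h5 := hm.setLIntegral_comp_preimage_emb
    (EuclideanSpace.equiv (Fin d) ℝ).toHomeomorph.measurableEmbedding
    (fun v => ENNReal.ofReal (f ((EuclideanSpace.equiv (Fin d) ℝ).symm v))) s
  simp only [ContinuousLinearEquiv.symm_apply_apply] at h5
  rw [← h5, ← h4, extChartAt_source, extChartAt_source]
  rfl

theorem exists_noModel : ∃ μ : Measure (ℤ → Bool), IsProbabilityMeasure μ ∧ (∀ ω, μ {ω} = 0) ∧
    Ergodic shift μ ∧ ∀ (d : ℕ) (H : Type) [TopologicalSpace H]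
      (I : ModelWithCorners ℝ (EuclideanSpace ℝ (Fin d)) H),
      (Set.range I = Set.univ ∨ ∃ i : Fin d, Set.range I = {v | 0 ≤ v i}) → NoModel μ shift I := by
  obtain ⟨a, k, ψ, hc, hG, hK⟩ := exists_chain
  obtain ⟨μ, hp, hm, hj⟩ := exists_mu hc
  have h0 := chain_noAtoms hG fun j => (hj j).2
  refine ⟨μ, hp, h0, chain_ergodic hc hm fun j => (hj j).1, ?_⟩
  intro d H _ I hI M _ _ _ _ _ _ _ ν _ hν S hS hiso
  have := I.secondCountableTopology
  have := ChartedSpace.secondCountable_of_sigmaCompact H M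
  let e := EuclideanSpace.equiv (Fin d) ℝ
  have hJ : HS (I.transContinuousLinearEquiv e) := by
    unfold HS
    rw [I.transContinuousLinearEquiv_range]
    rcases hI with hI | ⟨i, hI⟩
    · left
      rw [hI, Set.image_univ, e.surjective.range_eq]
    · refine Or.inr ⟨i, ?_⟩
      rw [hI, e.image_eq_preimage_symm]
      rfl
  let S' : Diffeomorph (I.transContinuousLinearEquiv e) (I.transContinuousLinearEquiv e) M M
      (⊤ : ℕ∞) := ⟨S.toEquiv, by simpa using S.contMDiff, by simpa using S.symm.contMDiff⟩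
  rcases Nat.eq_zero_or_pos d with rfl | hd
  · have : Finite M := dim_zero (H := H) (M := M) (I.transContinuousLinearEquiv e)
    obtain ⟨F, G, -, -, -, hb, -⟩ := hiso
    have h1 : μ (Set.range G) = 0 := by
      rw [← Set.biUnion_of_singleton (Set.range G)]
      exact (measure_biUnion_null_iff (Set.finite_range G).countable).2 fun ω _ => h0 ω
    have h2 : ∀ᵐ x ∂μ, False := by
      filter_upwards [hb, measure_eq_zero_iff_ae_notMem.1 h1] with x a1 a2
      exact a2 ⟨_, a1⟩
    simp [NeZero.ne μ] at h2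
  · obtain ⟨P, hP, hT⟩ := joint_trA hm hS.measurable hiso
    obtain ⟨n, R, c, s, b, q, hA⟩ := exists_atl hd hJ (euc_vol hν) S' hS hP
    obtain ⟨R', χ, φ, A, Q, hF⟩ := flat_of_atl hd hA
    obtain ⟨j, hj'⟩ := hK d R'
    obtain ⟨m, hm'⟩ := (hj j).2
    obtain ⟨m', hm''⟩ := hT _ (hG j).1.1 m hm'
    exact hj' M ν S' P χ φ A Q hF m' hm''

end Vale.Agent.P109N
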