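import Vale.Agent.P109N.Def2
import Vale.Agent.P109N.Mk

namespace Vale.Agent.P109N

open MeasureTheory Matrix Manifold

variable {d : ℕ}

theorem Had_half {V : Type} [Fintype V] (P : V → Prop) [DecidablePred P] (f : V → V)
    (hf : Function.Injective f) (h : ∀ y, ¬ P y → P (f y)) :
    Fintype.card V ≤ 2 * (Finset.univ.filter P).card := by
  have h1 := Finset.card_filter_add_card_filter_not (s := (Finset.univ : Finset V)) P
  have h2 : (Finset.univ.filter fun y => ¬ P y).card ≤ (Finset.univ.filter P).card :=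
    Finset.card_le_card_of_injOn f (fun y hy => by
      simp only [Finset.coe_filter, Finset.mem_univ, true_and, Set.mem_setOf_eq] at hy ⊢
      exact h y hy) hf.injOn
  rw [Finset.card_univ] at h1
  omega

theorem Had_z2 (p q s t : ZMod 2) (β β' : Bool) (h : s ≠ t)
    (h2 : ¬ (xor β (decide (p = 1)) ≠ xor β' (decide (q = 1)))) :
    xor β (decide (p + s = 1)) ≠ xor β' (decide (q + t = 1)) := by
  revert p q s t β β'
  decide

theorem Had_signs (ρ : ℕ) : ∃ σ : Fin (2 ^ ρ) → ℕ → Bool, ∀ u v : Fin (2 ^ ρ) × Bool, u ≠ v →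
    2 ^ ρ ≤ 2 * ∑ y ∈ Finset.range (2 ^ ρ),
      if xor u.2 (σ u.1 y) ≠ xor v.2 (σ v.1 y) then 1 else 0 := by
  have hc : Fintype.card (Fin ρ → ZMod 2) = 2 ^ ρ := by simp
  let e : Fin (2 ^ ρ) ≃ (Fin ρ → ZMod 2) := (Fintype.equivFinOfCardEq hc).symm
  refine ⟨fun j y => if h : y < 2 ^ ρ then decide (e j ⬝ᵥ e ⟨y, h⟩ = 1) else false,
    fun u v huv => ?_⟩
  rw [Finset.sum_range]
  simp only [Fin.is_lt, dif_pos, Fin.eta]
  rw [Equiv.sum_comp e fun y => if xor u.2 (decide (e u.1 ⬝ᵥ y = 1)) ≠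
    xor v.2 (decide (e v.1 ⬝ᵥ y = 1)) then 1 else 0, ← Finset.card_filter]
  refine hc.symm.le.trans ?_
  by_cases h : u.1 = v.1
  · have h2 : u.2 ≠ v.2 := fun h2 => huv (Prod.ext h h2)
    refine Had_half _ id Function.injective_id fun y hy => absurd ?_ hy
    rw [h]
    revert h2
    generalize decide (e v.1 ⬝ᵥ y = 1) = c
    cases u.2 <;> cases v.2 <;> cases c <;> simp
  · obtain ⟨i, hi⟩ := Function.ne_iff.1 (e.injective.ne h)
    refine Had_half _ (fun y => y + Pi.single i 1) (add_left_injective _) fun y hy => ?_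
    simp only [dotProduct_add, dotProduct_single, mul_one]
    exact Had_z2 _ _ _ _ _ _ hi hy

theorem Had_sum (N M : ℕ) (F : ℕ → ℕ → ℕ) :
    ∑ i ∈ Finset.range (N * M), F (i / M) (i % M) =
      ∑ y ∈ Finset.range N, ∑ m ∈ Finset.range M, F y m := by
  induction N with
  | zero => simp
  | succ N ih =>
    rw [Nat.succ_mul, Finset.sum_range_add, ih, Finset.sum_range_succ]
    congr 1
    refine Finset.sum_congr rfl fun m hm => ?_
    have hm' := Finset.mem_range.1 hm
    rw [mul_comm N M, Nat.mul_add_div (by omega), Nat.mul_add_mod, Nat.div_eq_of_lt hm',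
      Nat.mod_eq_of_lt hm', add_zero]

theorem Had_w (a : Lev) (β : Bool) (u : a.I) (s : ℕ) : a.w (a.flip β u) s = xor (a.w u s) β := by
  simp only [Lev.w, Lev.flip, Bool.xor_assoc]

theorem Had_flip (a : Lev) (β : Bool) (u v : a.I) : a.flip β u = v ↔ u = a.flip β v := by
  obtain ⟨u1, u2⟩ := u
  obtain ⟨v1, v2⟩ := v
  simp only [Lev.flip, Prod.mk.injEq]
  cases u2 <;> cases v2 <;> cases β <;> simp

theorem had (a : Lev) (ha : a.Ok) (r : ℕ) : ∃ b, St a b ∧ Good b ∧ r ≤ b.N := by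
  obtain ⟨σ, hσ⟩ := Had_signs (r + 200)
  have hN1 : 2 ^ 200 ≤ 2 ^ (r + 200) := Nat.pow_le_pow_right (by norm_num) (by omega)
  have hN2 : r ≤ 2 ^ (r + 200) := le_trans (by omega) (Nat.lt_two_pow_self).le
  have hN3 : 0 < 2 ^ (r + 200) := by positivity
  generalize 2 ^ (r + 200) = N at σ hσ hN1 hN2 hN3
  obtain ⟨M, hM⟩ : ∃ M, M = 2 * a.N := ⟨_, rfl⟩
  have hM2 : 2 ≤ M := by have := ha.1; omega
  have hL := ha.2
  have hc : Fintype.card a.I = M := by simp [hM, mul_comm]
  let e : Fin M ≃ a.I := (Fintype.equivFinOfCardEq hc).symm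
  let en : ℕ → a.I := fun m => if h : m < M then e ⟨m, h⟩ else e ⟨0, by omega⟩
  let ψ : Fin N × Bool → ℕ → a.I := fun u i => a.flip (xor u.2 (σ u.1 (i / M))) (en (i % M))
  let b : Lev := ⟨N, N * M * a.L, fun j t => a.w (ψ (j, false) (t / a.L)) (t % a.L)⟩
  have hb : b.Ok := ⟨hN3, by show 0 < N * M * a.L; positivity⟩
  have hw : ∀ (u : b.I) (t : ℕ), b.w u t =
      xor (a.w (en (t / a.L % M)) (t % a.L)) (xor u.2 (σ u.1 (t / a.L / M))) := by
    intro u t
    show xor (a.w (a.flip (xor false (σ u.1 (t / a.L / M))) (en (t / a.L % M))) (t % a.L)) u.2 = _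
    rw [Had_w, Bool.false_xor, Bool.xor_assoc, Bool.xor_comm u.2]
  refine ⟨b, ⟨N * M, ψ, ha, hb, ?_, rfl, ?_, ?_⟩, ⟨hb, hN1, ?_⟩, hN2⟩
  · exact le_trans hM2 (Nat.le_mul_of_pos_left _ hN3)
  · intro u i _ s hs
    rw [hw, mul_comm i a.L, Nat.mul_add_div hL, Nat.mul_add_mod, Nat.div_eq_of_lt hs,
      Nat.mod_eq_of_lt hs, add_zero]
    exact (Had_w a _ _ _).symm
  · intro u v
    rw [← hM, Finset.card_filter]
    congr 1
    refine (Had_sum N M fun y m =>
      if a.flip (xor u.2 (σ u.1 y)) (en m) = v then 1 else 0).trans ?_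
    have : ∀ β : Bool, ∑ m ∈ Finset.range M, (if a.flip β (en m) = v then 1 else 0) = 1 := by
      intro β
      rw [Finset.sum_range]
      simp only [en, Fin.is_lt, dif_pos, Fin.eta]
      rw [Equiv.sum_comp e fun w => if a.flip β w = v then 1 else 0]
      simp [Had_flip]
    simp [this]
  · intro u v huv
    have h1 := hσ u v huv
    have h2 := Had_sum N (M * a.L) fun y _ =>
      if xor u.2 (σ u.1 y) ≠ xor v.2 (σ v.1 y) then 1 else 0
    simp only [Finset.sum_const, Finset.card_range, smul_eq_mul, ← Finset.mul_sum] at h2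
    have h3 : ((Finset.range b.L).filter fun s => b.w u s ≠ b.w v s).card =
        ∑ i ∈ Finset.range (N * (M * a.L)),
          if xor u.2 (σ u.1 (i / (M * a.L))) ≠ xor v.2 (σ v.1 (i / (M * a.L))) then 1 else 0 := by
      rw [Finset.card_filter, ← mul_assoc]
      refine Finset.sum_congr rfl fun t _ => ?_
      rw [hw, hw, Nat.div_div_eq_div_mul, mul_comm a.L M]
      simp only [ne_eq, Bool.bne_right_inj]
    rw [h3, h2]
    show N * M * a.L ≤ _
    rw [mul_assoc, mul_comm N, mul_left_comm]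
    exact Nat.mul_le_mul_left _ h1

end Vale.Agent.P109N
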