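import Vale.Agent.P109N.St

/-! Kolmogorov–Sinai entropy, and its finiteness for shift-invariant measures on `{0,1}^ℤ`. -/

namespace Vale.Agent.P109N

open MeasureTheory Filter
open scoped ENNReal symmDiff

/-- Shannon entropy `H(P ∨ T⁻¹P ∨ ⋯ ∨ T^{-(n-1)}P)` of the join of the finite measurable
partition `P = {f⁻¹(a) : a ∈ Fin r}` along the first `n` iterates of `T`. -/
noncomputable def partEnt {X : Type} [MeasurableSpace X] (μ : Measure X) (T : X → X) {r : ℕ}
    (f : X → Fin r) (n : ℕ) : ℝ :=
  ∑ w : Fin n → Fin r, Real.negMulLog (μ.real {x | ∀ i : Fin n, f (T^[i] x) = w i})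

/-- Kolmogorov–Sinai entropy: the supremum, over all finite measurable partitions `P`, of
`limsup (1/n) H(P ∨ T⁻¹P ∨ ⋯ ∨ T^{-(n-1)}P)`. -/
noncomputable def ksEnt {X : Type} [MeasurableSpace X] (μ : Measure X) (T : X → X) : ℝ≥0∞ :=
  ⨆ (r : ℕ) (f : X → Fin r) (_ : Measurable f),
    limsup (fun n : ℕ => ENNReal.ofReal (partEnt μ T f n / n)) atTop

lemma KS_it (m : ℕ) (ω : ℤ → Bool) (i : ℤ) : shift^[m] ω i = ω (i + m) := by
  induction m generalizing i with
  | zero => simp
  | succ m ih =>
    rw [Function.iterate_succ_apply', shift, ih, Nat.cast_succ, add_assoc, add_comm (1 : ℤ)]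

lemma KS_gibbs {W : Type} [Fintype W] (q p : W → ℝ) (hq : ∀ w, 0 ≤ q w) (hp : ∀ w, 0 < p w)
    (h : ∑ w, p w = ∑ w, q w) : ∑ w, Real.negMulLog (q w) ≤ ∑ w, q w * -Real.log (p w) := by
  have key : ∀ w, Real.negMulLog (q w) ≤ q w * -Real.log (p w) + (p w - q w) := by
    intro w
    rcases (hq w).eq_or_lt with h0 | h0
    · rw [← h0]; simp [(hp w).le]
    · have h1 := Real.log_le_sub_one_of_pos (div_pos (hp w) h0)
      rw [Real.log_div (hp w).ne' h0.ne'] at h1
      have h2 := mul_le_mul_of_nonneg_left h1 h0.le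
      have h3 : q w * (p w / q w - 1) = p w - q w := by field_simp
      rw [h3] at h2
      unfold Real.negMulLog
      linarith
  refine (Finset.sum_le_sum fun w _ => key w).trans (le_of_eq ?_)
  rw [Finset.sum_add_distrib, Finset.sum_sub_distrib, h, sub_self, add_zero]

lemma KS_apx (μ : Measure (ℤ → Bool)) [IsProbabilityMeasure μ] {r : ℕ}
    (f : (ℤ → Bool) → Fin r) (hf : Measurable f) {δ : ℝ} (hδ : 0 < δ) :
    ∃ (M : ℕ) (g : (ℤ → Bool) → Fin r) (B : Set (ℤ → Bool)), MeasurableSet B ∧ μ.real B ≤ δ ∧
      (∀ x ∉ B, g x = f x) ∧ ∀ x y, (∀ j : ℤ, j.natAbs ≤ M → x j = y j) → g x = g y := by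
  have hr : 0 < r := (f fun _ => true).pos
  haveI : Nonempty (Fin r) := ⟨⟨0, hr⟩⟩
  have hr' : (0 : ℝ) < r := by exact_mod_cast hr
  have hε : 0 < ENNReal.ofReal (δ / r) := ENNReal.ofReal_pos.mpr (div_pos hδ hr')
  choose C hC hC' using fun a : Fin r => exists_measure_symmDiff_lt_of_generateFrom_isSetRing
    (μ := μ) (isSetRing_measurableCylinders (α := fun _ : ℤ => Bool))
    ⟨{Set.univ}, Set.countable_singleton _,
      Set.singleton_subset_iff.mpr (univ_mem_measurableCylinders _), by simp⟩
    generateFrom_measurableCylinders.symm (hf (measurableSet_singleton a)) hε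
  choose s S _ hs using fun a => (mem_measurableCylinders _).mp (hC a)
  refine ⟨Finset.univ.sup fun a => (s a).sup Int.natAbs,
    fun x => Classical.epsilon fun a => x ∈ C a, ⋃ a, C a ∆ (f ⁻¹' {a}),
    MeasurableSet.iUnion fun a => (MeasurableSet.of_mem_measurableCylinders (hC a)).symmDiff
      (hf (measurableSet_singleton a)), ?_, fun x hx => ?_, fun x y hxy => ?_⟩
  · refine (measureReal_iUnion_fintype_le _).trans ?_
    refine (Finset.sum_le_sum fun a _ => ENNReal.toReal_le_of_le_ofReal (div_pos hδ hr').le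
      (hC' a).le).trans (le_of_eq ?_)
    simp only [Finset.sum_const, Finset.card_univ, Fintype.card_fin, nsmul_eq_mul]
    field_simp
  · have h1 : ∀ a, x ∈ C a ↔ f x = a := by
      intro a
      have h2 : x ∉ C a ∆ (f ⁻¹' {a}) := fun h => hx (Set.mem_iUnion.mpr ⟨a, h⟩)
      simp only [Set.mem_symmDiff, Set.mem_preimage, Set.mem_singleton_iff] at h2
      tauto
    exact ((h1 _).mp (Classical.epsilon_spec (p := fun a => x ∈ C a) ⟨_, (h1 _).mpr rfl⟩)).symm
  · have e : (fun a => x ∈ C a) = fun a => y ∈ C a := by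
      funext a
      have e : (s a).restrict x = (s a).restrict y := funext fun i => hxy i
        (((s a).le_sup (f := Int.natAbs) i.2).trans
          (Finset.le_sup (f := fun a => (s a).sup Int.natAbs) (Finset.mem_univ a)))
      rw [hs a, mem_cylinder, mem_cylinder, e]
    simp only [e]

lemma KS_bd {μ : Measure (ℤ → Bool)} [IsProbabilityMeasure μ] (h : MeasurePreserving shift μ μ)
    {r : ℕ} (f : (ℤ → Bool) → Fin r) (hf : Measurable f) :
    ∃ M : ℕ, ∀ n : ℕ, partEnt μ shift f n ≤ (n + 2 * M + 1) + n * 2 := by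
  classical
  have hr : 0 < r := (f fun _ => true).pos
  have hr' : (0 : ℝ) < r := by exact_mod_cast hr
  have hl : 0 ≤ Real.log r := Real.log_natCast_nonneg r
  have h2 : Real.log 2 ≤ 1 := by
    have := Real.log_le_sub_one_of_pos (show (0 : ℝ) < 2 by norm_num); linarith
  obtain ⟨M, g, B, hB, hδ, hg, hM⟩ := KS_apx μ f hf (δ := 1 / (Real.log r + 1)) (by positivity)
  refine ⟨M, fun n => ?_⟩
  let S : Finset ℤ := Finset.Icc (-(M : ℤ)) (n + M)
  have hS : S.card = n + 2 * M + 1 := by simp only [S, Int.card_Icc]; omega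
  let ex : (S → Bool) → ℤ → Bool := fun u j => if h : j ∈ S then u ⟨j, h⟩ else false
  let k : Fin r → Fin r → ℝ := fun a b => (if a = b then 1 / 2 else 0) + 1 / (2 * r)
  have hk : ∀ a b, 0 < k a b := fun a b => by simp only [k]; split_ifs <;> positivity
  have hk1 : ∀ b, ∑ a, k a b = 1 := fun b => by
    simp only [k, Finset.sum_add_distrib, Finset.sum_ite_eq', Finset.mem_univ, if_true,
      Finset.sum_const, Finset.card_univ, Fintype.card_fin, nsmul_eq_mul]
    field_simp
    norm_num
  let c : ℝ := 1 / 2 ^ (n + 2 * M + 1)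
  have hc : 0 < c := by positivity
  let p : (Fin n → Fin r) → ℝ := fun w => ∑ u : S → Bool, c * ∏ i, k (w i) (g (shift^[i] (ex u)))
  have hp : ∀ w, 0 < p w := fun w => Finset.sum_pos
    (fun u _ => mul_pos hc (Finset.prod_pos fun i _ => hk _ _)) Finset.univ_nonempty
  have hp1 : ∑ w, p w = 1 := by
    simp only [p]
    rw [Finset.sum_comm]
    simp only [← Finset.mul_sum]
    have : ∀ u : S → Bool, ∑ w : Fin n → Fin r, ∏ i, k (w i) (g (shift^[i] (ex u))) = 1 := by
      intro u
      rw [← Fintype.prod_sum (fun (i : Fin n) a => k a (g (shift^[i] (ex u))))]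
      simp only [hk1, Finset.prod_const_one]
    simp only [this, Finset.sum_const, Finset.card_univ, Fintype.card_fun, Fintype.card_bool,
      Fintype.card_coe, hS, nsmul_eq_mul, c]
    push_cast
    field_simp
  let nm : (ℤ → Bool) → Fin n → Fin r := fun x i => f (shift^[i] x)
  have hnm : Measurable nm := measurable_pi_lambda _ fun i => hf.comp (h.iterate i).measurable
  haveI : IsProbabilityMeasure (μ.map nm) := Measure.isProbabilityMeasure_map hnm.aemeasurable
  have hq : ∀ w, μ.real {x | ∀ i : Fin n, f (shift^[i] x) = w i} = (μ.map nm).real {w} := by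
    intro w
    rw [map_measureReal_apply hnm (measurableSet_singleton w)]
    exact congrArg μ.real (Set.ext fun x => by simp [nm, funext_iff])
  have hpt : ∀ x, -Real.log (p (nm x)) ≤ (n + 2 * M + 1) +
      ∑ i : Fin n, (1 + Real.log r * (shift^[i] ⁻¹' B).indicator (1 : (ℤ → Bool) → ℝ) x) := by
    intro x
    have e : ∀ i : Fin n, g (shift^[i] (ex fun j => x j)) = g (shift^[i] x) := by
      intro i
      refine hM _ _ fun j hj => ?_
      have hi := i.2
      have hm : j + (i : ℕ) ∈ S := by simp only [S, Finset.mem_Icc]; omega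
      simp only [KS_it, ex, dif_pos hm]
    have h1 : c * ∏ i, k (nm x i) (g (shift^[i] x)) ≤ p (nm x) := by
      have := Finset.single_le_sum (s := Finset.univ)
        (f := fun u : S → Bool => c * ∏ i, k (nm x i) (g (shift^[i] (ex u))))
        (fun u _ => (mul_pos hc (Finset.prod_pos fun i _ => hk _ _)).le)
        (Finset.mem_univ fun j : S => x j)
      simpa only [e] using this
    have h3 := Real.log_le_log (mul_pos hc (Finset.prod_pos fun i _ => hk _ _)) h1
    rw [Real.log_mul hc.ne' (Finset.prod_pos fun i _ => hk _ _).ne',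
      Real.log_prod fun i _ => (hk _ _).ne'] at h3
    have h4 : Real.log c = -((n + 2 * M + 1 : ℕ) * Real.log 2) := by
      simp only [c, one_div, Real.log_inv, Real.log_pow]
    have h5 : ∀ i : Fin n, -Real.log (k (nm x i) (g (shift^[i] x))) ≤
        1 + Real.log r * (shift^[i] ⁻¹' B).indicator (1 : (ℤ → Bool) → ℝ) x := by
      intro i
      by_cases hx : x ∈ shift^[i] ⁻¹' B
      · have h6 : 1 / (2 * r : ℝ) ≤ k (nm x i) (g (shift^[i] x)) := by
          simp only [k]; split_ifs <;> linarith
        have h7 := Real.log_le_log (by positivity) h6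
        rw [one_div, Real.log_inv, Real.log_mul two_ne_zero hr'.ne'] at h7
        rw [Set.indicator_of_mem hx, Pi.one_apply]
        linarith
      · have h6 : 1 / (2 : ℝ) ≤ k (nm x i) (g (shift^[i] x)) := by
          have : (0 : ℝ) < 1 / (2 * r) := by positivity
          simp only [k, nm, hg _ hx, if_true]; linarith
        have h7 := Real.log_le_log (by positivity) h6
        rw [one_div, Real.log_inv] at h7
        rw [Set.indicator_of_notMem hx]
        linarith
    have h8 := Finset.sum_le_sum fun i (_ : i ∈ Finset.univ) => h5 i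
    rw [Finset.sum_neg_distrib] at h8
    have h9 : ((n + 2 * M + 1 : ℕ) : ℝ) * Real.log 2 ≤ (n + 2 * M + 1 : ℕ) :=
      mul_le_of_le_one_right (Nat.cast_nonneg _) h2
    push_cast at h4 h9
    linarith
  have hm : ∀ i : Fin n, MeasurableSet (shift^[i] ⁻¹' B) := fun i => (h.iterate _).measurable hB
  have hi : ∀ i : Fin n, Integrable (fun x => 1 + Real.log r *
      (shift^[i] ⁻¹' B).indicator (1 : (ℤ → Bool) → ℝ) x) μ := fun i =>
    (integrable_const _).add (((integrable_const _).indicator (hm i)).const_mul _)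
  have hI : ∀ i : Fin n, ∫ x, (1 + Real.log r *
      (shift^[i] ⁻¹' B).indicator (1 : (ℤ → Bool) → ℝ) x) ∂μ ≤ 2 := by
    intro i
    rw [integral_add (integrable_const _) (((integrable_const _).indicator (hm i)).const_mul _),
      integral_const_mul, integral_indicator_one (hm i),
      (h.iterate _).measureReal_preimage hB.nullMeasurableSet, integral_const, probReal_univ,
      one_smul]
    have h3 := mul_le_mul_of_nonneg_left hδ hl
    have h4 : Real.log r * (1 / (Real.log r + 1)) ≤ 1 := by
      rw [mul_one_div, div_le_one (by positivity)]; linarith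
    linarith
  unfold partEnt
  simp only [hq]
  refine (KS_gibbs _ p (fun w => measureReal_nonneg) hp (by rw [hp1]; simp)).trans ?_
  have hF : Integrable (fun w => -Real.log (p w)) (μ.map nm) := Integrable.of_finite
  have h3 := integral_fintype hF
  simp only [smul_eq_mul] at h3
  rw [← h3, integral_map hnm.aemeasurable hF.aestronglyMeasurable]
  refine (integral_mono (hF.comp_measurable hnm)
    ((integrable_const _).add (integrable_finsetSum _ fun i _ => hi i)) hpt).trans ?_
  simp only [Pi.add_apply]
  rw [integral_add (integrable_const _) (integrable_finsetSum _ fun i _ => hi i),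
    integral_finsetSum _ fun i _ => hi i, integral_const, probReal_univ, one_smul]
  have h4 := Finset.sum_le_sum fun i (_ : i ∈ Finset.univ) => hI i
  simp only [Finset.sum_const, Finset.card_univ, Fintype.card_fin, nsmul_eq_mul] at h4
  linarith

/-- every shift-invariant probability on `{0,1}^ℤ` has finite Kolmogorov–Sinai entropy -/
theorem ks_shift {μ : Measure (ℤ → Bool)} [IsProbabilityMeasure μ]
    (h : MeasurePreserving shift μ μ) : ksEnt μ shift < ⊤ := by
  refine lt_of_le_of_lt (b := ENNReal.ofReal 4) ?_ ENNReal.ofReal_lt_top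
  refine iSup_le fun r => iSup_le fun f => iSup_le fun hf => ?_
  obtain ⟨M, hM⟩ := KS_bd h f hf
  refine limsup_le_of_le (by isBoundedDefault) ?_
  filter_upwards [eventually_ge_atTop (2 * M + 1)] with n hn
  refine ENNReal.ofReal_le_ofReal ?_
  have hn' : (2 * M + 1 : ℝ) ≤ n := by exact_mod_cast hn
  have hM' : (0 : ℝ) ≤ M := Nat.cast_nonneg M
  rw [div_le_iff₀ (by linarith)]
  linarith [hM n]

end Vale.Agent.P109N
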