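import Vale.Agent.P109N.Def2
import Vale.Agent.P109N.Epoch
import Vale.Agent.P109N.Had
import Vale.Agent.P109N.Down

namespace Vale.Agent.P109N

open MeasureTheory Matrix Manifold

variable {d : ℕ}

lemma seq_next (j : ℕ) (a : {a : Lev // Good a}) : ∃ b : {a : Lev // Good a},
    St a.1 b.1 ∧ j + 1 ≤ b.1.N ∧ Kill (Nat.unpair j).1 (Nat.unpair j).2 b.1 := by
  obtain ⟨b, h1, h2⟩ := epoch (Nat.unpair j).1 (Nat.unpair j).2 a.2
  have hb : b.Ok := by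
    obtain ⟨k, ψ, h⟩ := h1
    exact h.ok'
  obtain ⟨c, h3, h4, h5⟩ := had b hb (j + 1)
  exact ⟨⟨c, h4⟩, h1.trans h3, h5, h2.up h3⟩

theorem exists_chain : ∃ (a : ℕ → Lev) (k : ℕ → ℕ) (ψ : ∀ j, (a (j + 1)).I → ℕ → (a j).I),
    Chain a k ψ ∧ (∀ j, Good (a j) ∧ j ≤ (a j).N) ∧ ∀ d R, ∃ j, Kill d R (a j) := by
  choose nx h1 h2 h3 using seq_next
  obtain ⟨b, -, hb, -⟩ := had ⟨1, 1, fun _ _ => false⟩ ⟨one_pos, one_pos⟩ 0
  let a : ℕ → {a : Lev // Good a} := fun j => Nat.rec ⟨b, hb⟩ nx j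
  have ha : ∀ j, St (a j).1 (a (j + 1)).1 := fun j => h1 j (a j)
  choose k ψ hs using ha
  refine ⟨fun j => (a j).1, k, ψ, ⟨hs⟩, fun j => ⟨(a j).2, ?_⟩, fun d R => ?_⟩
  · cases j with
    | zero => exact Nat.zero_le _
    | succ j => exact h2 j (a j)
  · refine ⟨Nat.pair d R + 1, ?_⟩
    have := h3 (Nat.pair d R) (a (Nat.pair d R))
    rwa [Nat.unpair_pair] at this

end Vale.Agent.P109N
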