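import Mathlib

/-! Statement vocabulary: smooth positive-volume models. -/

namespace Vale.Agent.P109N

open MeasureTheory Manifold

/-- the two-sided shift on two symbols -/
def shift (ω : ℤ → Bool) : ℤ → Bool := fun n => ω (n + 1)

/-- in every chart `ν` has a smooth strictly positive density -/
def SmoothVol {d : ℕ} {H M : Type} [TopologicalSpace H] (I : ModelWithCorners ℝ (Fin d → ℝ) H)
    [TopologicalSpace M] [ChartedSpace H M] [MeasurableSpace M] (ν : Measure M) : Prop :=
  ∀ x : M, ∃ f : (Fin d → ℝ) → ℝ, ContDiffOn ℝ (⊤ : ℕ∞) f (extChartAt I x).target ∧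
    (∀ v ∈ (extChartAt I x).target, 0 < f v) ∧
    ∀ s : Set (Fin d → ℝ), MeasurableSet s → s ⊆ (extChartAt I x).target →
      ν ((extChartAt I x).source ∩ extChartAt I x ⁻¹' s) = ∫⁻ v in s, ENNReal.ofReal (f v)

end Vale.Agent.P109N
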