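import Vale.Agent.P109N.St

/-! Statement vocabulary: entropy, and smooth positive densities in Euclidean charts. -/

namespace Vale.Agent.P109N

open MeasureTheory

/-- Shannon entropy of the partition into `ξ`-names of length `n` -/
noncomputable def ent {X : Type} [MeasurableSpace X] (μ : Measure X) (T : X → X) {k : ℕ}
    (ξ : X → Fin k) (n : ℕ) : ℝ :=
  ∑ w : Fin n → Fin k, Real.negMulLog (μ.real {x | ∀ i : Fin n, ξ (T^[i] x) = w i})

/-- Kolmogorov-Sinai entropy -/
noncomputable def ksEnt {X : Type} [MeasurableSpace X] (μ : Measure X) (T : X → X) : ENNReal :=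
  ⨆ (k : ℕ) (ξ : X → Fin k) (_ : Measurable ξ),
    Filter.limsup (fun n : ℕ => ENNReal.ofReal (ent μ T ξ n / n)) Filter.atTop

/-- in every chart `ν` has a smooth strictly positive density -/
def SmoothVolE {d : ℕ} {H M : Type} [TopologicalSpace H]
    (I : ModelWithCorners ℝ (EuclideanSpace ℝ (Fin d)) H)
    [TopologicalSpace M] [ChartedSpace H M] [MeasurableSpace M] (ν : Measure M) : Prop :=
  ∀ x : M, ∃ f : EuclideanSpace ℝ (Fin d) → ℝ, ContDiffOn ℝ (⊤ : ℕ∞) f (extChartAt I x).target ∧
    (∀ v ∈ (extChartAt I x).target, 0 < f v) ∧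
    ∀ s : Set (EuclideanSpace ℝ (Fin d)), MeasurableSet s → s ⊆ (extChartAt I x).target →
      ν ((extChartAt I x).source ∩ extChartAt I x ⁻¹' s) = ∫⁻ v in s, ENNReal.ofReal (f v)

end Vale.Agent.P109N
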