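import Vale.Agent.P109N.Def2
import Vale.Agent.P109N.Meas
import Vale.Agent.P109N.MuA
import Vale.Agent.P109.St

namespace Vale.Agent.P109N

open MeasureTheory Matrix Manifold

variable {d : ℕ}

theorem Tr_iter (s : ℕ) (ω : ℤ → Bool) (n : ℤ) : shift^[s] ω n = ω (n + s) := by
  induction s generalizing n with
  | zero => simp
  | succ s ih =>
    rw [Function.iterate_succ_apply']
    show shift^[s] ω (n + 1) = _
    rw [ih]; congr 1; push_cast; ring

theorem Tr_atom {a : Lev} (hG : Good a) {μ : Measure (ℤ → Bool)} {m : Measure ((ℤ → Bool) × a.I)}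
    (hJ : Joint μ shift (fun ω => ω 0) a m) (ω : ℤ → Bool) : μ {ω} ≤ (2 * a.N : ENNReal)⁻¹ := by
  classical
  have hL : 0 < a.L := hG.1.2
  have hms : ∀ s : ℕ, Measurable fun p : (ℤ → Bool) × a.I => shift^[s] p.1 := fun s =>
    (shift_cont.measurable.iterate s).comp measurable_fst
  have h1 : ∀ s : ℕ, m.map (fun p => shift^[s] p.1) {ω} ≤ (2 * a.N : ENNReal)⁻¹ := by
    intro s
    rw [Measure.map_apply (hms s) (measurableSet_singleton ω)]
    by_cases h : ∃ u : a.I, ∀ t < a.L, ω ((t : ℤ) - s) = a.w u t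
    · obtain ⟨u, hu⟩ := h
      rw [← hJ.unif u]
      refine measure_mono_ae ?_
      filter_upwards [hJ.name] with p hp hω
      have hω' : shift^[s] p.1 = ω := hω
      by_contra hne
      have := hG.2.2 p.2 u hne
      rw [Finset.filter_eq_empty_iff.2] at this
      · simp at this; omega
      · intro t ht
        have ht' := Finset.mem_range.1 ht
        rw [← hp t ht', ← hu t ht', ← hω', Tr_iter, Tr_iter]
        simp
    · refine le_trans (le_of_eq ?_) zero_le
      refine measure_eq_zero_iff_ae_notMem.2 ?_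
      filter_upwards [hJ.name] with p hp hω
      have hω' : shift^[s] p.1 = ω := hω
      refine h ⟨p.2, fun t ht => ?_⟩
      rw [← hp t ht, ← hω', Tr_iter, Tr_iter]
      simp
  have h2 := congrArg (fun ρ : Measure (ℤ → Bool) => ρ {ω}) hJ.avg
  simp only [Measure.coe_finset_sum, Finset.sum_apply, Measure.smul_apply, smul_eq_mul] at h2
  have h3 : (a.L : ENNReal) * μ {ω} ≤ a.L * (2 * a.N : ENNReal)⁻¹ := by
    rw [← h2]
    refine (Finset.sum_le_sum fun s _ => h1 s).trans ?_
    simp
  exact (ENNReal.mul_le_mul_iff_right (by simpa using hL.ne') (by simp)).1 h3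

theorem chain_noAtoms {a : ℕ → Lev} (hG : ∀ j, Good (a j) ∧ j ≤ (a j).N) {μ : Measure (ℤ → Bool)}
    (hJ : ∀ j, ∃ m, Joint μ shift (fun ω => ω 0) (a j) m) (ω : ℤ → Bool) : μ {ω} = 0 := by
  by_contra h
  obtain ⟨j, hj⟩ := ENNReal.exists_inv_nat_lt h
  obtain ⟨m, hm⟩ := hJ j
  refine absurd ((Tr_atom (hG j).1 hm ω).trans ?_) hj.not_ge
  refine ENNReal.inv_le_inv.2 ?_
  have : j ≤ 2 * (a j).N := by have := (hG j).2; omega
  exact_mod_cast this

theorem joint_tr {Z : Type} [MeasurableSpace Z] {μ : Measure (ℤ → Bool)} {ν : Measure Z}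
    {S : Z → Z} (hS : Measurable S) (h : Vale.Agent.P109.IsoMod μ shift ν S) :
    ∃ P : Z → Bool, Measurable P ∧ ∀ a : Lev, a.Ok → ∀ m, Joint μ shift (fun ω => ω 0) a m →
      ∃ m', Joint ν S P a m' := by
  obtain ⟨X₀, Y₀, F, G, -, -, hX, -, hi, -, mF, mG, -, hinv, hmap, he⟩ := h
  have mP : Measurable fun y => G y 0 := (measurable_pi_apply 0).comp mG
  refine ⟨fun y => G y 0, mP, fun a ha m hm => ?_⟩
  have := hm.prob
  have mm : Measurable (Prod.map F (id : a.I → a.I)) := mF.prodMap measurable_id
  have hit : ∀ s : ℕ, ∀ x ∈ X₀, shift^[s] x ∈ X₀ ∧ S^[s] (F x) = F (shift^[s] x) := by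
    intro s x hx
    induction s with
    | zero => exact ⟨hx, rfl⟩
    | succ s ih =>
      rw [Function.iterate_succ_apply', Function.iterate_succ_apply', ih.2, he _ ih.1]
      refine ⟨?_, rfl⟩
      have := ih.1
      rw [← hi] at this
      exact this
  have hae : ∀ᵐ p ∂m, p.1 ∈ X₀ := by
    have := hm.fst_le ha X₀ᶜ
    rw [hX, mul_zero] at this
    exact le_zero_iff.1 this
  refine ⟨m.map (Prod.map F id), Measure.isProbabilityMeasure_map mm.aemeasurable, ?_, ?_, ?_⟩
  · have h1 : ∀ s : ℕ, (m.map (Prod.map F id)).map (fun p => S^[s] p.1) =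
        (m.map (fun p => shift^[s] p.1)).map F := by
      intro s
      have b1 : Measurable fun p : Z × a.I => S^[s] p.1 := (hS.iterate s).comp measurable_fst
      have b2 : Measurable fun p : (ℤ → Bool) × a.I => shift^[s] p.1 :=
        (shift_cont.measurable.iterate s).comp measurable_fst
      rw [Measure.map_map b1 mm, Measure.map_map mF b2]
      refine Measure.map_congr ?_
      filter_upwards [hae] with p hp
      exact (hit s _ hp).2
    simp only [h1]
    rw [← Measure.map_finset_sum mF.aemeasurable, hm.avg, Measure.map_smul, hmap]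
  · intro u
    have b : MeasurableSet {p : Z × a.I | p.2 = u} := measurable_snd (measurableSet_singleton u)
    rw [Measure.map_apply mm b]
    exact hm.unif u
  · refine (ae_map_iff mm.aemeasurable ?_).2 ?_
    · simp only [Set.setOf_forall]
      refine MeasurableSet.iInter fun s => MeasurableSet.iInter fun _ => ?_
      exact measurableSet_eq_fun (mP.comp ((hS.iterate s).comp measurable_fst))
        ((measurable_of_finite (fun u : a.I => a.w u s)).comp measurable_snd)
    · filter_upwards [hae, hm.name] with p hp hn s hs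
      show G (S^[s] (F p.1)) 0 = a.w p.2 s
      rw [(hit s _ hp).2, hinv.1 (hit s _ hp).1]
      exact hn s hs

end Vale.Agent.P109N
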